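import Mathlib

namespace Vale.Agent.P045

open Finset
open scoped BigOperators

/-- indicator of a proposition -/
noncomputable def ind (P : Prop) : ℝ := by classical exact if P then 1 else 0

theorem ind_pos {P : Prop} (h : P) : ind P = 1 := by simp [ind, h]
theorem ind_neg {P : Prop} (h : ¬ P) : ind P = 0 := by simp [ind, h]
theorem ind_nonneg (P : Prop) : 0 ≤ ind P := by unfold ind; split_ifs <;> norm_num
theorem ind_le_one (P : Prop) : ind P ≤ 1 := by unfold ind; split_ifs <;> norm_num
theorem ind_mono {P Q : Prop} (h : P → Q) : ind P ≤ ind Q := by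
  by_cases hp : P
  · rw [ind_pos hp, ind_pos (h hp)]
  · rw [ind_neg hp]; exact ind_nonneg _
theorem ind_congr {P Q : Prop} (h : P ↔ Q) : ind P = ind Q := by rw [propext h]
theorem ind_le {P : Prop} {x : ℝ} (h0 : 0 ≤ x) (h1 : P → 1 ≤ x) : ind P ≤ x := by
  by_cases hp : P
  · rw [ind_pos hp]; exact h1 hp
  · rw [ind_neg hp]; exact h0

theorem sum_ind {α : Type*} (s : Finset α) (P : α → Prop) [DecidablePred P] :
    ∑ a ∈ s, ind (P a) = (s.filter P).card := by
  rw [Finset.card_filter]
  push_cast
  exact Finset.sum_congr rfl fun a _ => by by_cases h : P a <;> simp [ind, h]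

theorem ind_forall {α : Type*} (s : Finset α) (P : α → Prop) :
    ind (∀ a ∈ s, P a) = ∏ a ∈ s, ind (P a) := by
  by_cases h : ∀ a ∈ s, P a
  · rw [ind_pos h, Finset.prod_eq_one fun a ha => ind_pos (h a ha)]
  · rw [ind_neg h]
    push Not at h
    obtain ⟨a, ha, h⟩ := h
    exact (Finset.prod_eq_zero ha (ind_neg h)).symm

section
variable {α : Type*} [Fintype α]

/-- probability under the uniform law -/
noncomputable def pr (P : α → Prop) : ℝ := 𝔼 a, ind (P a)

theorem av_mono {f g : α → ℝ} (h : ∀ a, f a ≤ g a) : 𝔼 a, f a ≤ 𝔼 a, g a :=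
  Finset.expect_le_expect fun a _ => h a

theorem av_nonneg {f : α → ℝ} (h : ∀ a, 0 ≤ f a) : 0 ≤ 𝔼 a, f a :=
  Finset.expect_nonneg fun a _ => h a

theorem av_le [Nonempty α] {f : α → ℝ} {x : ℝ} (h : ∀ a, f a ≤ x) : 𝔼 a, f a ≤ x :=
  (av_mono h).trans (Fintype.expect_const x).le

theorem av_eq (f : α → ℝ) : 𝔼 a, f a = (∑ a, f a) / Fintype.card α :=
  Fintype.expect_eq_sum_div_card f

theorem pr_nonneg (P : α → Prop) : 0 ≤ pr P := av_nonneg fun _ => ind_nonneg _

theorem pr_mono {P Q : α → Prop} (h : ∀ a, P a → Q a) : pr P ≤ pr Q :=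
  av_mono fun a => ind_mono (h a)

theorem pr_le_one [Nonempty α] (P : α → Prop) : pr P ≤ 1 := av_le fun _ => ind_le_one _

theorem pr_eq (P : α → Prop) [DecidablePred P] :
    pr P = (univ.filter P).card / Fintype.card α := by
  rw [pr, av_eq, sum_ind]

theorem pr_or (P Q : α → Prop) : pr (fun a => P a ∨ Q a) ≤ pr P + pr Q := by
  rw [pr, pr, pr, ← Finset.expect_add_distrib]
  refine av_mono fun a => ind_le (add_nonneg (ind_nonneg _) (ind_nonneg _)) fun h => ?_
  rcases h with h | h
  · rw [ind_pos h]; linarith [ind_nonneg (Q a)]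
  · rw [ind_pos h]; linarith [ind_nonneg (P a)]

theorem pr_exists {ι : Type*} (s : Finset ι) (P : ι → α → Prop) :
    pr (fun a => ∃ i ∈ s, P i a) ≤ ∑ i ∈ s, pr (P i) := by
  unfold pr
  rw [← Finset.expect_sum_comm]
  refine av_mono fun a => ind_le (Finset.sum_nonneg fun _ _ => ind_nonneg _) fun ⟨i, hi, h⟩ => ?_
  rw [← ind_pos h]
  exact Finset.single_le_sum (f := fun i => ind (P i a)) (fun _ _ => ind_nonneg _) hi

theorem pr_exists_le {ι : Type*} (s : Finset ι) (P : ι → α → Prop) {x : ℝ}
    (h : ∀ i ∈ s, pr (P i) ≤ x) : pr (fun a => ∃ i ∈ s, P i a) ≤ s.card * x :=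
  (pr_exists s P).trans ((Finset.sum_le_card_nsmul _ _ _ h).trans (nsmul_eq_mul _ _).le)

theorem exists_not [Nonempty α] {P : α → Prop} (h : pr P < 1) : ∃ a, ¬ P a := by
  by_contra hc
  push Not at hc
  rw [pr, Finset.expect_congr rfl fun a _ => ind_pos (hc a), Fintype.expect_const] at h
  exact lt_irrefl _ h

theorem markov {f : α → ℝ} (h0 : ∀ a, 0 ≤ f a) {t : ℝ} (ht : 0 < t) :
    pr (fun a => t ≤ f a) ≤ (𝔼 a, f a) / t := by
  rw [Finset.expect_div]
  exact av_mono fun a => ind_le (div_nonneg (h0 a) ht.le) fun h => (one_le_div ht).2 h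

end

section
variable {ι Ω : Type*} [Fintype ι] [DecidableEq ι] [Fintype Ω] [Nonempty Ω]

theorem av_update (j : ι) (f : (ι → Ω) → ℝ) :
    𝔼 ω, f ω = 𝔼 ω, 𝔼 a, f (Function.update ω j a) := by
  have h1 : 𝔼 ω, f ω = 𝔼 ω : ι → Ω, 𝔼 _a : Ω, f ω :=
    Finset.expect_congr rfl fun ω _ => (Fintype.expect_const _).symm
  rw [h1, ← Finset.expect_product', ← Finset.expect_product', univ_product_univ]
  let e : (ι → Ω) × Ω ≃ (ι → Ω) × Ω :=
    Function.Involutive.toPerm (fun x => (Function.update x.1 j x.2, x.1 j)) (fun x => by simp)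
  exact (Fintype.expect_equiv e _ _ fun x => rfl).symm

omit [Nonempty Ω] in
theorem av_prod (g : ι → Ω → ℝ) : 𝔼 ω : ι → Ω, ∏ j, g j (ω j) = ∏ j, 𝔼 a, g j a := by
  simp only [av_eq]
  rw [Finset.prod_div_distrib, Finset.prod_univ_sum, Fintype.piFinset_univ]
  simp

theorem hoeff (g : Ω → ℝ) (c : ℝ) (hc : 0 < c) (h0 : 𝔼 a, g a = 0) (hb : ∀ a, |g a| ≤ c) :
    𝔼 a, Real.exp (g a) ≤ Real.exp (c ^ 2 / 2) := by
  have h1 : ∀ a, Real.exp (g a) ≤ Real.cosh c + g a * (Real.sinh c / c) := by
    intro a
    obtain ⟨h1, h2⟩ := abs_le.1 (hb a)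
    have := convexOn_exp.2 (Set.mem_univ c) (Set.mem_univ (-c))
      (show 0 ≤ (c + g a) / (2 * c) by apply div_nonneg <;> linarith)
      (show 0 ≤ (c - g a) / (2 * c) by apply div_nonneg <;> linarith) (by field_simp; ring)
    simp only [smul_eq_mul] at this
    rw [show (c + g a) / (2 * c) * c + (c - g a) / (2 * c) * -c = g a by field_simp; ring] at this
    refine this.trans (le_of_eq ?_)
    rw [Real.cosh_eq, Real.sinh_eq]
    field_simp
    ring
  refine (av_mono h1).trans ?_
  rw [Finset.expect_add_distrib, Fintype.expect_const, ← Finset.expect_mul, h0, zero_mul, add_zero]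
  exact Real.cosh_le_exp_half_sq c

theorem mcd_aux (c : ℝ) (hc : 0 < c) (J : Finset ι) : ∀ f : (ι → Ω) → ℝ,
    (∀ j, j ∉ J → ∀ ω a, f (Function.update ω j a) = f ω) →
    (∀ j ω a, |f (Function.update ω j a) - f ω| ≤ c) →
    𝔼 ω, Real.exp (f ω - 𝔼 ω', f ω') ≤ Real.exp (J.card * (c ^ 2 / 2)) := by
  induction J using Finset.induction_on with
  | empty =>
    intro f h1 _
    have h2 : ∀ ω ω', f ω = f ω' := by
      intro ω ω'
      have : ∀ S : Finset ι, f (S.piecewise ω ω') = f ω' := by
        intro S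
        induction S using Finset.induction_on with
        | empty => simp
        | insert j S hj ih => rw [Finset.piecewise_insert, h1 j (by simp), ih]
      simpa using this univ
    refine av_le fun ω => ?_
    rw [Finset.expect_congr rfl fun ω' _ => h2 ω' ω, Fintype.expect_const]
    simp
  | insert j J hj ih =>
    intro f h1 h2
    let g : (ι → Ω) → ℝ := fun ω => 𝔼 a, f (Function.update ω j a)
    have g1 : ∀ ω a, g (Function.update ω j a) = g ω := fun ω a => by simp [g]
    have h3 := ih g (fun i hi ω a => by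
      by_cases e : i = j
      · rw [e, g1]
      · refine Finset.expect_congr rfl fun b _ => ?_
        rw [Function.update_comm e, h1 i (by simp [e, hi])]) (fun i ω a => by
      by_cases e : i = j
      · rw [e, g1]; simpa using hc.le
      · simp only [g]
        rw [← Finset.expect_sub_distrib]
        refine (Finset.abs_expect_le _ _).trans (av_le fun b => ?_)
        rw [Function.update_comm e]
        exact h2 _ _ _)
    have h4 : 𝔼 ω, f ω = 𝔼 ω, g ω := av_update j f
    rw [av_update j, h4, Finset.card_insert_of_notMem hj]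
    have h5 : ∀ ω, 𝔼 a, Real.exp (f (Function.update ω j a) - 𝔼 ω', g ω') ≤
        Real.exp (c ^ 2 / 2) * Real.exp (g ω - 𝔼 ω', g ω') := by
      intro ω
      have := hoeff (fun a => f (Function.update ω j a) - g ω) c hc (by
        rw [Finset.expect_sub_distrib, Fintype.expect_const]; exact sub_self _) (fun a => by
        have e : f (Function.update ω j a) - g ω =
            𝔼 b, (f (Function.update ω j a) - f (Function.update ω j b)) := by
          rw [Finset.expect_sub_distrib, Fintype.expect_const]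
        rw [e]
        refine (Finset.abs_expect_le _ _).trans (av_le fun b => ?_)
        have := h2 j (Function.update ω j b) a
        rwa [Function.update_idem] at this)
      refine le_trans (le_of_eq ?_) (mul_le_mul_of_nonneg_right this (Real.exp_pos _).le)
      rw [Finset.expect_mul]
      refine Finset.expect_congr rfl fun a _ => ?_
      rw [← Real.exp_add]
      congr 1
      ring
    refine (av_mono h5).trans ?_
    rw [← Finset.mul_expect]
    refine (mul_le_mul_of_nonneg_left h3 (Real.exp_pos _).le).trans (le_of_eq ?_)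
    rw [← Real.exp_add]
    congr 1
    push_cast
    ring

theorem mcd_upper (c t n : ℝ) (hc : 0 < c) (ht : 0 < t) (hn : (Fintype.card ι : ℝ) ≤ n)
    (hn0 : 0 < n) (f : (ι → Ω) → ℝ) (h : ∀ j ω a, |f (Function.update ω j a) - f ω| ≤ c) :
    pr (fun ω => 𝔼 ω', f ω' + t ≤ f ω) ≤ Real.exp (-(t ^ 2 / (2 * n * c ^ 2))) := by
  set l := t / (n * c ^ 2) with hl
  have l0 : 0 < l := by positivity
  have h1 := mcd_aux (l * c) (by positivity) univ (fun ω => l * f ω) (by simp) (fun j ω a => by
    rw [← mul_sub, abs_mul, abs_of_pos l0]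
    exact mul_le_mul_of_nonneg_left (h j ω a) l0.le)
  rw [← Finset.mul_expect] at h1
  have h2 := markov (f := fun ω => Real.exp (l * f ω - l * 𝔼 ω', f ω'))
    (fun _ => (Real.exp_pos _).le) (Real.exp_pos (l * t))
  refine le_trans (pr_mono fun ω hω => Real.exp_le_exp.2 (by nlinarith)) (h2.trans ?_)
  rw [div_le_iff₀ (Real.exp_pos _), ← Real.exp_add]
  refine h1.trans (Real.exp_le_exp.2 ?_)
  rw [Finset.card_univ]
  refine (mul_le_mul_of_nonneg_right hn (by positivity)).trans (le_of_eq ?_)
  rw [hl]
  field_simp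
  ring

theorem mcd (c t n : ℝ) (hc : 0 < c) (ht : 0 < t) (hn : (Fintype.card ι : ℝ) ≤ n)
    (hn0 : 0 < n) (f : (ι → Ω) → ℝ) (h : ∀ j ω a, |f (Function.update ω j a) - f ω| ≤ c) :
    pr (fun ω => t ≤ |f ω - 𝔼 ω', f ω'|) ≤ 2 * Real.exp (-(t ^ 2 / (2 * n * c ^ 2))) := by
  have h1 := mcd_upper c t n hc ht hn hn0 f h
  have h2 := mcd_upper c t n hc ht hn hn0 (fun ω => - f ω) (fun j ω a => by
    rw [← abs_neg]; simpa [sub_eq_add_neg, add_comm] using h j ω a)
  rw [Finset.expect_neg_distrib] at h2
  refine le_trans (pr_mono fun ω hω => ?_) ((pr_or (fun ω => 𝔼 ω', f ω' + t ≤ f ω)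
    (fun ω => -𝔼 i, f i + t ≤ -f ω)).trans (by linarith))
  rcases le_abs.1 hω with h | h
  · left; linarith
  · right; linarith

end

/-- independent transversals, by counting -/
theorem transversal {τ β : Type*} [Fintype τ] [DecidableEq τ] [DecidableEq β] (O : τ → Finset β)
    (R : τ → β → τ → β → Prop) (Δ : ℝ) (hΔ : 0 < Δ) (hO : ∀ t, 4 * Δ ≤ (O t).card)
    (hR : ∀ t, ∀ x ∈ O t, ∑ t', ∑ x' ∈ O t', ind (t' ≠ t ∧ (R t x t' x' ∨ R t' x' t x)) ≤ Δ) :
    ∃ σ : τ → β, (∀ t, σ t ∈ O t) ∧ ∀ t t', t ≠ t' → ¬ R t (σ t) t' (σ t') := by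
  classical
  have hne : ∀ t, (O t).Nonempty := fun t => Finset.card_pos.1 (by
    have := hO t
    exact_mod_cast (by linarith : (0 : ℝ) < (O t).card))
  choose d hd using hne
  let V : Finset τ → Finset (τ → β) := fun J => (Fintype.piFinset O).filter fun σ =>
    (∀ t, t ∉ J → σ t = d t) ∧ ∀ t ∈ J, ∀ t' ∈ J, t ≠ t' → ¬ R t (σ t) t' (σ t')
  have key : ∀ n, ∀ J : Finset τ, J.card = n → ∀ t, t ∉ J →
      2 * Δ * (V J).card ≤ (V (insert t J)).card := by
    intro n
    induction n using Nat.strong_induction_on with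
    | _ n ih =>
    intro J hJ t ht
    have h1 : ∀ t' ∈ J, ∀ x', (((V J).filter fun σ => σ t' = x').card : ℝ) ≤
        (V J).card / (2 * Δ) := by
      intro t' ht' x'
      have h2 := ih _ (by rw [← hJ]; exact Finset.card_erase_lt_of_mem ht') (J.erase t') rfl t'
        (Finset.notMem_erase _ _)
      rw [Finset.insert_erase ht'] at h2
      rw [le_div_iff₀ (by positivity), mul_comm]
      refine le_trans (mul_le_mul_of_nonneg_left ?_ (by positivity)) h2
      refine Nat.cast_le.2 (Finset.card_le_card_of_injOn (fun σ => Function.update σ t' (d t'))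
        (fun σ hσ => ?_) fun σ hσ σ' hσ' e => ?_)
      · simp only [V, coe_filter, mem_filter, Fintype.mem_piFinset, Set.mem_setOf_eq] at hσ ⊢
        obtain ⟨⟨a, b, c⟩, -⟩ := hσ
        refine ⟨fun s => ?_, fun s hs => ?_, fun s hs s' hs' hne => ?_⟩
        · by_cases e : s = t'
          · rw [e, Function.update_self]; exact hd _
          · rw [Function.update_of_ne e]; exact a s
        · by_cases e : s = t'
          · rw [e, Function.update_self]
          · rw [Function.update_of_ne e]; exact b s (by simpa [e] using hs)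
        · rw [mem_erase] at hs hs'
          rw [Function.update_of_ne hs.1, Function.update_of_ne hs'.1]
          exact c s hs.2 s' hs'.2 hne
      · simp only [coe_filter, Set.mem_setOf_eq] at hσ hσ'
        funext s
        by_cases e' : s = t'
        · rw [e', hσ.2, hσ'.2]
        · simpa [e'] using congrFun e s
    let G := (V J ×ˢ O t).filter fun y => ∀ t' ∈ J, ¬ (R t y.2 t' (y.1 t') ∨ R t' (y.1 t') t y.2)
    have h2 : G.card ≤ (V (insert t J)).card := by
      refine Finset.card_le_card_of_injOn (fun y => Function.update y.1 t y.2)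
        (fun y hy => ?_) fun y hy y' hy' e => ?_
      · simp only [V, G, coe_filter, mem_filter, mem_product, Fintype.mem_piFinset,
          Set.mem_setOf_eq] at hy ⊢
        obtain ⟨⟨⟨a, b, c⟩, a'⟩, b'⟩ := hy
        refine ⟨fun s => ?_, fun s hs => ?_, fun s hs s' hs' hne => ?_⟩
        · by_cases e : s = t
          · rw [e, Function.update_self]; exact a'
          · rw [Function.update_of_ne e]; exact a s
        · rw [mem_insert, not_or] at hs
          rw [Function.update_of_ne hs.1]; exact b s hs.2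
        · by_cases e : s = t
          · subst e
            have hs'' : s' ∈ J := (mem_insert.1 hs').resolve_left hne.symm
            rw [Function.update_self, Function.update_of_ne hne.symm]
            exact fun h => b' s' hs'' (Or.inl h)
          · have hs1 : s ∈ J := (mem_insert.1 hs).resolve_left e
            by_cases e' : s' = t
            · subst e'
              rw [Function.update_self, Function.update_of_ne e]
              exact fun h => b' s hs1 (Or.inr h)
            · rw [Function.update_of_ne e, Function.update_of_ne e']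
              exact c s hs1 s' ((mem_insert.1 hs').resolve_left e') hne
      · simp only [V, G, coe_filter, mem_filter, mem_product, Set.mem_setOf_eq] at hy hy'
        refine Prod.ext (funext fun s => ?_) (by simpa using congrFun e t)
        by_cases e' : s = t
        · rw [e', hy.1.1.2.1 t ht, hy'.1.1.2.1 t ht]
        · simpa [e'] using congrFun e s
    have h3 : ((V J).card : ℝ) * (O t).card ≤ G.card + ∑ x ∈ O t, ∑ t' ∈ J, ∑ x' ∈ O t',
        ind (t' ≠ t ∧ (R t x t' x' ∨ R t' x' t x)) * ((V J).filter fun σ => σ t' = x').card := by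
      simp only [G, ← sum_ind, Finset.mul_sum]
      rw [Finset.sum_product_right, ← Finset.sum_add_distrib, mul_comm, ← nsmul_eq_mul]
      refine Finset.card_nsmul_le_sum _ _ _ fun x hx => ?_
      simp only [Finset.sum_comm (t := V J)]
      rw [← Finset.sum_add_distrib]
      refine le_trans (by simp) (Finset.card_nsmul_le_sum (V J) _ 1 fun σ hσ => ?_)
      have nn : ∀ t' x', 0 ≤ ind (t' ≠ t ∧ (R t x t' x' ∨ R t' x' t x)) * ind (σ t' = x') :=
        fun _ _ => mul_nonneg (ind_nonneg _) (ind_nonneg _)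
      by_cases h : ∀ t' ∈ J, ¬ (R t x t' (σ t') ∨ R t' (σ t') t x)
      · rw [ind_pos h]
        exact le_add_of_nonneg_right (Finset.sum_nonneg fun _ _ =>
          Finset.sum_nonneg fun _ _ => nn _ _)
      · rw [ind_neg h, zero_add]
        simp only [not_forall, not_not] at h
        obtain ⟨t', ht', h⟩ := h
        refine le_trans ?_ (Finset.single_le_sum (fun _ _ => Finset.sum_nonneg fun _ _ => nn _ _)
          ht')
        refine le_trans ?_ (Finset.single_le_sum (fun _ _ => nn _ _)
          (Fintype.mem_piFinset.1 (mem_filter.1 hσ).1 t'))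
        rw [ind_pos ⟨fun e => ht (e ▸ ht'), h⟩, ind_pos rfl, one_mul]
    have h4 : ∑ x ∈ O t, ∑ t' ∈ J, ∑ x' ∈ O t',
        ind (t' ≠ t ∧ (R t x t' x' ∨ R t' x' t x)) * ((V J).filter fun σ => σ t' = x').card ≤
        (O t).card * (Δ * ((V J).card / (2 * Δ))) := by
      rw [← nsmul_eq_mul]
      refine Finset.sum_le_card_nsmul _ _ _ fun x hx => ?_
      refine le_trans ?_ (mul_le_mul_of_nonneg_right (hR t x hx) (by positivity))
      rw [Finset.sum_mul]
      refine le_trans (Finset.sum_le_sum fun t' ht' => ?_) (Finset.sum_le_sum_of_subset_of_nonneg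
        (subset_univ J) fun _ _ _ => mul_nonneg (Finset.sum_nonneg fun _ _ => ind_nonneg _)
        (by positivity))
      rw [Finset.sum_mul]
      exact Finset.sum_le_sum fun x' _ => mul_le_mul_of_nonneg_left (h1 t' ht' x') (ind_nonneg _)
    have h5 : Δ * ((V J).card / (2 * Δ)) = (V J).card / 2 := by field_simp
    have h6 : (G.card : ℝ) ≤ (V (insert t J)).card := by exact_mod_cast h2
    have h7 := mul_le_mul_of_nonneg_right (hO t) (Nat.cast_nonneg (α := ℝ) (V J).card)
    rw [h5] at h4
    nlinarith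
  have pos : ∀ J : Finset τ, (0 : ℝ) < (V J).card := by
    intro J
    induction J using Finset.induction_on with
    | empty =>
      exact_mod_cast Finset.card_pos.2 ⟨d, by simp [V, hd]⟩
    | insert t J ht ih => exact lt_of_lt_of_le (by positivity) (key _ J rfl t ht)
  obtain ⟨σ, hσ⟩ := Finset.card_pos.1 (by exact_mod_cast pos univ)
  simp only [V, mem_filter, Fintype.mem_piFinset] at hσ
  exact ⟨σ, hσ.1, fun t t' h => hσ.2.2 t (mem_univ _) t' (mem_univ _) h⟩

end Vale.Agent.P045
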