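import Mathlib
import Vale.Agent.P045.Prob

namespace Vale.Agent.P045

open Finset

abbrev Pt (p : ℕ) := ZMod p × ZMod p
abbrev Dir (p : ℕ) := Option (ZMod p)
abbrev Ln (p : ℕ) := Dir p × ZMod p

variable {p : ℕ} [Fact p.Prime]

/-- the linear form whose level sets are the lines of direction `d` -/
def pj : Dir p → Pt p → ZMod p
  | none, z => z.1
  | some a, z => z.2 - a * z.1

/-- incidence -/
def On (z : Pt p) (l : Ln p) : Prop := pj l.1 z = l.2

instance (z : Pt p) (l : Ln p) : Decidable (On z l) := by unfold On; infer_instance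

theorem dir_ex (z z' : Pt p) : ∃ d, pj d z = pj d z' := by
  by_cases h : z.1 = z'.1
  · exact ⟨none, h⟩
  · refine ⟨some ((z.2 - z'.2) / (z.1 - z'.1)), ?_⟩
    have := sub_ne_zero.2 h
    simp only [pj]
    field_simp
    ring

theorem dir_uniq {d d' : Dir p} {z z' : Pt p} (h : d ≠ d') (h1 : pj d z = pj d z')
    (h2 : pj d' z = pj d' z') : z = z' := by
  rcases d with _ | a <;> rcases d' with _ | a' <;> simp only [pj] at h1 h2
  · exact absurd rfl h
  · exact Prod.ext h1 (by rw [h1] at h2; linear_combination h2)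
  · exact Prod.ext h2 (by rw [h2] at h1; linear_combination h1)
  · have h3 : a - a' ≠ 0 := sub_ne_zero.2 fun e => h (by rw [e])
    have h4 : z.1 = z'.1 := mul_left_cancel₀ h3 (by linear_combination h2 - h1)
    exact Prod.ext h4 (by rw [h4] at h1; linear_combination h1)

theorem meet_ex {l l' : Ln p} (h : l.1 ≠ l'.1) : ∃ z, On z l ∧ On z l' := by
  obtain ⟨d, b⟩ := l
  obtain ⟨d', b'⟩ := l'
  rcases d with _ | a <;> rcases d' with _ | a' <;> simp only [On, pj]
  · exact absurd rfl h
  · exact ⟨(b, b' + a' * b), rfl, by ring⟩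
  · exact ⟨(b', b + a * b'), by ring, rfl⟩
  · have h3 : a - a' ≠ 0 := sub_ne_zero.2 fun e => h (by rw [e])
    refine ⟨((b' - b) / (a - a'), b + a * ((b' - b) / (a - a'))), by ring, ?_⟩
    field_simp
    ring

/-- the meeting point of two lines of different directions -/
noncomputable def mt (l l' : Ln p) : Pt p :=
  if h : l.1 ≠ l'.1 then (meet_ex h).choose else 0

theorem mt_left {l l' : Ln p} (h : l.1 ≠ l'.1) : On (mt l l') l := by
  rw [mt, dif_pos h]; exact (meet_ex h).choose_spec.1

theorem mt_right {l l' : Ln p} (h : l.1 ≠ l'.1) : On (mt l l') l' := by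
  rw [mt, dif_pos h]; exact (meet_ex h).choose_spec.2

theorem ln_ext {z : Pt p} {l l' : Ln p} (a : On z l) (b : On z l') (h : l.1 = l'.1) : l = l' :=
  Prod.ext h (by rw [← a, ← b, h])

theorem pt_uniq {z z' : Pt p} {l l' : Ln p} (h : l ≠ l') (a : On z l) (b : On z l') (a' : On z' l)
    (b' : On z' l') : z = z' :=
  dir_uniq (fun e => h (ln_ext a b e)) (a.trans a'.symm) (b.trans b'.symm)

theorem ln_uniq {z z' : Pt p} {l l' : Ln p} (h : z ≠ z') (a : On z l) (b : On z l') (a' : On z' l)
    (b' : On z' l') : l = l' := by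
  by_contra e
  exact h (pt_uniq e a b a' b')

theorem eq_mt {z : Pt p} {l l' : Ln p} (h : l.1 ≠ l'.1) (a : On z l) (b : On z l') :
    z = mt l l' :=
  pt_uniq (fun e => h (by rw [e])) a b (mt_left h) (mt_right h)

/-- the line through `z` of direction `d` -/
def thr (d : Dir p) (z : Pt p) : Ln p := (d, pj d z)

theorem on_thr (d : Dir p) (z : Pt p) : On z (thr d z) := rfl

theorem eq_thr {z : Pt p} {l : Ln p} (h : On z l) : l = thr l.1 z := Prod.ext rfl h.symm

/-- parametrisation of a line -/
def par : Ln p → ZMod p → Pt p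
  | (none, b), u => (b, u)
  | (some a, b), u => (u, b + a * u)

theorem on_par (l : Ln p) (u : ZMod p) : On (par l u) l := by
  obtain ⟨_ | a, b⟩ := l <;> simp [On, pj, par]

theorem par_inj (l : Ln p) : Function.Injective (par l) := by
  obtain ⟨_ | a, b⟩ := l <;> intro u u' h <;> simp only [par, Prod.mk.injEq] at h <;> tauto

theorem par_surj {l : Ln p} {z : Pt p} (h : On z l) : ∃ u, par l u = z := by
  obtain ⟨_ | a, b⟩ := l <;> simp only [On, pj] at h
  · exact ⟨z.2, Prod.ext h.symm rfl⟩
  · exact ⟨z.1, Prod.ext rfl (by simp only [par]; linear_combination -h)⟩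

/-- the points of a line -/
def pts (l : Ln p) : Finset (Pt p) := univ.filter fun z => On z l

theorem mem_pts {l : Ln p} {z : Pt p} : z ∈ pts l ↔ On z l := by simp [pts]

theorem pts_eq (l : Ln p) : pts l = univ.map ⟨par l, par_inj l⟩ := by
  ext z
  simp only [mem_pts, mem_map, mem_univ, true_and, Function.Embedding.coeFn_mk]
  exact ⟨par_surj, fun ⟨u, h⟩ => h ▸ on_par l u⟩

theorem card_pts (l : Ln p) : (pts l).card = p := by
  rw [pts_eq, card_map, card_univ, ZMod.card]

theorem card_Pt : Fintype.card (Pt p) = p * p := by simp [ZMod.card]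
theorem card_Dir : Fintype.card (Dir p) = p + 1 := by simp [ZMod.card]
theorem card_Ln : Fintype.card (Ln p) = (p + 1) * p := by simp [ZMod.card]

theorem p_pos : (0 : ℝ) < p := by exact_mod_cast (Fact.out : p.Prime).pos

/-- the lines through a point -/
def lns (z : Pt p) : Finset (Ln p) := univ.filter fun l => On z l

theorem mem_lns {l : Ln p} {z : Pt p} : l ∈ lns z ↔ On z l := by simp [lns]

theorem card_lns (z : Pt p) : (lns z).card = p + 1 := by
  rw [← card_Dir (p := p), ← card_univ]
  exact Finset.card_bij (fun l _ => l.1) (by simp)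
    (fun l hl l' hl' e => ln_ext (mem_lns.1 hl) (mem_lns.1 hl') e)
    fun d _ => ⟨thr d z, mem_lns.2 (on_thr d z), rfl⟩

theorem card_dirl (d : Dir p) : (univ.filter fun l : Ln p => l.1 = d).card = p := by
  conv_rhs => rw [← ZMod.card p, ← card_univ]
  exact Finset.card_bij (fun l _ => l.2) (by simp)
    (fun l hl l' hl' e => Prod.ext (by simp_all) e) fun b _ => ⟨(d, b), by simp, rfl⟩

theorem card_common {z z' : Pt p} (h : z ≠ z') :
    (univ.filter fun l : Ln p => On z l ∧ On z' l).card = 1 := by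
  obtain ⟨d, hd⟩ := dir_ex z z'
  refine Finset.card_eq_one.2 ⟨thr d z, ?_⟩
  ext l
  simp only [mem_filter, mem_univ, true_and, mem_singleton]
  exact ⟨fun hl => ln_uniq h hl.1 (on_thr d z) hl.2 hd.symm, fun e => e ▸ ⟨on_thr d z, hd.symm⟩⟩

theorem sum_pts (φ : Pt p → ℝ) (l : Ln p) : ∑ z ∈ pts l, φ z = ∑ z, ind (On z l) * φ z := by
  rw [pts, Finset.sum_filter]
  exact Finset.sum_congr rfl fun z _ => by by_cases h : On z l <;> simp [h, ind]

theorem variance (φ : Pt p → ℝ) :
    ∑ l : Ln p, (∑ z ∈ pts l, φ z - (∑ z, φ z) / p) ^ 2 ≤ p * ∑ z, φ z ^ 2 := by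
  have h1 : ∑ l : Ln p, ∑ z ∈ pts l, φ z = (p + 1) * ∑ z, φ z := by
    simp only [sum_pts]
    rw [Finset.sum_comm, Finset.mul_sum]
    refine Finset.sum_congr rfl fun z _ => ?_
    rw [← Finset.sum_mul, sum_ind]
    exact congrArg (· * φ z) (by exact_mod_cast card_lns z)
  have h2 : ∑ l : Ln p, (∑ z ∈ pts l, φ z) ^ 2 = p * ∑ z, φ z ^ 2 + (∑ z, φ z) ^ 2 := by
    simp only [sum_pts, sq, Finset.sum_mul_sum]
    rw [Finset.sum_comm, Finset.mul_sum, ← Finset.sum_add_distrib]
    refine Finset.sum_congr rfl fun z _ => ?_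
    rw [Finset.sum_comm]
    have : ∀ z', ∑ l : Ln p, ind (On z l) * φ z * (ind (On z' l) * φ z') =
        (if z = z' then p * (φ z * φ z) else 0) + φ z * φ z' := by
      intro z'
      have e : ∀ l : Ln p, ind (On z l) * φ z * (ind (On z' l) * φ z') =
          ind (On z l ∧ On z' l) * (φ z * φ z') := fun l => by
        by_cases a : On z l <;> by_cases b : On z' l <;> simp [a, b, ind]
      simp only [e]
      rw [← Finset.sum_mul, sum_ind]
      split_ifs with h
      · subst h
        simp only [and_self]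
        rw [show (univ.filter fun l : Ln p => On z l) = lns z from rfl, card_lns]
        push_cast
        ring
      · rw [card_common h]; simp
    simp only [this, Finset.sum_add_distrib, Finset.sum_ite_eq, mem_univ, if_true]
  simp only [sub_sq, Finset.sum_add_distrib, Finset.sum_sub_distrib, h2, ← Finset.sum_mul,
    ← Finset.mul_sum, h1, Finset.sum_const, card_univ, card_Ln, nsmul_eq_mul]
  have := p_pos (p := p)
  generalize ∑ z, φ z = S
  have e : S ^ 2 - 2 * ((p + 1) * S) * (S / p) + (((p + 1) * p : ℕ) : ℝ) * (S / p) ^ 2 =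
      - (S ^ 2 / p) := by
    push_cast
    field_simp
    ring
  have : 0 ≤ S ^ 2 / p := by positivity
  linarith

theorem card_heavy (φ : Pt p → ℝ) (t : ℝ) (ht : 0 < t) :
    ((univ.filter fun l : Ln p => (∑ z, φ z) / p + t ≤ ∑ z ∈ pts l, φ z).card : ℝ) ≤
      p * (∑ z, φ z ^ 2) / t ^ 2 := by
  rw [le_div_iff₀ (by positivity), ← nsmul_eq_mul]
  refine le_trans (Finset.card_nsmul_le_sum _ _ _ fun l hl => ?_)
    ((Finset.sum_le_sum_of_subset_of_nonneg (subset_univ _) fun _ _ _ => sq_nonneg _).trans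
    (variance φ))
  exact pow_le_pow_left₀ ht.le (by linarith [(mem_filter.1 hl).2]) 2

/-- number of lines of `C` through `z` -/
def mul (C : Finset (Ln p)) (z : Pt p) : ℕ := (C.filter fun l => On z l).card

theorem sum_mul_pts (C : Finset (Ln p)) (φ : Pt p → ℝ) :
    ∑ l ∈ C, ∑ z ∈ pts l, φ z = ∑ z, mul C z * φ z := by
  simp only [sum_pts]
  rw [Finset.sum_comm]
  exact Finset.sum_congr rfl fun z _ => by rw [← Finset.sum_mul, sum_ind, mul]

/-- other lines of `C` meet `l` in at most one point -/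
theorem sum_mul_line (C : Finset (Ln p)) {l : Ln p} (hl : l ∉ C) :
    ∑ z ∈ pts l, (mul C z : ℝ) ≤ C.card := by
  simp only [mul, ← sum_ind]
  rw [Finset.sum_comm, Finset.card_eq_sum_ones]
  push_cast
  refine Finset.sum_le_sum fun l' hl' => ?_
  rw [sum_ind]
  exact_mod_cast Finset.card_le_one.2 fun z hz z' hz' => pt_uniq (l := l) (l' := l')
    (fun e => hl (e ▸ hl')) (mem_pts.1 (mem_filter.1 hz).1) (mem_filter.1 hz).2
    (mem_pts.1 (mem_filter.1 hz').1) (mem_filter.1 hz').2

/-- pencils of the projective plane -/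
def pen : Pt p ⊕ Dir p → Finset (Ln p)
  | .inl z => lns z
  | .inr d => univ.filter fun l => l.1 = d

/-- points not covered by `C` -/
def unc (C : Finset (Ln p)) : Finset (Pt p) := univ.filter fun z => ∀ l ∈ C, ¬ On z l

theorem card_small_sets {α : Type*} [Fintype α] [DecidableEq α] (n : ℕ) :
    ((univ : Finset (Finset α)).filter fun S => S.card ≤ n).card ≤
      (n + 1) * (Fintype.card α + 1) ^ n := by
  have : (univ : Finset (Finset α)).filter (fun S => S.card ≤ n) ⊆
      (range (n + 1)).biUnion fun j => powersetCard j univ := by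
    intro S hS
    simp only [mem_biUnion, mem_range, mem_powersetCard]
    exact ⟨_, Nat.lt_succ_of_le (mem_filter.1 hS).2, subset_univ _, rfl⟩
  refine (card_le_card this).trans (card_biUnion_le.trans ?_)
  refine (Finset.sum_le_card_nsmul _ _ ((Fintype.card α + 1) ^ n) fun j hj => ?_).trans (by simp)
  rw [card_powersetCard, card_univ]
  exact (Nat.choose_le_pow _ _).trans ((Nat.pow_le_pow_left (Nat.le_succ _) _).trans
    (Nat.pow_le_pow_right (Nat.succ_pos _) (Nat.lt_succ_iff.1 (mem_range.1 hj))))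

end Vale.Agent.P045
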