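import Mathlib
import Vale.Agent.P045.Plane

namespace Vale.Agent.P045

open Finset Polynomial

variable {p : ℕ} [Fact p.Prime]

theorem coeff_Xd (h : (ZMod p)[X]) (n : ℕ) : (X * derivative h).coeff n = n * h.coeff n := by
  rcases n with _ | n
  · simp
  · rw [coeff_X_mul, coeff_derivative]; push_cast; ring

theorem wr_deg {g h : (ZMod p)[X]} (hg : g ≠ 0) (hh : h ≠ 0)
    (e : derivative h * g = h * derivative g) (a : g.natDegree < p) (b : h.natDegree < p) :
    h.natDegree = g.natDegree := by
  have d : ∀ k : (ZMod p)[X], (X * derivative k).natDegree ≤ k.natDegree := fun k =>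
    natDegree_le_iff_coeff_eq_zero.2 fun n hn => by
      rw [coeff_Xd, coeff_eq_zero_of_natDegree_lt hn, mul_zero]
  have e2 : (X * derivative h) * g = h * (X * derivative g) := by linear_combination X * e
  have e3 := congrArg (fun k => coeff k (h.natDegree + g.natDegree)) e2
  simp only [coeff_mul_add_eq_of_natDegree_le (d h) le_rfl,
    coeff_mul_add_eq_of_natDegree_le le_rfl (d g), coeff_Xd, coeff_natDegree] at e3
  have e4 : (h.natDegree : ZMod p) = g.natDegree :=
    mul_right_cancel₀ (mul_ne_zero (leadingCoeff_ne_zero.2 hh) (leadingCoeff_ne_zero.2 hg))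
      (by linear_combination e3)
  exact Nat.ModEq.eq_of_lt_of_lt ((ZMod.natCast_eq_natCast_iff _ _ _).1 e4) b a

theorem wr_zero {g h : (ZMod p)[X]} (hg : g ≠ 0) (e : derivative h * g = h * derivative g)
    (a : g.natDegree < p) (b : h.natDegree < p) : ∃ c, h = C c * g := by
  by_cases hh : h = 0
  · exact ⟨0, by simp [hh]⟩
  have d := wr_deg hg hh e a b
  have l := leadingCoeff_ne_zero.2 hg
  refine ⟨h.leadingCoeff / g.leadingCoeff, ?_⟩
  by_contra hc
  have h1 : (h - C (h.leadingCoeff / g.leadingCoeff) * g).natDegree ≤ g.natDegree :=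
    (natDegree_sub_le _ _).trans (max_le d.le (natDegree_C_mul_le _ _))
  have h2 := wr_deg hg (sub_ne_zero.2 hc) (by
    simp only [derivative_sub, derivative_mul, derivative_C]; linear_combination e) a (h1.trans_lt a)
  apply leadingCoeff_ne_zero.2 (sub_ne_zero.2 hc)
  rw [leadingCoeff, h2, coeff_sub, coeff_C_mul, coeff_natDegree, ← d, coeff_natDegree]
  field_simp
  ring

theorem lac (w : ℕ) (hw : 4 * w + 1 < p) {r v g h : (ZMod p)[X]} (hr : r ≠ 0)
    (hs : r.natDegree = r.roots.card) (hv : v ≠ 0) (dv : v.natDegree ≤ w)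
    (e : r * v = X ^ p * g + h) (dg : g.natDegree ≤ w) (dh : h.natDegree ≤ w) :
    r.natDegree ≤ w ∨ p ≤ r.roots.toFinset.card + w ∨ ∃ a, p ≤ r.roots.count a + w := by
  have hf := mul_ne_zero hr hv
  have dm := natDegree_mul hr hv
  have cv : v.roots.card ≤ w := (card_roots' v).trans dv
  by_cases hg : g = 0
  · left
    rw [hg, mul_zero, zero_add] at e
    rw [e] at dm
    omega
  right
  have d1 : (X ^ p * g).natDegree = p + g.natDegree := by
    rw [natDegree_mul (pow_ne_zero _ X_ne_zero) hg, natDegree_X_pow]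
  have d2 : p ≤ r.natDegree + w := by
    rw [e, natDegree_add_eq_left_of_natDegree_lt (by omega)] at dm
    omega
  by_cases h1 : X * g + h = 0
  · left
    have : (univ : Finset (ZMod p)) ⊆ r.roots.toFinset ∪ v.roots.toFinset := by
      intro t _
      rw [← Multiset.toFinset_add, ← roots_mul hf, Multiset.mem_toFinset, mem_roots hf, e]
      have := congrArg (eval t) h1
      simpa [ZMod.pow_card] using this
    have := (card_le_card this).trans (card_union_le _ _)
    rw [card_univ, ZMod.card] at this
    have := Multiset.toFinset_card_le v.roots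
    omega
  by_cases h2 : derivative h * g - h * derivative g = 0
  · right
    obtain ⟨c, hc⟩ := wr_zero hg (sub_eq_zero.1 h2) (by omega) (by omega)
    refine ⟨-c, ?_⟩
    have h3 : (X - C (-c)) ^ p ∣ r * v := ⟨g, by
      rw [e, hc, C_neg, sub_neg_eq_add, add_pow_char, ← C_pow, ZMod.pow_card]; ring⟩
    have h4 := (le_rootMultiplicity_iff hf).2 h3
    rw [← count_roots, roots_mul hf, Multiset.count_add] at h4
    have := Multiset.count_le_card (-c) v.roots
    omega
  exfalso
  have hQ := mul_ne_zero h1 h2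
  have h3 : r.roots ≤ ((X * g + h) * (derivative h * g - h * derivative g)).roots := by
    rw [Multiset.le_iff_count]
    intro t
    rcases Nat.eq_zero_or_pos (r.roots.count t) with h0 | h0
    · omega
    rw [count_roots, count_roots, le_rootMultiplicity_iff hQ]
    rw [count_roots] at h0
    have a1 : (X - C t) ^ rootMultiplicity t r ∣ r * v :=
      (pow_rootMultiplicity_dvd r t).mul_right v
    have a2 := pow_sub_one_dvd_derivative_of_pow_dvd a1
    have a3 : X - C t ∣ X * g + h := by
      have := (dvd_pow_self _ h0.ne').trans a1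
      rw [dvd_iff_isRoot, e] at this
      rw [dvd_iff_isRoot]
      simpa [ZMod.pow_card] using this
    have a4 : derivative h * g - h * derivative g =
        derivative (r * v) * g - (r * v) * derivative g := by
      rw [e]
      simp only [derivative_add, derivative_mul, derivative_X_pow, ZMod.natCast_self, map_zero]
      ring
    obtain ⟨n, hn⟩ := Nat.exists_eq_succ_of_ne_zero h0.ne'
    rw [hn] at a1 a2 ⊢
    rw [pow_succ', a4]
    exact mul_dvd_mul a3 (dvd_sub (a2.mul_right _)
      (((pow_dvd_pow _ (Nat.le_succ n)).trans a1).mul_right _))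
  have h4 := (Multiset.card_le_card h3).trans (card_roots' _)
  rw [natDegree_mul h1 h2] at h4
  have h5 : (X * g + h).natDegree ≤ w + 1 := (natDegree_add_le _ _).trans
    (max_le (natDegree_mul_le.trans (by rw [natDegree_X]; omega)) (by omega))
  have h6 : (derivative h * g - h * derivative g).natDegree ≤ 2 * w := by
    have := natDegree_derivative_le h
    have := natDegree_derivative_le g
    exact (natDegree_sub_le _ _).trans
      (max_le (natDegree_mul_le.trans (by omega)) (natDegree_mul_le.trans (by omega)))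
  omega

/-- the substitution `X₀ ↦ T Z`, `X₁ ↦ Z` -/
noncomputable def hom : MvPolynomial (Fin 2) (ZMod p) →+* (ZMod p)[X][X] :=
  MvPolynomial.eval₂Hom (C.comp C) ![C X * X, X]

theorem hom_mono (t : Fin 2 →₀ ℕ) (a : ZMod p) :
    hom (MvPolynomial.monomial t a) = monomial (t 0 + t 1) (monomial (t 0) a) := by
  rw [hom, MvPolynomial.eval₂Hom_monomial, Finsupp.prod_fintype _ _ (by simp), Fin.prod_univ_two]
  simp only [← C_mul_X_pow_eq_monomial, RingHom.comp_apply, Matrix.cons_val_zero,
    Matrix.cons_val_one, map_mul, map_pow]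
  ring

theorem hom_coeff (G : MvPolynomial (Fin 2) (ZMod p)) (t : Fin 2 →₀ ℕ) :
    ((hom G).coeff (t 0 + t 1)).coeff (t 0) = G.coeff t := by
  induction G using MvPolynomial.induction_on' with
  | monomial s a =>
    rw [hom_mono, coeff_monomial, MvPolynomial.coeff_monomial]
    by_cases h : s = t
    · simp [h]
    · rw [if_neg h]
      split_ifs with h1
      · rw [coeff_monomial, if_neg]
        intro h2
        exact h (Finsupp.ext (Fin.forall_fin_two.2 ⟨h2, by omega⟩))
      · simp
  | add G G' a b => simp [a, b]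

theorem hom_coeff_lt (G : MvPolynomial (Fin 2) (ZMod p)) (n : ℕ) :
    ((hom G).coeff n).natDegree ≤ n := by
  induction G using MvPolynomial.induction_on' with
  | monomial s a =>
    rw [hom_mono, coeff_monomial]
    split_ifs with h1
    · exact (natDegree_monomial_le _).trans (by omega)
    · simp
  | add G G' a b =>
    rw [map_add, coeff_add]
    exact (natDegree_add_le _ _).trans (max_le a b)

theorem deg2 (t : Fin 2 →₀ ℕ) : (t.sum fun _ e => e) = t 0 + t 1 := by
  rw [Finsupp.sum_fintype _ _ (by simp), Fin.sum_univ_two]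

theorem hom_top (G : MvPolynomial (Fin 2) (ZMod p)) (h : ∀ x, MvPolynomial.eval x G = 0) (i : ℕ)
    (h1 : i < p) (h2 : (hom G).natDegree < i + p) : (hom G).leadingCoeff.coeff i = 0 := by
  by_cases h3 : (hom G).natDegree < i
  · exact coeff_eq_zero_of_natDegree_lt ((hom_coeff_lt G _).trans_lt h3)
  let t : Fin 2 →₀ ℕ := Finsupp.equivFunOnFinite.symm ![i, (hom G).natDegree - i]
  have t0 : t 0 = i := rfl
  have t1 : t 1 = (hom G).natDegree - i := rfl
  have e := hom_coeff G t
  rw [t0, t1, show i + ((hom G).natDegree - i) = (hom G).natDegree by omega] at e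
  rw [leadingCoeff, e]
  by_contra hc
  have h4 : G.totalDegree = t.degree := by
    rw [Finsupp.degree_eq_sum, Fin.sum_univ_two]
    refine le_antisymm (Finset.sup_le fun s hs => ?_) ?_
    · rw [deg2, t0, t1, show i + ((hom G).natDegree - i) = (hom G).natDegree by omega]
      refine le_natDegree_of_ne_zero fun e => MvPolynomial.mem_support_iff.1 hs ?_
      rw [← hom_coeff, e, coeff_zero]
    · rw [← deg2]
      exact MvPolynomial.le_totalDegree (MvPolynomial.mem_support_iff.2 hc)
  obtain ⟨s, -, hs⟩ := MvPolynomial.combinatorial_nullstellensatz_exists_eval_nonzero G t hc h4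
    (fun _ => univ) (Fin.forall_fin_two.2 ⟨by rw [card_univ, ZMod.card, t0]; exact h1,
      by rw [card_univ, ZMod.card, t1]; omega⟩)
  exact hs (h s)

theorem exists_curve (U : Finset (Pt p)) (m : ℕ) (hm : U.card < m ^ 2) :
    ∃ W : MvPolynomial (Fin 2) (ZMod p), hom W ≠ 0 ∧ (hom W).natDegree ≤ 2 * m ∧
      ∀ z ∈ U, MvPolynomial.eval ![z.1, z.2] W = 0 := by
  let A : Matrix U (Fin m × Fin m) (ZMod p) := fun z i => z.1.1 ^ (i.1 : ℕ) * z.1.2 ^ (i.2 : ℕ)
  obtain ⟨c, hc, c0⟩ := (Submodule.ne_bot_iff _).1
    (LinearMap.ker_ne_bot_of_finrank_lt (f := Matrix.mulVecLin A) (by simpa [sq] using hm))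
  let t : Fin m × Fin m → Fin 2 →₀ ℕ := fun i => Finsupp.equivFunOnFinite.symm ![i.1, i.2]
  have t0 : ∀ i, t i 0 = i.1 := fun _ => rfl
  have t1 : ∀ i, t i 1 = i.2 := fun _ => rfl
  refine ⟨∑ i, MvPolynomial.monomial (t i) (c i), fun e => c0 (funext fun i => ?_), ?_,
    fun z hz => ?_⟩
  · have := hom_coeff (∑ i, MvPolynomial.monomial (t i) (c i)) (t i)
    rw [e, coeff_zero, coeff_zero, MvPolynomial.coeff_sum, Finset.sum_eq_single i] at this
    · simpa using this.symm
    · intro j _ hj
      rw [MvPolynomial.coeff_monomial, if_neg]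
      intro e
      exact hj (Prod.ext (Fin.ext (by rw [← t0, e, t0])) (Fin.ext (by rw [← t1, e, t1])))
    · simp
  · rw [map_sum]
    refine natDegree_sum_le_of_forall_le _ _ fun i _ => ?_
    rw [hom_mono, t0, t1]
    exact (natDegree_monomial_le _).trans (by omega)
  · have := congrFun (LinearMap.mem_ker.1 hc) ⟨z, hz⟩
    simp only [Matrix.mulVecLin_apply, Matrix.mulVec, dotProduct, A, Pi.zero_apply] at this
    rw [map_sum, ← this]
    refine Finset.sum_congr rfl fun i _ => ?_
    rw [MvPolynomial.eval_monomial, Finsupp.prod_fintype _ _ (by simp), Fin.prod_univ_two, t0, t1]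
    simp [mul_comm]

theorem sw_core {ι : Type*} (J : Finset ι) (a b c : ι → ZMod p) (m : ℕ) (hm : 8 * m + 1 < p)
    (hJ : J.card ≤ p) (hab : ∀ j ∈ J, a j ≠ 0 ∨ b j ≠ 0)
    (hU : (univ.filter fun z : Pt p => ∀ j ∈ J, a j * z.1 + b j * z.2 + c j ≠ 0).card < m ^ 2) :
    (J.filter fun j => a j ≠ 0).card ≤ 2 * m ∨
      p ≤ (univ.filter fun t => ∃ j ∈ J, a j * t + b j = 0).card + 2 * m ∨
      ∃ t, p ≤ (J.filter fun j => a j * t + b j = 0).card + 2 * m := by
  obtain ⟨W, W0, W1, W2⟩ := exists_curve _ m hU
  let L : ι → MvPolynomial (Fin 2) (ZMod p) := fun j =>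
    MvPolynomial.C (a j) * MvPolynomial.X 0 + MvPolynomial.C (b j) * MvPolynomial.X 1 +
      MvPolynomial.C (c j)
  let l : ι → (ZMod p)[X] := fun j => C (a j) * X + C (b j)
  have l0 : ∀ j ∈ J, l j ≠ 0 := by
    intro j hj e
    have e0 := congrArg (coeff · 0) e
    have e1 := congrArg (coeff · 1) e
    simp only [l, coeff_add, coeff_C_mul, coeff_X, coeff_C] at e0 e1
    rcases hab j hj with h | h
    · exact h (by simpa using e1)
    · exact h (by simpa using e0)
  have l1 : ∀ j, (l j).natDegree ≤ 1 := fun j => natDegree_linear_le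
  have hL : ∀ j, hom (L j) = C (l j) * X + C (C (c j)) := by
    intro j
    simp only [L, l, hom, map_add, map_mul, MvPolynomial.eval₂Hom_C, MvPolynomial.eval₂Hom_X',
      RingHom.comp_apply, Matrix.cons_val_zero, Matrix.cons_val_one]
    ring
  have hP : (∏ j ∈ J, hom (L j)) ≠ 0 := prod_ne_zero_iff.2 fun j hj e => by
    have := leadingCoeff_linear (b := C (c j)) (l0 j hj)
    rw [← hL, e] at this
    exact l0 j hj (by simpa using this.symm)
  have top := hom_top ((∏ j ∈ J, L j) * W) (fun x => by
    rw [map_mul, map_prod]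
    by_cases h : ∀ j ∈ J, a j * x 0 + b j * x 1 + c j ≠ 0
    · have := W2 (x 0, x 1) (by simpa using h)
      rw [show x = ![x 0, x 1] from funext (Fin.forall_fin_two.2 ⟨rfl, rfl⟩), this, mul_zero]
    · push Not at h
      obtain ⟨j, hj, h⟩ := h
      rw [prod_eq_zero hj (by simpa [L] using h), zero_mul])
  have dg : (hom ((∏ j ∈ J, L j) * W)).natDegree ≤ p + 2 * m := by
    rw [map_mul, map_prod]
    refine natDegree_mul_le.trans (add_le_add ((natDegree_prod_le _ _).trans ?_) W1)
    refine (Finset.sum_le_card_nsmul _ _ 1 fun j _ => ?_).trans (by simpa using hJ)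
    rw [hL]
    exact natDegree_linear_le
  have df := (hom_coeff_lt ((∏ j ∈ J, L j) * W) _).trans dg
  rw [coeff_natDegree] at df
  have lc : (hom ((∏ j ∈ J, L j) * W)).leadingCoeff = (∏ j ∈ J, l j) * (hom W).leadingCoeff := by
    rw [map_mul, map_prod, leadingCoeff_mul, leadingCoeff_prod]
    congr 1
    exact prod_congr rfl fun j hj => by rw [hL, leadingCoeff_linear (l0 j hj)]
  rw [lc] at top df
  set f := (∏ j ∈ J, l j) * (hom W).leadingCoeff with hf
  let h : (ZMod p)[X] := ∑ i ∈ range p, monomial i (f.coeff i)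
  have hc : ∀ i, h.coeff i = if i < p then f.coeff i else 0 := by
    intro i
    simp only [h, finset_sum_coeff, coeff_monomial, Finset.sum_ite_eq', mem_range]
  obtain ⟨g, hg⟩ : X ^ p ∣ f - h := X_pow_dvd_iff.2 fun d hd => by simp [hc, hd]
  have dh : h.natDegree ≤ 2 * m := natDegree_le_iff_coeff_eq_zero.2 fun i hi => by
    rw [hc]
    split_ifs with h1
    · exact top i h1 (by omega)
    · rfl
  have dg' : g.natDegree ≤ 2 * m := by
    by_cases g0 : g = 0
    · simp [g0]
    have := natDegree_sub_le f h
    rw [hg, natDegree_mul (pow_ne_zero _ X_ne_zero) g0, natDegree_X_pow] at this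
    omega
  have r0 : (∏ j ∈ J, l j) ≠ 0 := prod_ne_zero_iff.2 l0
  have key := lac (2 * m) (by omega) r0 (Splits.prod fun j _ =>
    Splits.of_natDegree_le_one (l1 j)).natDegree_eq_card_roots (leadingCoeff_ne_zero.2 W0)
    ((hom_coeff_lt W _).trans W1) (g := g) (h := h) (by rw [← hf, ← hg]; ring) dg' dh
  rcases key with h | h | ⟨t, h⟩
  · left
    refine le_trans ?_ h
    rw [natDegree_prod _ _ l0, card_filter]
    refine Finset.sum_le_sum fun j _ => ?_
    split_ifs with h1
    · exact (natDegree_linear h1).ge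
    · exact Nat.zero_le _
  · right; left
    refine h.trans (Nat.add_le_add_right (card_le_card fun t ht => ?_) _)
    rw [Multiset.mem_toFinset, mem_roots r0, IsRoot, eval_prod, prod_eq_zero_iff] at ht
    simpa [l] using ht
  · right; right
    refine ⟨t, h.trans (Nat.add_le_add_right ?_ _)⟩
    rw [roots_prod _ _ r0, Multiset.count_bind, card_filter]
    refine Finset.sum_le_sum fun j hj => ?_
    split_ifs with h1
    · exact (Multiset.count_le_card _ _).trans ((card_roots' _).trans (l1 j))
    · rw [Nat.le_zero, Multiset.count_eq_zero, mem_roots (l0 j hj)]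
      simpa [l] using h1

/-- a direction vector -/
def vec : Dir p → Pt p
  | none => (0, 1)
  | some a => (1, a)

theorem pj_add (d : Dir p) (z z' : Pt p) : pj d (z + z') = pj d z + pj d z' := by
  rcases d with _ | a <;> simp only [pj, Prod.fst_add, Prod.snd_add] <;> ring

theorem pj_smul (d : Dir p) (t : ZMod p) (z : Pt p) : pj d (t • z) = t * pj d z := by
  rcases d with _ | a <;> simp only [pj, Prod.smul_fst, Prod.smul_snd, smul_eq_mul] <;> ring

theorem pj_vec (d : Dir p) : pj d (vec d) = 0 := by
  rcases d with _ | a <;> simp [pj, vec]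

theorem pj_vec_ne {d d' : Dir p} (h : d ≠ d') : pj d (vec d') ≠ 0 := by
  intro e
  have z : ∀ d : Dir p, pj d 0 = 0 := fun d => by rcases d with _ | a <;> simp [pj]
  have : vec d' = 0 := dir_uniq h (by rw [e, z]) (by rw [pj_vec, z])
  rcases d' with _ | a <;> simp [vec] at this

theorem card_unc (C : Finset (Ln p)) : p * p ≤ (unc C).card + C.card * p := by
  have : (univ : Finset (Pt p)) ⊆ unc C ∪ C.biUnion pts := by
    intro z _
    simp only [unc, mem_union, mem_filter, mem_univ, true_and, mem_biUnion, mem_pts]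
    by_contra h
    push Not at h
    obtain ⟨⟨l, hl, h1⟩, h2⟩ := h
    exact h2 l hl h1
  have h := (card_le_card this).trans ((card_union_le _ _).trans
    (Nat.add_le_add_left card_biUnion_le _))
  simpa [card_pts, ZMod.card] using h

theorem sw (C : Finset (Ln p)) (m : ℕ) (hm : 8 * m + 1 < p) (hC : C.card ≤ p)
    (hU : (unc C).card + p < m ^ 2) : ∃ π, p ≤ (C ∩ pen π).card + 3 * m := by
  have hn : p ≤ C.card + m := by
    have := card_unc C
    by_contra h
    nlinarith
  by_contra hcon
  push Not at hcon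
  have key : ∀ l ∈ C, (p : ℝ) - 2 * m ≤ ∑ z ∈ pts l, ind (2 ≤ mul C z) := by
    intro l hl
    obtain ⟨d, hd⟩ : ∃ d, l.1 ≠ d := by
      by_cases h : l.1 = none
      · exact ⟨some 0, by simp [h]⟩
      · exact ⟨none, h⟩
    have hv : pj l.1 (par l 0) = l.2 := on_par l 0
    generalize par l 0 = v at hv
    have on : ∀ (j : Ln p) t, pj j.1 (vec l.1) * t + (pj j.1 v - j.2) = 0 →
        On (v + t • vec l.1) j := fun j t h => by
      rw [On, pj_add, pj_smul]; linear_combination h
    have := sw_core (C.erase l) (fun j => pj j.1 (vec l.1)) (fun j => pj j.1 v - j.2)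
      (fun j => pj j.1 (vec d)) m hm (card_erase_le.trans hC) (fun j hj => by
        by_cases e : j.1 = l.1
        · right
          rw [e, hv]
          exact sub_ne_zero.2 fun e' => (mem_erase.1 hj).1 (Prod.ext e e'.symm)
        · exact Or.inl (pj_vec_ne e)) (by
        refine lt_of_le_of_lt ?_ hU
        refine (card_le_card (t := (univ.filter fun z : Pt p => (∀ j ∈ C.erase l,
          pj j.1 (vec l.1) * z.1 + (pj j.1 v - j.2) * z.2 + pj j.1 (vec d) ≠ 0) ∧ z.2 ≠ 0) ∪
          pts (some 0, 0)) fun z hz => ?_).trans ((card_union_le _ _).trans (add_le_add ?_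
          (card_pts _).le))
        · by_cases h : z.2 = 0
          · exact mem_union_right _ (mem_pts.2 (by simp [On, pj, h]))
          · exact mem_union_left _ (mem_filter.2 ⟨mem_univ _, by simpa using hz, h⟩)
        refine card_le_card_of_injOn (fun z => v + z.2⁻¹ • (z.1 • vec l.1 + vec d))
          (fun z hz => ?_) fun z hz z' hz' e => ?_
        · obtain ⟨h1, h2⟩ := (mem_filter.1 hz).2
          refine mem_filter.2 ⟨mem_univ _, fun j hj h => ?_⟩
          simp only [On, pj_add, pj_smul] at h
          by_cases e : j = l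
          · rw [e, hv, pj_vec] at h
            exact mul_ne_zero (inv_ne_zero h2) (pj_vec_ne hd) (by linear_combination h)
          · apply h1 j (mem_erase.2 ⟨e, hj⟩)
            rw [← h]
            field_simp
            ring
        · have e1 := congrArg (pj l.1) e
          have e2 := congrArg (pj d) e
          simp only [pj_add, pj_smul, pj_vec] at e1 e2
          have e3 : z.2⁻¹ = z'.2⁻¹ := mul_right_cancel₀ (pj_vec_ne hd) (by linear_combination e1)
          rw [e3] at e2
          exact Prod.ext (mul_left_cancel₀ (mul_ne_zero (inv_ne_zero (mem_filter.1 hz').2.2)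
            (pj_vec_ne hd.symm)) (by linear_combination e2)) (inv_injective e3))
    rcases this with h | h | ⟨t, h⟩
    · exfalso
      have h1 : C ⊆ (C ∩ pen (.inr l.1)) ∪ (C.erase l).filter fun j => pj j.1 (vec l.1) ≠ 0 := by
        intro j hj
        by_cases e : j.1 = l.1
        · exact mem_union_left _ (mem_inter.2 ⟨hj, by simp [pen, e]⟩)
        · exact mem_union_right _ (mem_filter.2 ⟨mem_erase.2 ⟨fun e' => e (by rw [e']), hj⟩,
            pj_vec_ne e⟩)
      have := (card_le_card h1).trans (card_union_le _ _)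
      have := hcon (.inr l.1)
      omega
    · rw [sum_ind, sub_le_iff_le_add]
      have h2 : (univ.filter fun t => ∃ j ∈ C.erase l,
          pj j.1 (vec l.1) * t + (pj j.1 v - j.2) = 0).card ≤
          ((pts l).filter fun z => 2 ≤ mul C z).card := by
        refine card_le_card_of_injOn (fun t => v + t • vec l.1) (fun t ht => ?_) fun t _ t' _ e => ?_
        · obtain ⟨j, hj, h⟩ := (mem_filter.1 ht).2
          have h0 : On (v + t • vec l.1) l := on l t (by rw [pj_vec, hv]; ring)
          exact mem_filter.2 ⟨mem_pts.2 h0, one_lt_card.2 ⟨j, mem_filter.2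
            ⟨(mem_erase.1 hj).2, on j t h⟩, l, mem_filter.2 ⟨hl, h0⟩, (mem_erase.1 hj).1⟩⟩
        · have e2 := congrArg (pj d) e
          simp only [pj_add, pj_smul] at e2
          exact mul_right_cancel₀ (pj_vec_ne hd.symm) (by linear_combination e2)
      exact_mod_cast h.trans (Nat.add_le_add_right h2 _)
    · exfalso
      have h1 : ((C.erase l).filter fun j => pj j.1 (vec l.1) * t + (pj j.1 v - j.2) = 0) ⊆
          C ∩ pen (.inl (v + t • vec l.1)) := fun j hj =>
        mem_inter.2 ⟨(mem_erase.1 (mem_filter.1 hj).1).2, mem_lns.2 (on j t (mem_filter.1 hj).2)⟩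
      have := card_le_card h1
      have := hcon (.inl (v + t • vec l.1))
      omega
  have h1 := Finset.card_nsmul_le_sum _ _ _ key
  rw [sum_mul_pts, nsmul_eq_mul] at h1
  have h2 := sum_mul_pts C fun _ => 1
  simp only [sum_const, card_pts, nsmul_eq_mul, mul_one] at h2
  have h3 : ∑ z, mul C z * ind (2 ≤ mul C z) ≤
      ∑ z, 2 * ((mul C z : ℝ) - 1 + ind (∀ l ∈ C, ¬ On z l)) := by
    refine Finset.sum_le_sum fun z _ => ?_
    have := ind_nonneg (∀ l ∈ C, ¬ On z l)
    by_cases h : 2 ≤ mul C z
    · have : (2 : ℝ) ≤ mul C z := by exact_mod_cast h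
      rw [ind_pos h]
      linarith
    · rw [ind_neg h]
      rcases Nat.eq_zero_or_pos (mul C z) with h0 | h0
      · rw [h0, ind_pos (filter_eq_empty_iff.1 (card_eq_zero.1 h0))]
        simp
      · have : (1 : ℝ) ≤ mul C z := by exact_mod_cast h0
        linarith
  simp only [← Finset.mul_sum, Finset.sum_add_distrib, Finset.sum_sub_distrib, ← h2, sum_ind,
    sum_const, card_univ, card_Pt, nsmul_eq_mul] at h3
  have a1 : ((unc C).card : ℝ) + p < m ^ 2 := by exact_mod_cast hU
  have a2 : (8 : ℝ) * m + 1 < p := by exact_mod_cast hm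
  have a3 : (C.card : ℝ) ≤ p := by exact_mod_cast hC
  have a4 : (p : ℝ) ≤ C.card + m := by exact_mod_cast hn
  have a5 : (0 : ℝ) ≤ m := by positivity
  have a6 : (7 * m : ℝ) * (6 * m) ≤ C.card * (p - 2 * m) :=
    mul_le_mul (by linarith) (by linarith) (by positivity) (by positivity)
  push_cast at h3
  rw [show (univ.filter fun z : Pt p => ∀ l ∈ C, ¬ On z l) = unc C from rfl] at h3
  nlinarith

end Vale.Agent.P045
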