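import Mathlib
import Vale.Agent.P045.Plane

namespace Vale.Agent.P045

open Finset
open scoped BigOperators

variable {p : ℕ} [Fact p.Prime] {K : ℕ}

/-- coordinates of the probability space -/
abbrev Co (p K : ℕ) := Dir p × Fin (K + 1)

/-- `W` is covered by the sampled lines with index in `J` that are not in `Ex` -/
def Cov (Ex : Finset (Ln p)) (J : Finset (Co p K)) (W : Finset (Pt p)) (ω : Co p K → ZMod p) :
    Prop := ∀ z ∈ W, ∃ c ∈ J, On z (c.1, ω c) ∧ (c.1, ω c) ∉ Ex

/-- points of `W` removed by the line `l` -/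
def rem (Ex : Finset (Ln p)) (W : Finset (Pt p)) (l : Ln p) : Finset (Pt p) :=
  W.filter fun z => On z l ∧ l ∉ Ex

theorem cov_step (Ex : Finset (Ln p)) {J : Finset (Co p K)} {j : Co p K} (hj : j ∉ J)
    (W : Finset (Pt p)) :
    pr (Cov Ex (insert j J) W) = 𝔼 a, pr (Cov Ex J (W \ rem Ex W (j.1, a))) := by
  unfold pr
  rw [av_update j, Finset.expect_comm]
  refine Finset.expect_congr rfl fun a _ => Finset.expect_congr rfl fun ω _ => ind_congr ?_
  have e : ∀ c ∈ J, Function.update ω j a c = ω c := fun c hc =>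
    Function.update_of_ne (fun e : c = j => hj (e ▸ hc)) _ _
  constructor
  · intro h z hz
    obtain ⟨c, hc, h1⟩ := h z (mem_sdiff.1 hz).1
    rcases mem_insert.1 hc with rfl | hc
    · rw [Function.update_self] at h1
      exact absurd (mem_filter.2 ⟨(mem_sdiff.1 hz).1, h1⟩) (mem_sdiff.1 hz).2
    · exact ⟨c, hc, by rwa [e c hc] at h1⟩
  · intro h z hz
    by_cases h1 : z ∈ rem Ex W (j.1, a)
    · exact ⟨j, mem_insert_self _ _, by rw [Function.update_self]; exact (mem_filter.1 h1).2⟩
    · obtain ⟨c, hc, h2⟩ := h z (mem_sdiff.2 ⟨hz, h1⟩)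
      exact ⟨c, mem_insert_of_mem hc, by rwa [e c hc]⟩

theorem av_zmod (f : ZMod p → ℝ) : 𝔼 a, f a = (∑ a, f a) / p := by rw [av_eq, ZMod.card]

theorem av_rem (Ex : Finset (Ln p)) (W : Finset (Pt p)) (d : Dir p) :
    𝔼 a, ind ((rem Ex W (d, a)).Nonempty) ≤ W.card / p := by
  rw [av_zmod, sum_ind]
  refine div_le_div_of_nonneg_right (Nat.cast_le.2 ((card_le_card fun a ha => ?_).trans
    (card_image_le (f := pj d)))) p_pos.le
  obtain ⟨z, hz⟩ := (mem_filter.1 ha).2
  exact mem_image.2 ⟨z, (mem_filter.1 hz).1, (mem_filter.1 hz).2.1⟩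

theorem two_le_p : (2 : ℝ) ≤ p := by exact_mod_cast (Fact.out : p.Prime).two_le

theorem q_nonneg : (0 : ℝ) ≤ 1 - 1 / p := by
  rw [sub_nonneg, div_le_one p_pos]; linarith [two_le_p (p := p)]

theorem q_le_one : (1 : ℝ) - 1 / p ≤ 1 := by
  have := p_pos (p := p)
  rw [sub_le_self_iff]; positivity

theorem cov_small_aux (Ex : Finset (Ln p)) (W0 : Finset (Pt p))
    (h2 : ∀ l, (rem Ex W0 l).card ≤ 2) (Mu : Finset (Dir p))
    (h1 : ∀ d, d ∉ Mu → ∀ b, (rem Ex W0 (d, b)).card ≤ 1) (J : Finset (Co p K)) :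
    ∀ W ⊆ W0, pr (Cov Ex J W) ≤ (1 + 4 * W0.card / p) ^ (J.filter fun c => c.1 ∈ Mu).card *
      (1 - (1 - 1 / p) ^ J.card / 2) ^ W.card := by
  have p0 := p_pos (p := p)
  induction J using Finset.induction_on with
  | empty =>
    intro W _
    refine av_le fun ω => ind_le (by norm_num) fun h => ?_
    rcases W.eq_empty_or_nonempty with rfl | ⟨z, hz⟩
    · simp
    · simpa using h z hz
  | insert j J hj ih =>
    intro W hW
    rw [cov_step Ex hj, card_insert_of_notMem hj]
    refine (av_mono fun a => ih _ (sdiff_subset.trans hW)).trans ?_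
    rw [← Finset.mul_expect]
    have q1 : (1 - 1 / p : ℝ) ^ J.card ≤ 1 := pow_le_one₀ q_nonneg q_le_one
    have q0 : (0 : ℝ) ≤ (1 - 1 / p : ℝ) ^ J.card := pow_nonneg q_nonneg _
    have e : 1 - (1 - 1 / p : ℝ) ^ (J.card + 1) / 2 = (1 - (1 - 1 / p : ℝ) ^ J.card / 2) +
      (1 - (1 - (1 - 1 / p : ℝ) ^ J.card / 2)) / p := by rw [pow_succ]; ring
    rw [e]
    have x0 : 1 / 2 ≤ 1 - (1 - 1 / p : ℝ) ^ J.card / 2 := by linarith
    have x1 : 1 - (1 - 1 / p : ℝ) ^ J.card / 2 ≤ 1 := by linarith
    generalize 1 - (1 - 1 / p : ℝ) ^ J.card / 2 = x at x0 x1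
    have sub : ∀ l, rem Ex W l ⊆ rem Ex W0 l := fun l => filter_subset_filter _ hW
    have cs : ∀ l, (W \ rem Ex W l).card + (rem Ex W l).card = W.card := fun l =>
      card_sdiff_add_card_eq_card (filter_subset _ _)
    have hx : x ≤ x + (1 - x) / p := le_add_of_nonneg_right (div_nonneg (by linarith) p0.le)
    rw [filter_insert]
    split_ifs with hm
    · rw [card_insert_of_notMem (fun h => hj (mem_filter.1 h).1), pow_succ, mul_assoc]
      refine mul_le_mul_of_nonneg_left ?_ (by positivity)
      have a1 : ∀ a, x ^ (W \ rem Ex W (j.1, a)).card ≤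
          (1 + 4 * ind ((rem Ex W (j.1, a)).Nonempty)) * x ^ W.card := by
        intro a
        rw [← cs (j.1, a), pow_add]
        by_cases h : (rem Ex W (j.1, a)).Nonempty
        · have : (1 / 2 : ℝ) ^ 2 ≤ x ^ (rem Ex W (j.1, a)).card :=
            (pow_le_pow_of_le_one (by norm_num) (by norm_num)
              ((card_le_card (sub _)).trans (h2 _))).trans (pow_le_pow_left₀ (by norm_num) x0 _)
          rw [ind_pos h]
          have : 0 ≤ x ^ (W \ rem Ex W (j.1, a)).card := by positivity
          nlinarith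
        · rw [ind_neg h, not_nonempty_iff_eq_empty.1 h]
          simp
      refine (av_mono a1).trans ?_
      rw [← Finset.expect_mul, Finset.expect_add_distrib, Fintype.expect_const, ← Finset.mul_expect]
      refine mul_le_mul ?_ (pow_le_pow_left₀ (by linarith) hx _) (by positivity) (by positivity)
      have := (av_rem Ex W j.1).trans (div_le_div_of_nonneg_right
        (Nat.cast_le.2 (card_le_card hW)) p0.le)
      rw [mul_div_assoc]
      linarith
    · refine mul_le_mul_of_nonneg_left ?_ (by positivity)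
      have a1 : ∀ a, x ^ (W \ rem Ex W (j.1, a)).card ≤ x ^ W.card +
          ind ((rem Ex W (j.1, a)).Nonempty) * (x ^ (W.card - 1) * (1 - x)) := by
        intro a
        have := cs (j.1, a)
        by_cases h : (rem Ex W (j.1, a)).Nonempty
        · have a := (card_le_card (sub _)).trans (h1 _ hm a)
          have b := card_pos.2 h
          rw [ind_pos h, show (W \ rem Ex W (j.1, _)).card = W.card - 1 by omega]
          obtain ⟨n, hn⟩ : ∃ n, W.card = n + 1 := ⟨W.card - 1, by omega⟩
          rw [hn, Nat.add_sub_cancel, pow_succ]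
          exact le_of_eq (by ring)
        · rw [ind_neg h, not_nonempty_iff_eq_empty.1 h]
          simp
      refine (av_mono a1).trans ?_
      rw [Finset.expect_add_distrib, Fintype.expect_const, ← Finset.expect_mul]
      refine le_trans ?_ (pow_add_mul_le_add_pow (by linarith) (by linarith) _)
      have := mul_le_mul_of_nonneg_right (av_rem Ex W j.1)
        (show 0 ≤ x ^ (W.card - 1) * (1 - x) from mul_nonneg (by positivity) (by linarith))
      refine (add_le_add_right this _).trans (le_of_eq ?_)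
      ring

theorem card_Co : Fintype.card (Co p K) = (p + 1) * (K + 1) := by simp [ZMod.card]

theorem cov_small (Ex : Finset (Ln p)) (W : Finset (Pt p)) (h2 : ∀ l, (rem Ex W l).card ≤ 2) :
    pr (Cov (K := K) Ex univ W) ≤ Real.exp (4 * W.card ^ 3 * (K + 1) / p) *
      (1 - (1 - 1 / p) ^ ((p + 1) * (K + 1)) / 2) ^ W.card := by
  classical
  have p0 := p_pos (p := p)
  let Mu := (W ×ˢ W).image fun y => (dir_ex y.1 y.2).choose
  have := cov_small_aux Ex W h2 Mu (fun d hd b => card_le_one.2 fun z hz z' hz' => by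
    by_contra h
    refine hd (mem_image.2 ⟨(z, z'), mem_product.2 ⟨(mem_filter.1 hz).1, (mem_filter.1 hz').1⟩, ?_⟩)
    by_contra e
    exact h (dir_uniq e (dir_ex z z').choose_spec
      ((mem_filter.1 hz).2.1.trans (mem_filter.1 hz').2.1.symm))) (univ : Finset (Co p K)) W
    subset_rfl
  rw [card_univ, card_Co] at this
  refine this.trans (mul_le_mul_of_nonneg_right ?_ (pow_nonneg ?_ _))
  · have c : (univ.filter fun c : Co p K => c.1 ∈ Mu).card ≤ W.card * W.card * (K + 1) := by
      rw [show (univ.filter fun c : Co p K => c.1 ∈ Mu) = Mu ×ˢ univ by ext; simp, card_product,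
        card_univ, Fintype.card_fin]
      exact Nat.mul_le_mul_right _ (card_image_le.trans (card_product _ _).le)
    refine (pow_le_pow_right₀ (le_add_of_nonneg_right (by positivity)) c).trans
      ((pow_le_pow_left₀ (by positivity) ((add_comm _ _).le.trans (Real.add_one_le_exp _)) _).trans
      (le_of_eq ?_))
    rw [← Real.exp_nat_mul]
    congr 1
    push_cast
    ring
  · linarith [pow_le_one₀ (n := (p + 1) * (K + 1)) (q_nonneg (p := p)) q_le_one]

theorem cov_big (c : ℝ) (hc : 0 < c) (n : ℕ) : ∀ (J : Finset (Co p K)) (h : ℕ)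
    (W : Finset (Pt p)), J.card = n → c * p ^ 2 + h * p ≤ W.card * (1 - 2 / p) ^ n →
    pr (Cov ∅ J W) ≤ (n + (K + 1) * p / c) ^ n / n.factorial / p ^ h := by
  have p0 := p_pos (p := p)
  have r0 : (0 : ℝ) ≤ 1 - 2 / p := by rw [sub_nonneg, div_le_one p0]; exact two_le_p
  have r1 : (1 : ℝ) - 2 / p ≤ 1 := by rw [sub_le_self_iff]; positivity
  induction n with
  | zero =>
    intro J h W hJ hW
    refine av_le fun ω => ind_le (by positivity) fun H => ?_
    have : (0 : ℝ) < W.card := lt_of_lt_of_le (by positivity) (hW.trans_eq (by simp))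
    obtain ⟨z, hz⟩ := card_pos.1 (by exact_mod_cast this)
    simpa [card_eq_zero.1 hJ] using H z hz
  | succ n ih =>
    intro J h W hJ hW
    set B := (K + 1) * p / c with hB
    have B0 : 0 ≤ B := by positivity
    rcases h with _ | h
    · refine (pr_le_one _).trans ?_
      rw [pow_zero, div_one, one_le_div (by positivity)]
      exact le_trans (by exact_mod_cast Nat.factorial_le_pow (n + 1))
        (pow_le_pow_left₀ (by positivity) (le_add_of_nonneg_right B0) _)
    have W1 : c * p ^ 2 ≤ W.card := by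
      have := mul_le_of_le_one_right (Nat.cast_nonneg W.card) (pow_le_one₀ (n := n + 1) r0 r1)
      have : (0 : ℝ) ≤ (h + 1 : ℕ) * p := by positivity
      linarith
    have W0 : (0 : ℝ) < W.card := lt_of_lt_of_le (by positivity) W1
    let φ : Pt p → ℝ := fun z => ind (z ∈ W)
    have φ1 : ∑ z, φ z = W.card := by rw [sum_ind]; simp
    have φ2 : ∑ z, φ z ^ 2 = W.card := by
      rw [← φ1]
      exact sum_congr rfl fun z _ => by by_cases h : z ∈ W <;> simp [φ, ind, h]
    have φ3 : ∀ l, ∑ z ∈ pts l, φ z = (rem ∅ W l).card := fun l => by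
      rw [sum_ind]
      congr 2
      ext z
      simp [rem, mem_pts, and_comm]
    have bad := card_heavy φ (W.card / p) (by positivity)
    simp only [φ1, φ2, φ3] at bad
    set Bad := univ.filter fun l : Ln p => (W.card : ℝ) / p + W.card / p ≤ (rem ∅ W l).card
    have bad2 : (Bad.card : ℝ) ≤ p / c := by
      refine bad.trans ?_
      rw [div_le_div_iff₀ (by positivity) hc]
      field_simp
      nlinarith
    set b := (n + B) ^ n / n.factorial / p ^ (h + 1) with hb
    have b0 : 0 ≤ b := by positivity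
    have step : ∀ j ∈ J, pr (Cov ∅ J W) ≤ b + p * b * 𝔼 a, ind ((j.1, a) ∈ Bad) := by
      intro j hj
      conv_lhs => rw [← insert_erase hj]
      rw [cov_step _ (notMem_erase _ _), Finset.mul_expect, ← Fintype.expect_const (ι := ZMod p) b,
        ← Finset.expect_add_distrib, Fintype.expect_const]
      refine av_mono fun a => ?_
      have cs : ((W \ rem ∅ W (j.1, a)).card : ℝ) = W.card - (rem ∅ W (j.1, a)).card := by
        rw [eq_sub_iff_add_eq]
        exact_mod_cast card_sdiff_add_card_eq_card (filter_subset _ _)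
      have hJ' : (J.erase j).card = n := by rw [card_erase_of_mem hj, hJ]; rfl
      have s0 : (0 : ℝ) ≤ (1 - 2 / p) ^ n := pow_nonneg r0 _
      have s1 : (1 - 2 / p : ℝ) ^ n ≤ 1 := pow_le_one₀ r0 r1
      rw [pow_succ _ n] at hW
      by_cases hl : (j.1, a) ∈ Bad
      · rw [ind_pos hl]
        refine (ih _ h _ hJ' ?_).trans ?_
        · have : ((rem ∅ W (j.1, a)).card : ℝ) ≤ p := by
            exact Nat.cast_le.2 ((card_le_card fun z hz => mem_pts.2 (mem_filter.1 hz).2.1).trans
              (card_pts (j.1, a)).le)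
          have := mul_le_mul this s1 s0 p0.le
          have := mul_le_mul_of_nonneg_left r1 (mul_nonneg W0.le s0)
          rw [cs]
          push_cast at hW
          nlinarith
        · have : p * b = (n + B) ^ n / n.factorial / p ^ h := by rw [hb, pow_succ]; field_simp
          linarith
      · rw [ind_neg hl, mul_zero, add_zero]
        refine ih _ _ _ hJ' (hW.trans ?_)
        have : ((rem ∅ W (j.1, a)).card : ℝ) ≤ W.card / p + W.card / p :=
          (not_le.1 fun h => hl (mem_filter.2 ⟨mem_univ _, h⟩)).le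
        have := mul_le_mul_of_nonneg_right this s0
        rw [cs]
        have e : W.card * ((1 - 2 / p : ℝ) ^ n * (1 - 2 / p)) =
          W.card * (1 - 2 / p : ℝ) ^ n - (W.card / p + W.card / p) * (1 - 2 / p : ℝ) ^ n := by ring
        linarith
    have s1 := Finset.sum_le_sum step
    have s2 : p * ∑ j ∈ J, 𝔼 a, ind ((j.1, a) ∈ Bad) ≤ B := by
      have : ∑ j ∈ J, 𝔼 a, ind ((j.1, a) ∈ Bad) ≤ ∑ j : Co p K, 𝔼 a, ind ((j.1, a) ∈ Bad) :=
        Finset.sum_le_sum_of_subset_of_nonneg (subset_univ _) fun _ _ _ =>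
          av_nonneg fun _ => ind_nonneg _
      refine (mul_le_mul_of_nonneg_left this p0.le).trans ?_
      simp only [av_zmod, Fintype.sum_prod_type, sum_const, card_univ, Fintype.card_fin,
        nsmul_eq_mul, ← Finset.mul_sum, ← Finset.sum_div]
      rw [← Fintype.sum_prod_type (f := fun l : Ln p => ind (l ∈ Bad)), sum_ind, filter_mem_eq_inter,
        univ_inter, hB]
      push_cast
      have := mul_le_mul_of_nonneg_left bad2 (show (0 : ℝ) ≤ K + 1 by positivity)
      refine le_trans (le_of_eq ?_) (this.trans (le_of_eq (by ring)))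
      field_simp
    simp only [sum_const, hJ, nsmul_eq_mul, Finset.sum_add_distrib, ← Finset.mul_sum] at s1
    have s3 : ((n + 1 : ℕ) : ℝ) * pr (Cov ∅ J W) ≤ ((n + 1 : ℕ) + B) * b := by
      have := mul_le_mul_of_nonneg_left s2 b0
      nlinarith
    rw [← le_div_iff₀' (by positivity)] at s3
    refine s3.trans ?_
    rw [hb, Nat.factorial_succ, pow_succ' (((n + 1 : ℕ) : ℝ) + B)]
    have := pow_le_pow_left₀ (by positivity) (show (n : ℝ) + B ≤ (n + 1 : ℕ) + B by
      push_cast; linarith) n
    have t : ((n + 1 : ℕ) + B) * ((n + B) ^ n / n.factorial / p ^ (h + 1)) / ((n + 1 : ℕ) : ℝ) =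
      ((n + 1 : ℕ) + B) * (n + B) ^ n / ((n + 1) * n.factorial : ℕ) / p ^ (h + 1) := by
      push_cast
      field_simp
    rw [t]
    gcongr

theorem cov_big' (c : ℝ) (hc : 0 < c) (h : ℕ) (W : Finset (Pt p))
    (hW : c * p ^ 2 + h * p ≤ W.card * (1 - 2 / p) ^ ((p + 1) * (K + 1))) :
    pr (Cov (K := K) ∅ univ W) ≤ Real.exp ((p + 1) * (K + 1) + (K + 1) * p / c) / p ^ h := by
  have p0 := p_pos (p := p)
  refine (cov_big c hc _ univ h W (by rw [card_univ, card_Co]) hW).trans
    (div_le_div_of_nonneg_right ?_ (by positivity))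
  refine le_trans ?_ (Real.pow_div_factorial_le_exp _ (by positivity) ((p + 1) * (K + 1)))
  push_cast
  have : (0 : ℝ) ≤ (K + 1) * p / c := by positivity
  rfl

end Vale.Agent.P045
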