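import Mathlib
import Vale.Agent.P045.Cover

namespace Vale.Agent.P045

open Finset
open scoped BigOperators

variable {p : ℕ} [Fact p.Prime]

theorem sampling {α ι : Type*} [DecidableEq α] (C : Finset α) (s : Finset ι) (R : ι → Finset α)
    (hR : ∀ i ∈ s, R i ⊆ C) (n : ℕ) (hn0 : 0 < n) (hn : n ≤ C.card) (t : ℝ) (ht : 0 < t)
    (h : s.card * Real.exp (-(t ^ 2 / (2 * n))) < 1) :
    ∃ T ⊆ C, T.card ≤ n ∧ ∀ i ∈ s, (R i).card * n / (2 * C.card) - t ≤ (T ∩ R i).card := by
  classical
  have hC : 0 < C.card := hn0.trans_le hn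
  haveI : Nonempty C := (card_pos.1 hC).coe_sort
  let f : ι → (Fin n → C) → ℝ := fun i ω => ((univ.image fun t => (ω t).1) ∩ R i).card
  have d1 : ∀ i j ω a, f i (Function.update ω j a) ≤ f i ω + 1 := by
    intro i j ω a
    refine le_trans (Nat.cast_le.2 ((card_le_card (t := insert a.1
      ((univ.image fun t => (ω t).1) ∩ R i)) fun x hx => ?_).trans (card_insert_le _ _))) (by simp [f])
    obtain ⟨h1, h2⟩ := mem_inter.1 hx
    obtain ⟨t, -, rfl⟩ := mem_image.1 h1
    by_cases e : t = j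
    · simp [e]
    · rw [Function.update_of_ne e] at h2 ⊢
      exact mem_insert_of_mem (mem_inter.2 ⟨mem_image.2 ⟨t, mem_univ _, rfl⟩, h2⟩)
  have c0 : (0 : ℝ) < C.card := by exact_mod_cast hC
  have ex : ∀ i ∈ s, (R i).card * n / (2 * C.card) ≤ 𝔼 ω, f i ω := by
    intro i hi
    have e : ∀ ω, f i ω = ∑ x ∈ R i, (1 - ∏ t, ind ((ω t).1 ≠ x)) := by
      intro ω
      simp only [f]
      rw [inter_comm, ← filter_mem_eq_inter, ← sum_ind]
      refine sum_congr rfl fun x _ => ?_
      rw [← ind_forall]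
      by_cases h : x ∈ univ.image fun t => (ω t).1
      · rw [ind_pos h, ind_neg (by simpa using h), sub_zero]
      · rw [ind_neg h, ind_pos (by simpa using h), sub_self]
    simp only [e]
    rw [Finset.expect_sum_comm, mul_div_assoc, ← nsmul_eq_mul]
    refine Finset.card_nsmul_le_sum _ _ _ fun x hx => ?_
    rw [Finset.expect_sub_distrib, Fintype.expect_const,
      av_prod (fun _ (a : C) => ind (a.1 ≠ x))]
    have e2 : 𝔼 a : C, ind (a.1 ≠ x) = 1 - 1 / C.card := by
      rw [av_eq, sum_ind, show (univ.filter fun a : C => a.1 ≠ x) = univ.erase ⟨x, hR i hi hx⟩ by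
        ext; simp [Subtype.ext_iff], card_erase_of_mem (mem_univ _), card_univ, Fintype.card_coe,
        Nat.cast_pred hC]
      field_simp
    rw [e2, prod_const, card_univ, Fintype.card_fin]
    have y1 : (n : ℝ) * (1 / C.card) ≤ 1 := by
      rw [mul_one_div, div_le_one c0]; exact_mod_cast hn
    have y2 : (1 : ℝ) / C.card ≤ 1 := by rw [div_le_one c0]; exact_mod_cast hC
    have y0 : (0 : ℝ) ≤ 1 / C.card := by positivity
    rw [show (n : ℝ) / (2 * C.card) = n * (1 / C.card) / 2 by field_simp]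
    generalize (1 : ℝ) / C.card = y at y0 y1 y2
    have a1 := one_add_mul_le_pow (show (-2 : ℝ) ≤ y by linarith) n
    have a2 : (1 - y) ^ n * (1 + y) ^ n ≤ 1 := by
      rw [← mul_pow]; exact pow_le_one₀ (by nlinarith) (by nlinarith)
    have a3 : 0 ≤ (1 - y) ^ n := pow_nonneg (by linarith) _
    have a4 := (mul_le_mul_of_nonneg_left a1 a3).trans a2
    have a5 : (0 : ℝ) ≤ n * y := by positivity
    generalize (n : ℝ) * y = u at *
    nlinarith
  obtain ⟨ω, hω⟩ := exists_not ((pr_exists_le s (fun i ω => 𝔼 ω', - f i ω' + t ≤ - f i ω)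
    fun i _ => mcd_upper 1 t n one_pos ht (by simp) (by exact_mod_cast hn0) (fun ω => - f i ω)
      fun j ω a => by
        have a1 := d1 i j ω a
        have a2 := d1 i j (Function.update ω j a) (ω j)
        rw [Function.update_idem, Function.update_eq_self] at a2
        exact abs_le.2 ⟨by linarith, by linarith⟩).trans_lt (by simpa using h))
  refine ⟨univ.image fun t => (ω t).1, fun x hx => ?_, card_image_le.trans (by simp),
    fun i hi => ?_⟩
  · obtain ⟨t, -, rfl⟩ := mem_image.1 hx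
    exact (ω t).2
  · have a1 := not_le.1 fun h => hω ⟨i, hi, h⟩
    rw [Finset.expect_neg_distrib] at a1
    have := ex i hi
    change _ ≤ f i ω
    linarith

/-- lines of `C` that are not usable as test lines for `l` -/
noncomputable def bad (C : Finset (Ln p)) (G : Finset (Pt p)) (M : ℕ) (l : Ln p) : Finset (Ln p) :=
  C.filter fun l' => l'.1 = l.1 ∨ M < mul C (mt l l') ∨ mt l l' ∈ G

theorem survivors (C : Finset (Ln p)) (G : Finset (Pt p)) (M f : ℕ) (S0 : Finset (Ln p)) (ρ : ℝ)
    (hρ : ρ < 1) (hC : C.Nonempty) (hS : S0.Nonempty)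
    (hb : ∀ l ∈ S0, ((bad C G M l).card : ℝ) + f * M ≤ ρ * C.card) (j : ℕ) (hj : j ≤ f) :
    ∃ T ⊆ C, T.card = j ∧ ∃ S ⊆ S0, S0.card * (1 - ρ) ^ j ≤ S.card ∧
      ∀ l ∈ S, (∀ l' ∈ T, l' ∉ bad C G M l) ∧ Set.InjOn (mt l) T := by
  classical
  induction j with
  | zero => exact ⟨∅, empty_subset _, rfl, S0, subset_rfl, by simp, by simp⟩
  | succ j ih =>
    obtain ⟨T, T1, T2, S, S1, S2, S3⟩ := ih (by omega)
    let ok : Ln p → Ln p → Prop := fun l l' => l' ∉ bad C G M l ∧ ∀ l'' ∈ T, mt l l' ≠ mt l l''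
    have h1 : ∀ l ∈ S, (1 - ρ) * C.card ≤ ∑ l' ∈ C, ind (ok l l') := by
      intro l hl
      have : C ⊆ C.filter (ok l) ∪ (bad C G M l ∪ T.biUnion fun l'' =>
          C.filter fun l' => On (mt l l'') l') := by
        intro l' hl'
        by_cases a : l' ∈ bad C G M l
        · exact mem_union_right _ (mem_union_left _ a)
        by_cases b : ∀ l'' ∈ T, mt l l' ≠ mt l l''
        · exact mem_union_left _ (mem_filter.2 ⟨hl', a, b⟩)
        push Not at b
        obtain ⟨l'', b1, b2⟩ := b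
        refine mem_union_right _ (mem_union_right _ (mem_biUnion.2 ⟨l'', b1, mem_filter.2
          ⟨hl', b2 ▸ mt_right fun e => a (mem_filter.2 ⟨hl', Or.inl e.symm⟩)⟩⟩))
      have h2 := (card_le_card this).trans ((card_union_le _ _).trans (Nat.add_le_add_left
        ((card_union_le _ _).trans (Nat.add_le_add_left (card_biUnion_le.trans
        (sum_le_card_nsmul _ _ M fun l'' h => not_lt.1 fun e => (S3 l hl).1 l'' h
          (mem_filter.2 ⟨T1 h, Or.inr (Or.inl e)⟩))) _)) _))
      rw [T2, smul_eq_mul] at h2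
      have h3 : (C.card : ℝ) ≤ (C.filter (ok l)).card + ((bad C G M l).card + f * M) := by
        exact_mod_cast h2.trans (by have := Nat.mul_le_mul_right M (show j ≤ f by omega); omega)
      rw [sum_ind]
      linarith [hb l (S1 hl)]
    have h2 := Finset.card_nsmul_le_sum _ _ _ h1
    rw [sum_comm] at h2
    obtain ⟨l', a, b⟩ := exists_le_of_sum_le (f := fun _ => S.card * (1 - ρ)) hC
      (le_trans (by simp only [sum_const, nsmul_eq_mul]; exact le_of_eq (by ring)) h2)
    rw [sum_ind] at b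
    have b' : S0.card * (1 - ρ) ^ (j + 1) ≤ (S.filter fun l => ok l l').card := by
      rw [pow_succ, ← mul_assoc]
      exact (mul_le_mul_of_nonneg_right S2 (by linarith)).trans b
    have c : l' ∉ T := by
      have : (0 : ℝ) < (S.filter fun l => ok l l').card := lt_of_lt_of_le
        (mul_pos (by exact_mod_cast card_pos.2 hS) (pow_pos (by linarith) _)) b'
      obtain ⟨l, hl⟩ := card_pos.1 (by exact_mod_cast this)
      exact fun h => (mem_filter.1 hl).2.2 l' h rfl
    refine ⟨insert l' T, insert_subset a T1, by rw [card_insert_of_notMem c, T2], _,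
      (filter_subset _ _).trans S1, b', fun l hl => ?_⟩
    obtain ⟨d1, d2, d3⟩ := mem_filter.1 hl
    refine ⟨fun l'' h => ?_, ?_⟩
    · rcases mem_insert.1 h with rfl | h
      · exact d2
      · exact (S3 l d1).1 l'' h
    · rw [coe_insert, Set.injOn_insert (by simpa using c)]
      exact ⟨(S3 l d1).2, fun ⟨l'', h, e⟩ => d3 l'' h e.symm⟩

/-- a line through two given points -/
noncomputable def jn (z z' : Pt p) : Ln p := thr (dir_ex z z').choose z

theorem eq_jn {z z' : Pt p} {l : Ln p} (h : z ≠ z') (a : On z l) (b : On z' l) : l = jn z z' :=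
  ln_uniq h a (on_thr _ _) b (dir_ex z z').choose_spec.symm

/-- the grid of `T` and `Λ` has a large subset in general position -/
def Gen (T Λ : Finset (Ln p)) (n : ℕ) : Prop :=
  ∃ W : Finset (Pt p), (∀ z ∈ W, (∃ l ∈ T, On z l) ∧ ∃ l ∈ Λ, On z l) ∧
    (∀ l, (rem (T ∪ Λ) W l).card ≤ 2) ∧ W.card = n

theorem exists_gen (T S : Finset (Ln p)) (f : ℕ) (hT : T.card = f)
    (hS : (f ^ 2 + f ^ 5) ^ 2 + f < S.card)
    (h : ∀ l ∈ S, (∀ l' ∈ T, l'.1 ≠ l.1) ∧ Set.InjOn (mt l) T) (a : ℕ) (ha : a ≤ f) :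
    ∃ Λ ⊆ S, Λ.card = a ∧ Gen T Λ ((f - 1) * a) := by
  classical
  induction a with
  | zero => exact ⟨∅, empty_subset _, rfl, ∅, by simp, by simp [rem], by simp⟩
  | succ a ih =>
    obtain ⟨Λ, L1, L2, W, W1, W2, W3⟩ := ih (by omega)
    let F := W ∪ (W ×ˢ W ×ˢ T).image fun y => mt y.2.2 (jn y.1 y.2.1)
    have w : W.card ≤ f ^ 2 := by
      rw [W3, sq]; exact Nat.mul_le_mul (Nat.sub_le _ _) (by omega)
    have F1 : F.card ≤ f ^ 2 + f ^ 5 := by
      refine (card_union_le _ _).trans (add_le_add w (card_image_le.trans ?_))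
      rw [card_product, card_product, hT]
      exact (Nat.mul_le_mul w (Nat.mul_le_mul_right _ w)).trans (le_of_eq (by ring))
    obtain ⟨l, l1, l2⟩ := exists_mem_notMem_of_card_lt_card
      (s := ((F ×ˢ F).image fun y => jn y.1 y.2) ∪ Λ) (t := S) (lt_of_le_of_lt
      ((card_union_le _ _).trans (add_le_add (card_image_le.trans (by
        rw [card_product, sq]; exact Nat.mul_le_mul F1 F1)) (by omega))) hS)
    rw [mem_union, not_or] at l2
    have on : ∀ z ∈ T.image (mt l), On z l ∧ ∃ l' ∈ T, On z l' := by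
      intro z hz
      obtain ⟨l', a, rfl⟩ := mem_image.1 hz
      exact ⟨mt_left ((h l l1).1 l' a).symm, l', a, mt_right ((h l l1).1 l' a).symm⟩
    have c1 : (T.image (mt l) ∩ F).card ≤ 1 := card_le_one.2 fun z hz z' hz' => by
      by_contra e
      exact l2.1 (mem_image.2 ⟨(z, z'), mem_product.2 ⟨(mem_inter.1 hz).2, (mem_inter.1 hz').2⟩,
        (eq_jn e (on z (mem_inter.1 hz).1).1 (on z' (mem_inter.1 hz').1).1).symm⟩)
    have c2 := card_sdiff_add_card_inter (T.image (mt l)) F
    rw [card_image_of_injOn (h l l1).2, hT] at c2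
    obtain ⟨N, N1, N2⟩ := exists_subset_card_eq (s := T.image (mt l) \ F) (n := f - 1) (by omega)
    have N3 : ∀ z ∈ N, On z l ∧ ∃ l' ∈ T, On z l' := fun z hz => on z (mem_sdiff.1 (N1 hz)).1
    have N4 : ∀ z ∈ N, z ∉ F := fun z hz => (mem_sdiff.1 (N1 hz)).2
    refine ⟨insert l Λ, insert_subset l1 L1, by rw [card_insert_of_notMem l2.2, L2], W ∪ N,
      fun z hz => ?_, fun l' => ?_, ?_⟩
    · rcases mem_union.1 hz with hz | hz
      · obtain ⟨a, l', b, c⟩ := W1 z hz
        exact ⟨a, l', mem_insert_of_mem b, c⟩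
      · exact ⟨(N3 z hz).2, l, mem_insert_self _ _, (N3 z hz).1⟩
    · by_cases e : l' ∈ T ∪ insert l Λ
      · rw [rem, filter_false_of_mem fun z _ h => h.2 e]
        simp
      have e1 : l' ∉ T ∪ Λ := fun h => e (union_subset_union_right (subset_insert _ _) h)
      have e2 : l' ≠ l := fun h => e (by simp [h])
      have s : rem (T ∪ insert l Λ) (W ∪ N) l' ⊆ rem (T ∪ Λ) W l' ∪ N.filter fun z => On z l' := by
        intro z hz
        obtain ⟨a, b, -⟩ := mem_filter.1 hz
        rcases mem_union.1 a with a | a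
        · exact mem_union_left _ (mem_filter.2 ⟨a, b, e1⟩)
        · exact mem_union_right _ (mem_filter.2 ⟨a, b⟩)
      refine (card_le_card s).trans ((card_union_le _ _).trans ?_)
      have a1 := W2 l'
      have a2 : (N.filter fun z => On z l').card ≤ 1 := card_le_one.2 fun z hz z' hz' =>
        pt_uniq e2 (mem_filter.1 hz).2 (N3 z (mem_filter.1 hz).1).1 (mem_filter.1 hz').2
          (N3 z' (mem_filter.1 hz').1).1
      by_contra hc
      obtain ⟨z, hz⟩ := card_pos.1 (show 0 < (N.filter fun z => On z l').card by omega)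
      obtain ⟨x, hx, y, hy, e3⟩ := one_lt_card.1 (show 1 < (rem (T ∪ Λ) W l').card by omega)
      obtain ⟨z1, z2⟩ := mem_filter.1 hz
      obtain ⟨l'', a, b⟩ := (N3 z z1).2
      refine N4 z z1 (mem_union_right _ (mem_image.2 ⟨(x, y, l''), mem_product.2
        ⟨(mem_filter.1 hx).1, mem_product.2 ⟨(mem_filter.1 hy).1, a⟩⟩, ?_⟩))
      rw [← eq_jn e3 (mem_filter.1 hx).2.1 (mem_filter.1 hy).2.1]
      exact (eq_mt (fun e4 => e1 (mem_union_left _ (ln_ext b z2 e4 ▸ a))) b z2).symm
    · rw [card_union_of_disjoint (disjoint_right.2 fun z hz h => N4 z hz (mem_union_left _ h)),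
        W3, N2, Nat.mul_succ]

end Vale.Agent.P045
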