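import Mathlib
import Vale.Agent.P045.Grid

namespace Vale.Agent.P045

open Finset
open scoped BigOperators

variable {p : ℕ} [Fact p.Prime]

/-- points of `l` on no line of `E` of another direction -/
def free (E : Finset (Ln p)) (l : Ln p) : Finset (Pt p) :=
  (pts l).filter fun z => ∀ l' ∈ E, l'.1 ≠ l.1 → ¬ On z l'

/-- the container attached to a sample `T` -/
noncomputable def cont (A : ℝ) (T : Finset (Ln p)) : Finset (Ln p) :=
  (univ.filter fun l => A ≤ (T.filter fun l' => l'.1 = l.1).card) ∪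
    univ.filter fun l => A / 2 ≤ ∑ z ∈ pts l, ((mul T z - 1 : ℕ) : ℝ)

theorem sum_mul_sq (T : Finset (Ln p)) :
    ∑ z, (mul T z : ℝ) * ((mul T z - 1 : ℕ) : ℝ) ≤ T.card ^ 2 := by
  rw [← sum_mul_pts, sq, ← nsmul_eq_mul]
  refine sum_le_card_nsmul _ _ _ fun l hl => ?_
  refine le_trans (le_of_eq (sum_congr rfl fun z hz => ?_)) ((sum_mul_line (T.erase l)
    (notMem_erase _ _)).trans (Nat.cast_le.2 card_erase_le))
  rw [mul, mul, filter_erase, card_erase_of_mem (mem_filter.2 ⟨hl, mem_pts.1 hz⟩)]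

theorem card_cont (A : ℝ) (hA : 0 < A) (T : Finset (Ln p)) (n : ℕ) (hT : T.card ≤ n)
    (hn : (n : ℝ) ^ 2 / p ≤ A / 4) :
    ((cont A T).card : ℝ) ≤ n * p / A + p * n ^ 2 / (A / 4) ^ 2 := by
  have p0 := p_pos (p := p)
  have hT' : (T.card : ℝ) ≤ n := by exact_mod_cast hT
  have h0 := (sum_mul_sq T).trans (pow_le_pow_left₀ (by positivity) hT' 2)
  refine le_trans (Nat.cast_le.2 (card_union_le _ _)) ?_
  push_cast
  refine add_le_add ?_ ?_
  · rw [le_div_iff₀ hA, ← nsmul_eq_mul]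
    refine (card_nsmul_le_sum _ _ _ fun l hl => (mem_filter.1 hl).2).trans
      ((sum_le_sum_of_subset_of_nonneg (subset_univ _) fun _ _ _ => Nat.cast_nonneg _).trans ?_)
    simp only [← sum_ind]
    rw [sum_comm]
    refine (sum_le_card_nsmul _ _ (p : ℝ) fun l _ => ?_).trans
      (by rw [nsmul_eq_mul]; exact mul_le_mul_of_nonneg_right hT' p0.le)
    simp only [eq_comm (a := l.1)]
    rw [sum_ind, card_dirl]
  · have h1 : ∑ z, ((mul T z - 1 : ℕ) : ℝ) ≤ n ^ 2 := le_trans (sum_le_sum fun z _ => by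
      exact_mod_cast (by rcases mul T z with _ | m <;> simp <;> nlinarith :
        mul T z - 1 ≤ mul T z * (mul T z - 1))) h0
    have h2 : ∑ z, ((mul T z - 1 : ℕ) : ℝ) ^ 2 ≤ n ^ 2 := le_trans (sum_le_sum fun z _ => by
      rw [sq]
      exact mul_le_mul_of_nonneg_right (Nat.cast_le.2 (Nat.sub_le _ _)) (Nat.cast_nonneg _)) h0
    refine le_trans (Nat.cast_le.2 (card_le_card fun l hl => mem_filter.2 ⟨mem_univ _, ?_⟩))
      ((card_heavy (fun z => ((mul T z - 1 : ℕ) : ℝ)) (A / 4) (by positivity)).trans (by gcongr))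
    have := (div_le_div_of_nonneg_right h1 p0.le).trans hn
    linarith [(mem_filter.1 hl).2]

theorem fiber_count (C : Finset (Ln p)) (l : Ln p) (D : Finset (Ln p)) (P : Pt p → Prop)
    (hD : ∀ l' ∈ D, l' ∈ C ∧ l'.1 ≠ l.1 ∧ P (mt l l')) :
    (D.card : ℝ) ≤ ∑ z ∈ pts l, ind (P z) * mul (C.erase l) z := by
  rw [card_eq_sum_card_fiberwise (f := mt l) (t := pts l) fun l' h =>
    mem_pts.2 (mt_left (hD l' h).2.1.symm)]
  push_cast
  refine sum_le_sum fun z _ => ?_
  by_cases h : P z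
  · rw [ind_pos h, one_mul]
    refine Nat.cast_le.2 (card_le_card fun l' h' => ?_)
    obtain ⟨a, b⟩ := mem_filter.1 h'
    exact mem_filter.2 ⟨mem_erase.2 ⟨fun e => (hD l' a).2.1 (by rw [e]), (hD l' a).1⟩,
      b ▸ mt_right (hD l' a).2.1.symm⟩
  · rw [ind_neg h, filter_false_of_mem fun l' a (b : mt l l' = z) => h (b ▸ (hD l' a).2.2)]
    simp

theorem mul_erase {C : Finset (Ln p)} {l : Ln p} (hl : l ∈ C) {z : Pt p} (hz : z ∈ pts l) :
    mul (C.erase l) z = mul C z - 1 := by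
  rw [mul, mul, filter_erase, card_erase_of_mem (mem_filter.2 ⟨hl, mem_pts.1 hz⟩)]

theorem free_eq {E : Finset (Ln p)} {l : Ln p} (hl : l ∉ E) :
    free E l = (pts l).filter fun z => z ∈ unc E := by
  refine filter_congr fun z hz => ?_
  simp only [unc, mem_filter, mem_univ, true_and]
  exact ⟨fun h l' a b => h l' a (fun e => hl (ln_ext b (mem_pts.1 hz) e ▸ a)) b,
    fun h l' a _ => h l' a⟩

set_option maxHeartbeats 1000000 in
theorem rigid (E C : Finset (Ln p)) (γ ε η c : ℝ) (k n f M : ℕ)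
    (h1 : ∀ l, |(free E l).card - γ * p| ≤ ε * p)
    (hd : ∀ d, (E.filter fun l => l.1 = d).card ≤ k)
    (h2 : ∀ T Λ : Finset (Ln p), T.card = f → Λ.card = f → Gen T Λ ((f - 1) * f) →
      ∃ z, (∃ l ∈ T, On z l) ∧ (∃ l ∈ Λ, On z l) ∧ ∀ l ∈ E, On z l → l ∈ T ∪ Λ)
    (h3 : ∀ T X : Finset (Ln p), T.card ≤ n → X.card ≤ n → ∀ D ⊆ T ∪ X ∪ cont (η * n / 32) T,
      c * p ^ 2 ≤ (unc D).card → ∃ z ∈ unc D, z ∈ unc E)
    (c0 : 0 < ε) (c1 : (k : ℝ) ≤ ε * p) (c2 : 8 * ε ≤ γ) (c3 : γ ≤ 1) (c4 : 0 < η)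
    (c5 : 2 * η < 1) (c6 : 24 * M * ε * p ≤ η * n) (c7 : 2 * f * M ≤ η * p)
    (c8 : (((f ^ 2 + f ^ 5) ^ 2 + f : ℕ) : ℝ) < n / 2 * (1 - 2 * η) ^ f) (c9 : 2 * n ≤ p)
    (c10 : 0 < n) (c11 : p * Real.exp (-((η * n / 16) ^ 2 / (2 * n))) < 1)
    (c12 : 64 * (p : ℝ) ≤ η * n * M)
    (hC : C.card ≤ p) (hE : ∀ l ∈ C, l ∉ E) (hG : ∀ z ∈ unc E, ∃ l ∈ C, On z l) :
    (unc C).card < c * p ^ 2 := by
  classical
  have p0 := p_pos (p := p)
  have n0 : (0 : ℝ) < n := by exact_mod_cast c10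
  have hC' : (C.card : ℝ) ≤ p := by exact_mod_cast hC
  have e1 : ∀ l, l ∉ E → ∑ z ∈ pts l, ind (z ∈ unc E) = (free E l).card := fun l hl => by
    rw [sum_ind, free_eq hl]
  have g1 : (p - ε * p) * ((γ - ε) * p) ≤ ∑ z, ind (z ∈ unc E) := by
    have a := sum_mul_pts ((univ.filter fun l : Ln p => l.1 = none) \ E) fun z => ind (z ∈ unc E)
    have b : ((γ - ε) * p) * ((univ.filter fun l : Ln p => l.1 = none) \ E).card ≤
        ∑ l ∈ (univ.filter fun l : Ln p => l.1 = none) \ E, ∑ z ∈ pts l, ind (z ∈ unc E) := by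
      rw [mul_comm, ← nsmul_eq_mul]
      exact card_nsmul_le_sum _ (fun l => ∑ z ∈ pts l, ind (z ∈ unc E)) _ fun l hl => by
        rw [e1 l (mem_sdiff.1 hl).2]
        linarith [(abs_le.1 (h1 l)).1]
    have c : (p : ℝ) ≤ ((univ.filter fun l : Ln p => l.1 = none) \ E).card + k := by
      have := card_sdiff_add_card_inter (univ.filter fun l : Ln p => l.1 = none) E
      rw [card_dirl, show (univ.filter fun l : Ln p => l.1 = none) ∩ E =
        E.filter fun l => l.1 = none by ext; simp [and_comm]] at this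
      have := hd none
      exact_mod_cast (by omega)
    refine le_trans ?_ (b.trans (a.le.trans (sum_le_sum fun z _ => ?_)))
    · rw [mul_comm]
      exact mul_le_mul_of_nonneg_left (by linarith) (mul_nonneg (by linarith) p0.le)
    · refine mul_le_of_le_one_left (ind_nonneg _) (Nat.cast_le_one.2 (card_le_one.2
        fun l hl l' hl' => ?_))
      simp only [mem_filter, mem_sdiff, mem_univ, true_and] at hl hl'
      exact ln_ext hl.2 hl'.2 (hl.1.1.trans hl'.1.1.symm)
  have g2 : ∑ z, mul C z * ind (z ∈ unc E) ≤ C.card * ((γ + ε) * p) := by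
    rw [← sum_mul_pts, ← nsmul_eq_mul]
    refine sum_le_card_nsmul _ _ _ fun l hl => ?_
    rw [e1 l (hE l hl)]
    linarith [(abs_le.1 (h1 l)).2]
  have g3 : ∀ z, ind (z ∈ unc E) * ((mul C z - 1 : ℕ) : ℝ) =
      mul C z * ind (z ∈ unc E) - ind (z ∈ unc E) := by
    intro z
    by_cases h : z ∈ unc E
    · obtain ⟨l, a, b⟩ := hG z h
      rw [ind_pos h, Nat.cast_pred (show 0 < mul C z from card_pos.2 ⟨l, mem_filter.2 ⟨a, b⟩⟩)]
      ring
    · simp [ind_neg h]
  have g4 : 0 ≤ ∑ z, ind (z ∈ unc E) * ((mul C z - 1 : ℕ) : ℝ) :=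
    sum_nonneg fun _ _ => mul_nonneg (ind_nonneg _) (Nat.cast_nonneg _)
  have g5 : ∑ z, ind (z ∈ unc E) * ((mul C z - 1 : ℕ) : ℝ) ≤ 3 * ε * p ^ 2 := by
    simp only [g3, sum_sub_distrib]
    have := mul_le_mul_of_nonneg_right hC' (show 0 ≤ (γ + ε) * p from mul_nonneg (by linarith) p0.le)
    have : 0 ≤ ε * p ^ 2 * (1 - γ + ε) := mul_nonneg (by positivity) (by linarith)
    nlinarith
  have g6 : (p : ℝ) ≤ 2 * C.card := by
    simp only [g3, sum_sub_distrib] at g4
    have a : (p - ε * p) * ((γ - ε) * p) ≤ C.card * ((γ + ε) * p) := by linarith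
    have b : p * ((γ + ε) * p) ≤ 2 * ((p - ε * p) * ((γ - ε) * p)) := by
      have : γ + ε ≤ 2 * ((1 - ε) * (γ - ε)) := by nlinarith
      have := mul_le_mul_of_nonneg_left this (show (0 : ℝ) ≤ p ^ 2 by positivity)
      nlinarith
    exact le_of_mul_le_mul_right (by linarith) (show 0 < (γ + ε) * p from mul_pos (by linarith) p0)
  have C0 : (0 : ℝ) < C.card := by linarith
  let R : Ln p → Finset (Ln p) := fun l => C.filter fun l' => l'.1 = l.1 ∨ M < mul C (mt l l')
  let Pg : Ln p → Finset (Ln p) := fun l =>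
    C.filter fun l' => l'.1 ≠ l.1 ∧ (mt l l' ∈ unc E ∧ mul C (mt l l') ≤ M)
  let X1 := C.filter fun l => η * p / 4 < (Pg l).card
  let X2 := C.filter fun l => ((Pg l).card : ℝ) ≤ η * p / 4 ∧ ((R l).card : ℝ) ≤ η * p / 4
  let C3 := C.filter fun l => η * p / 4 < (R l).card
  have x1 : (X1.card : ℝ) ≤ n / 2 := by
    have a : ∑ l ∈ C, ((Pg l).card : ℝ) ≤ M * (3 * ε * p ^ 2) := by
      refine (sum_le_sum fun l hl => (fiber_count C l _ (fun z => z ∈ unc E ∧ mul C z ≤ M)
        fun l' h => mem_filter.1 h).trans (le_of_eq (sum_congr rfl fun z hz => by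
          rw [mul_erase hl hz]))).trans ?_
      rw [sum_mul_pts]
      refine le_trans ?_ (mul_le_mul_of_nonneg_left g5 (Nat.cast_nonneg _))
      rw [mul_sum]
      refine sum_le_sum fun z _ => ?_
      by_cases h : z ∈ unc E ∧ mul C z ≤ M
      · rw [ind_pos h, ind_pos h.1]
        exact mul_le_mul_of_nonneg_right (Nat.cast_le.2 h.2) (by positivity)
      · rw [ind_neg h, zero_mul, mul_zero]
        exact mul_nonneg (Nat.cast_nonneg _) (mul_nonneg (ind_nonneg _) (Nat.cast_nonneg _))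
    have b := (card_nsmul_le_sum X1 (fun l => ((Pg l).card : ℝ)) _ fun l hl =>
      (mem_filter.1 hl).2.le).trans ((sum_le_sum_of_subset_of_nonneg (filter_subset _ _)
      fun _ _ _ => Nat.cast_nonneg _).trans a)
    rw [nsmul_eq_mul] at b
    refine le_of_mul_le_mul_right (b.trans ?_) (show 0 < η * p / 4 by positivity)
    nlinarith
  have x2 : (X2.card : ℝ) ≤ n / 2 := by
    by_contra hc
    have hc := not_le.1 hc
    obtain ⟨T, T1, T2, S, S1, S2, S3⟩ := survivors C (unc E) M f X2 (2 * η) c5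
      (card_pos.1 (by exact_mod_cast C0)) (card_pos.1 (by
        exact_mod_cast (by linarith : (0 : ℝ) < X2.card))) (fun l hl => by
        obtain ⟨-, a, b⟩ := mem_filter.1 hl
        have : bad C (unc E) M l ⊆ R l ∪ Pg l := by
          intro l' h
          simp only [bad, R, Pg, mem_filter, mem_union] at h ⊢
          by_cases e : l'.1 = l.1 ∨ M < mul C (mt l l')
          · exact Or.inl ⟨h.1, e⟩
          · push Not at e
            exact Or.inr ⟨h.1, e.1, by simpa [e.1, e.2.not_gt] using h.2, e.2⟩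
        have : ((bad C (unc E) M l).card : ℝ) ≤ (R l).card + (Pg l).card := by
          exact_mod_cast (card_le_card this).trans (card_union_le _ _)
        nlinarith) f le_rfl
    have S4 : ∀ l ∈ S, ∀ l' ∈ T, l'.1 ≠ l.1 ∧ mt l l' ∉ unc E := fun l hl l' hl' =>
      ⟨fun e => (S3 l hl).1 l' hl' (mem_filter.2 ⟨T1 hl', Or.inl e⟩),
        fun e => (S3 l hl).1 l' hl' (mem_filter.2 ⟨T1 hl', Or.inr (Or.inr e)⟩)⟩
    obtain ⟨Λ, L1, L2, L3⟩ := exists_gen T S f T2 (by
      exact_mod_cast c8.trans_le ((mul_le_mul_of_nonneg_right hc.le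
        (pow_nonneg (by linarith) _)).trans S2))
      (fun l hl => ⟨fun l' h => (S4 l hl l' h).1, (S3 l hl).2⟩) f le_rfl
    obtain ⟨z, ⟨l', a1, a2⟩, ⟨l, b1, b2⟩, d⟩ := h2 T Λ T2 L2 L3
    refine (S4 l (L1 b1) l' a1).2 ?_
    rw [← eq_mt (S4 l (L1 b1) l' a1).1.symm b2 a2]
    refine mem_filter.2 ⟨mem_univ _, fun l'' a b => hE l'' ?_ a⟩
    rcases mem_union.1 (d l'' a b) with h | h
    · exact T1 h
    · exact (mem_filter.1 (S1 (L1 h))).1
  obtain ⟨T, T1, T2, T3⟩ := sampling C C3 R (fun _ _ => filter_subset _ _) n c10 (by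
    exact_mod_cast (by
      have : 2 * (n : ℝ) ≤ p := by exact_mod_cast c9
      linarith : (n : ℝ) ≤ C.card)) (η * n / 16) (by positivity) (lt_of_le_of_lt
    (mul_le_mul_of_nonneg_right ((Nat.cast_le.2 (card_filter_le _ _)).trans hC')
      (Real.exp_pos _).le) c11)
  by_contra hc
  obtain ⟨z, z1, z2⟩ := h3 T (X1 ∪ X2) T2 (by
    have : ((X1 ∪ X2).card : ℝ) ≤ X1.card + X2.card := by exact_mod_cast card_union_le _ _
    exact_mod_cast (by linarith : ((X1 ∪ X2).card : ℝ) ≤ n)) C (fun l hl => by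
    by_cases a : l ∈ T
    · exact mem_union_left _ (mem_union_left _ a)
    by_cases b : l ∈ X1 ∪ X2
    · exact mem_union_left _ (mem_union_right _ b)
    refine mem_union_right _ ?_
    have b1 : η * p / 4 < (R l).card := by
      simp only [X1, X2, mem_union, mem_filter, hl, true_and, not_or, not_lt, not_and, not_le] at b
      exact b.2 b.1
    have b2 : η * n / 16 ≤ (T ∩ R l).card := by
      refine le_trans ?_ (T3 l (mem_filter.2 ⟨hl, b1⟩))
      have : η * n / 8 ≤ (R l).card * n / (2 * C.card) := by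
        rw [le_div_iff₀ (by positivity)]
        have := mul_le_mul_of_nonneg_left hC' c4.le
        nlinarith
      linarith
    by_cases b3 : η * n / 32 ≤ (T.filter fun l' => l'.1 = l.1).card
    · exact mem_union_left _ (mem_filter.2 ⟨mem_univ _, b3⟩)
    refine mem_union_right _ (mem_filter.2 ⟨mem_univ _, ?_⟩)
    have b4 : ((T ∩ R l).card : ℝ) ≤ (T.filter fun l' => l'.1 = l.1).card +
        (T.filter fun l' => l'.1 ≠ l.1 ∧ M < mul C (mt l l')).card := by
      exact_mod_cast (card_le_card fun l' h => by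
        simp only [R, mem_inter, mem_filter, mem_union] at h ⊢
        tauto).trans (card_union_le _ _)
    have b5 := fiber_count T l _ (fun z => M < mul C z) fun l' (h : l' ∈ T.filter fun l' =>
      l'.1 ≠ l.1 ∧ M < mul C (mt l l')) => mem_filter.1 h
    rw [erase_eq_of_notMem a] at b5
    have b6 : ∑ z ∈ pts l, ind (M < mul C z) * mul T z ≤
        ∑ z ∈ pts l, ((mul T z - 1 : ℕ) : ℝ) + ∑ z ∈ pts l, ind (M < mul C z) := by
      rw [← sum_add_distrib]
      refine sum_le_sum fun z _ => ?_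
      by_cases h : M < mul C z
      · rw [ind_pos h, one_mul]
        exact_mod_cast (by omega)
      · simp [ind_neg h]
    have b7 : (∑ z ∈ pts l, ind (M < mul C z)) * M ≤ p := by
      rw [sum_mul]
      refine le_trans (sum_le_sum fun z hz => ?_) ((sum_mul_line (C.erase l)
        (notMem_erase _ _)).trans ((Nat.cast_le.2 card_erase_le).trans hC'))
      rw [mul_erase hl hz]
      by_cases h : M < mul C z
      · rw [ind_pos h, one_mul]
        exact_mod_cast (by omega)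
      · simp [ind_neg h]
    have b8 : ∑ z ∈ pts l, ind (M < mul C z) ≤ η * n / 64 := by
      have : (0 : ℝ) < M := by
        by_contra h
        have : (M : ℝ) = 0 := le_antisymm (not_lt.1 h) (Nat.cast_nonneg _)
        rw [this] at c12
        linarith
      exact le_of_mul_le_mul_right (by linarith) this
    linarith) (not_lt.1 hc)
  obtain ⟨l, a, b⟩ := hG z z2
  exact (mem_filter.1 z1).2 l a b

end Vale.Agent.P045
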