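import Mathlib
import Vale.Agent.P045.Rigid

namespace Vale.Agent.P045

open Finset

variable {p : ℕ} [Fact p.Prime] {k : ℕ}

/-- carrier indices of a gadget -/
abbrev Cr (k : ℕ) := Option (Bool × Fin k)

/-- skeleton of a gadget: a line, two centres, and directions -/
structure Sk (p k : ℕ) where
  L : Ln p
  s : Bool → Pt p
  D : Bool × Fin k → Dir p

/-- carrier lines -/
def Sk.cr (σ : Sk p k) : Cr k → Ln p
  | none => σ.L
  | some y => thr (σ.D y) (σ.s y.1)

/-- special points -/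
noncomputable def Sk.sp (σ : Sk p k) (u : Pt p) (j : Fin k) : Cr k → Pt p
  | none => u
  | some y => mt (σ.cr (some y)) (thr (σ.D (y.1, j)) u)

/-- admissible pairs -/
def Val (j : Fin k) (o : Cr k) : Prop := ∀ b, o ≠ some (b, j)

instance (j : Fin k) (o : Cr k) : Decidable (Val j o) := by unfold Val; infer_instance

/-- the side of a carrier -/
def side : Cr k → Bool
  | none => true
  | some y => y.1

structure Sk.Ok (σ : Sk p k) : Prop where
  on : ∀ b, On (σ.s b) σ.L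
  ne : ∀ y, σ.D y ≠ σ.L.1
  inj : Function.Injective σ.D
  sne : σ.s true ≠ σ.s false

theorem Sk.Ok.dinj {σ : Sk p k} (h : σ.Ok) {o o' : Cr k} (e : (σ.cr o).1 = (σ.cr o').1) :
    o = o' := by
  rcases o with _ | y <;> rcases o' with _ | y'
  · rfl
  · exact absurd e.symm (h.ne y')
  · exact absurd e (h.ne y)
  · rw [h.inj e]

theorem Sk.Ok.dne {σ : Sk p k} (h : σ.Ok) {j : Fin k} {y : Bool × Fin k} (v : Val j (some y)) :
    σ.D y ≠ σ.D (y.1, j) := fun e => v y.1 (by rw [← h.inj e])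

theorem Sk.Ok.sp_on {σ : Sk p k} (h : σ.Ok) {u : Pt p} (hu : On u σ.L) {j : Fin k} {o : Cr k}
    (v : Val j o) : On (σ.sp u j o) (σ.cr o) := by
  rcases o with _ | y
  · exact hu
  · exact mt_left (h.dne v)

theorem Sk.Ok.sp_m {σ : Sk p k} (h : σ.Ok) (u : Pt p) {j : Fin k} {o : Cr k} (v : Val j o) (b : Bool)
    (hb : o = none ∨ side o = b) : On (σ.sp u j o) (thr (σ.D (b, j)) u) := by
  rcases o with _ | y
  · exact on_thr _ _
  · obtain rfl : y.1 = b := by simpa [side] using hb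
    exact mt_right (h.dne v)

theorem Sk.Ok.s_on {σ : Sk p k} (h : σ.Ok) (o : Cr k) (b : Bool) :
    On (σ.s b) (σ.cr o) ↔ o = none ∨ side o = b := by
  rcases o with _ | y
  · simpa [Sk.cr] using h.on b
  · simp only [reduceCtorEq, side, false_or]
    refine ⟨fun e => ?_, fun e => e ▸ on_thr _ _⟩
    by_contra e'
    have : σ.s y.1 ≠ σ.s b := by
      have := h.sne
      revert e'
      cases y.1 <;> cases b <;> simp [this, this.symm]
    exact h.ne y (congrArg Prod.fst (ln_uniq this (on_thr _ _) (h.on _) e (h.on _)))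

theorem pen_meet {π : Pt p ⊕ Dir p} {l l' : Ln p} {z : Pt p} (a : l ∈ pen π) (b : l' ∈ pen π)
    (h : l ≠ l') (c : On z l) (d : On z l') : π = .inl z := by
  rcases π with x | e
  · rw [pt_uniq h (mem_lns.1 a) (mem_lns.1 b) c d]
  · exact absurd (ln_ext c d ((mem_filter.1 a).2.trans (mem_filter.1 b).2.symm)) h

/-- the data of the construction -/
structure Gad (p k w : ℕ) [Fact p.Prime] where
  E : Finset (Ln p)
  σ : Dir p → Sk p k
  u : Dir p → Fin k → Pt p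
  ok : ∀ i, (σ i).Ok
  dir : ∀ i, (σ i).L.1 = i
  mem : ∀ i o, (σ i).cr o ∈ E
  exc : ∀ i b, ∀ l ∈ E, On ((σ i).s b) l → ∃ o, l = (σ i).cr o
  dis : ∀ i o i' o', (σ i).cr o = (σ i').cr o' → i = i'
  uon : ∀ i j, On (u i j) (σ i).L
  av : ∀ i j o, Val j o → ∀ l ∈ E, On ((σ i).sp (u i j) j o) l → l = (σ i).cr o
  dst : ∀ i j j' o, Val j o → Val j' o → (σ i).sp (u i j) j o = (σ i).sp (u i j') j' o → j = j'
  gp : ∀ π ν, ν ∉ pen π → ∀ S : Finset (Dir p × Fin k), (∀ y ∈ S, ∃ o, Val y.2 o ∧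
    (σ y.1).cr o ∈ pen π ∧ On ((σ y.1).sp (u y.1 y.2) y.2 o) ν) → S.card ≤ 4
  rig : ∀ C : Finset (Ln p), C.card ≤ p → (∀ z ∈ unc E, ∃ l ∈ C, On z l) →
    ∃ π, p ≤ (C ∩ pen π).card + w
  fr : ∀ l, w + 1 < (free E l).card

variable {w : ℕ} (Γ : Gad p k w)

/-- points that are edges -/
def Gad.X (z : Pt p) : Prop := (∀ i o, ¬ On z ((Γ.σ i).cr o)) ∨
  ∃ i j o, Val j o ∧ z = (Γ.σ i).sp (Γ.u i j) j o

/-- the edge of a point -/
def ept (z : Pt p) (d : Dir p) : Option (ZMod p) := some (pj d z)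

open Classical in
/-- the extra edges -/
noncomputable def Gad.ex (i : Dir p) (b : Bool) (d : Dir p) : Option (ZMod p) :=
  if d = i then none else if h : ∃ j, (Γ.σ i).D (b, j) = d then some (pj d (Γ.u i h.choose))
    else some (pj d ((Γ.σ i).s b))

theorem Gad.ex_self (i : Dir p) (b : Bool) : Γ.ex i b i = none := by simp [Gad.ex]

theorem Gad.ex_D (i : Dir p) (b : Bool) (j : Fin k) :
    Γ.ex i b ((Γ.σ i).D (b, j)) = some (pj ((Γ.σ i).D (b, j)) (Γ.u i j)) := by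
  have h : ∃ j', (Γ.σ i).D (b, j') = (Γ.σ i).D (b, j) := ⟨j, rfl⟩
  rw [Gad.ex, if_neg (by simpa [Γ.dir] using (Γ.ok i).ne (b, j)), dif_pos h,
    show h.choose = j from (Prod.ext_iff.1 ((Γ.ok i).inj h.choose_spec)).2]

theorem Gad.ex_cases (i : Dir p) (b : Bool) (d : Dir p) :
    (∃ o, (o = none ∨ side o = b) ∧ thr d ((Γ.σ i).s b) = (Γ.σ i).cr o ∧
      (d = i ∨ ∃ j, (Γ.σ i).D (b, j) = d)) ∨ Γ.ex i b d = some (pj d ((Γ.σ i).s b)) := by
  by_cases h : d = i
  · refine Or.inl ⟨none, Or.inl rfl, ?_, Or.inl h⟩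
    rw [h]
    conv_lhs => rw [← Γ.dir i]
    simpa [Γ.dir, Sk.cr] using (eq_thr ((Γ.ok i).on b)).symm
  by_cases h' : ∃ j, (Γ.σ i).D (b, j) = d
  · obtain ⟨j, rfl⟩ := h'
    exact Or.inl ⟨some (b, j), Or.inr rfl, rfl, Or.inr ⟨j, rfl⟩⟩
  · exact Or.inr (by rw [Gad.ex, if_neg h, dif_neg h'])

theorem Gad.sp_ne (i : Dir p) {j : Fin k} {o : Cr k} (v : Val j o) (i' : Dir p) (b : Bool) :
    (Γ.σ i).sp (Γ.u i j) j o ≠ (Γ.σ i').s b := by
  intro e
  have a := Γ.av i j o v _ (Γ.mem i' none) (e ▸ ((Γ.ok i').s_on _ b).2 (Or.inl rfl))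
  have c := Γ.av i j o v _ (Γ.mem i' (some (b, j))) (e ▸ ((Γ.ok i').s_on _ b).2 (Or.inr rfl))
  simpa using (Γ.ok i').dinj (congrArg Prod.fst (a.trans c.symm))

theorem Gad.ex_pt (i : Dir p) (b : Bool) {z : Pt p} (hz : Γ.X z) : ∃ d, Γ.ex i b d = ept z d := by
  obtain ⟨d, hd⟩ := dir_ex ((Γ.σ i).s b) z
  rcases Γ.ex_cases i b d with ⟨o, a, c, -⟩ | h
  · have on : On z ((Γ.σ i).cr o) := c ▸ hd.symm
    rcases hz with hz | ⟨i', j, o', v, rfl⟩
    · exact absurd on (hz i o)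
    · have e := Γ.av i' j o' v _ (Γ.mem i o) on
      obtain rfl := Γ.dis _ _ _ _ e
      obtain rfl := (Γ.ok i).dinj (congrArg Prod.fst e)
      exact ⟨_, (Γ.ex_D i b j).trans (congrArg some ((Γ.ok i).sp_m _ v b a).symm)⟩
  · exact ⟨d, by rw [h, hd, ept]⟩

theorem Gad.ex_ex (i : Dir p) (b : Bool) (i' : Dir p) (b' : Bool) :
    ∃ d, Γ.ex i b d = Γ.ex i' b' d := by
  by_cases h : i = i'
  · exact ⟨i, by rw [← h, Γ.ex_self, Γ.ex_self]⟩
  obtain ⟨d, hd⟩ := dir_ex ((Γ.σ i).s b) ((Γ.σ i').s b')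
  rcases Γ.ex_cases i b d with ⟨o, -, c, -⟩ | h1
  · obtain ⟨o', e⟩ := Γ.exc i' b' _ (Γ.mem i o) (c ▸ hd.symm)
    exact absurd (Γ.dis _ _ _ _ e) h
  rcases Γ.ex_cases i' b' d with ⟨o, -, c, -⟩ | h2
  · obtain ⟨o', e⟩ := Γ.exc i b _ (Γ.mem i' o) (c ▸ hd)
    exact absurd (Γ.dis _ _ _ _ e).symm h
  · exact ⟨d, by rw [h1, h2, hd]⟩

theorem Gad.missing (C : Finset (Ln p)) (hC : C.card ≤ p) (hX : ∀ z, Γ.X z → ∃ l ∈ C, On z l) :
    ∃ π, ∀ l ∈ pen π, l ∉ C → ∃ i o, (Γ.σ i).cr o = l := by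
  classical
  obtain ⟨π, hπ⟩ := Γ.rig C hC fun z hz => hX z (Or.inl fun i o =>
    (mem_filter.1 hz).2 _ (Γ.mem i o))
  refine ⟨π, fun l a b => ?_⟩
  by_contra hc
  push Not at hc
  have h1 : free Γ.E l ⊆ (univ.filter fun z => π = .inl z) ∪ (C \ pen π).image (mt l) := by
    intro z hz
    obtain ⟨z1, z2⟩ := mem_filter.1 hz
    rw [mem_pts] at z1
    obtain ⟨l', c, d⟩ := hX z (Or.inl fun i o h => z2 _ (Γ.mem i o)
      (fun e => hc i o (ln_ext h z1 e)) h)
    have e : l ≠ l' := fun e => b (e ▸ c)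
    by_cases f : l' ∈ pen π
    · exact mem_union_left _ (mem_filter.2 ⟨mem_univ _, pen_meet a f e z1 d⟩)
    · exact mem_union_right _ (mem_image.2 ⟨l', mem_sdiff.2 ⟨c, f⟩,
        (eq_mt (fun e' => e (ln_ext z1 d e')) z1 d).symm⟩)
  have h2 := (card_le_card h1).trans ((card_union_le _ _).trans (add_le_add (card_le_one.2
    fun z hz z' hz' => Sum.inl_injective ((mem_filter.1 hz).2.symm.trans (mem_filter.1 hz').2))
    card_image_le))
  have := card_sdiff_add_card_inter C (pen π)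
  have := Γ.fr l
  omega

theorem card_val (o : Cr k) : k ≤ (univ.filter fun j => Val j o).card + 1 := by
  have := card_filter_add_card_filter_not (s := univ) fun j : Fin k => Val j o
  rw [card_univ, Fintype.card_fin] at this
  have : (univ.filter fun j : Fin k => ¬ Val j o).card ≤ 1 := card_le_one.2 fun j hj j' hj' => by
    simp only [Val, mem_filter, mem_univ, true_and, not_forall, not_not] at hj hj'
    obtain ⟨b, e⟩ := hj
    obtain ⟨b', e'⟩ := hj'
    simpa using (Prod.ext_iff.1 (Option.some.inj (e.symm.trans e'))).2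
  omega

theorem Gad.generic (hk : 11 ≤ k) (C : Finset (Ln p)) (hX : ∀ z, Γ.X z → ∃ l ∈ C, On z l)
    (π : Pt p ⊕ Dir p) (hπ : ∀ l ∈ pen π, l ∉ C → ∃ i o, (Γ.σ i).cr o = l)
    (hc : ∀ i b, π ≠ .inl ((Γ.σ i).s b)) (hs : (C \ pen π).card ≤ (pen π \ C).card) :
    pen π ⊆ C := by
  classical
  let Mo := univ.filter fun x : Dir p × Cr k => (Γ.σ x.1).cr x.2 ∈ pen π \ C
  let Q := (Mo ×ˢ univ).filter fun x : (Dir p × Cr k) × Fin k => Val x.2 x.1.2 ∧
    π ≠ .inl ((Γ.σ x.1.1).sp (Γ.u x.1.1 x.2) x.2 x.1.2)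
  have h1 : (pen π \ C).card ≤ Mo.card := by
    refine (card_le_card fun l hl => ?_).trans (card_image_le (f := fun x => (Γ.σ x.1).cr x.2))
    obtain ⟨i, o, e⟩ := hπ l (mem_sdiff.1 hl).1 (mem_sdiff.1 hl).2
    exact mem_image.2 ⟨(i, o), mem_filter.2 ⟨mem_univ _, e ▸ hl⟩, e⟩
  have h2 : Mo.card * 9 ≤ Q.card := by
    rw [show Q.card = _ from card_filter _ _, sum_product, ← smul_eq_mul]
    refine card_nsmul_le_sum _ _ _ fun x _ => ?_
    rw [← card_filter]
    have a := card_val x.2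
    have b := card_filter_add_card_filter_not (s := univ.filter fun j => Val j x.2)
      fun j => π ≠ .inl ((Γ.σ x.1).sp (Γ.u x.1 j) j x.2)
    have c : ((univ.filter fun j => Val j x.2).filter
        fun j => ¬ π ≠ .inl ((Γ.σ x.1).sp (Γ.u x.1 j) j x.2)).card ≤ 1 :=
      card_le_one.2 fun j hj j' hj' => by
        simp only [mem_filter, mem_univ, true_and, not_not] at hj hj'
        exact Γ.dst _ _ _ _ hj.1 hj'.1 (Sum.inl_injective (hj.2.symm.trans hj'.2))
    rw [filter_filter] at b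
    simp only at b ⊢
    omega
  have h3 : Q.card ≤ (C \ pen π).card * 8 := by
    refine (card_le_card (t := (C \ pen π).biUnion fun ν => Q.filter fun x =>
      On ((Γ.σ x.1.1).sp (Γ.u x.1.1 x.2) x.2 x.1.2) ν) fun x hx => ?_).trans
      (card_biUnion_le.trans (sum_le_card_nsmul _ _ _ fun ν hν => ?_))
    · obtain ⟨a, v, b⟩ := mem_filter.1 hx
      have a := mem_sdiff.1 (mem_filter.1 (mem_product.1 a).1).2
      obtain ⟨ν, c, d⟩ := hX _ (Or.inr ⟨_, _, _, v, rfl⟩)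
      exact mem_biUnion.2 ⟨ν, mem_sdiff.2 ⟨c, fun e => b (pen_meet a.1 e (fun e' => a.2 (e' ▸ c))
        ((Γ.ok _).sp_on (Γ.uon _ _) v) d)⟩, mem_filter.2 ⟨hx, d⟩⟩
    · set Qν := Q.filter fun x => On ((Γ.σ x.1.1).sp (Γ.u x.1.1 x.2) x.2 x.1.2) ν
      have m : ∀ x ∈ Qν, Val x.2 x.1.2 ∧ (Γ.σ x.1.1).cr x.1.2 ∈ pen π ∧
          On ((Γ.σ x.1.1).sp (Γ.u x.1.1 x.2) x.2 x.1.2) ν := fun x hx =>
        ⟨(mem_filter.1 (mem_filter.1 hx).1).2.1, (mem_sdiff.1 (mem_filter.1 (mem_product.1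
          (mem_filter.1 (mem_filter.1 hx).1).1).1).2).1, (mem_filter.1 hx).2⟩
      have a := Γ.gp π ν (mem_sdiff.1 hν).2 (Qν.image fun x => (x.1.1, x.2)) fun y hy => by
        obtain ⟨x, hx, rfl⟩ := mem_image.1 hy
        exact ⟨_, m x hx⟩
      refine (card_le_card_of_injOn (t := (Qν.image fun x => (x.1.1, x.2)) ×ˢ univ)
        (fun x => ((x.1.1, x.2), side x.1.2)) (fun x hx => mem_coe.2 (mem_product.2
        ⟨mem_image_of_mem _ hx, mem_univ _⟩)) fun x hx y hy e => ?_).trans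
        (by rw [card_product, card_univ, Fintype.card_bool]; omega)
      obtain ⟨⟨i, o⟩, j⟩ := x
      obtain ⟨⟨i', o'⟩, j'⟩ := y
      simp only [Prod.mk.injEq] at e
      obtain ⟨⟨rfl, rfl⟩, e⟩ := e
      by_contra hne
      exact hc i (side o) (pen_meet (m _ hx).2.1 (m _ hy).2.1
        (fun e' => hne (by rw [show o = o' from (Γ.ok i).dinj (congrArg Prod.fst e')]))
        (((Γ.ok i).s_on _ _).2 (Or.inr rfl)) (((Γ.ok i).s_on _ _).2 (Or.inr e.symm)))
  exact sdiff_eq_empty_iff_subset.1 (card_eq_zero.1 (by omega))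

theorem Gad.centre (hk : 11 ≤ k) (C : Finset (Ln p)) (hX : ∀ z, Γ.X z → ∃ l ∈ C, On z l)
    (i : Dir p) (b : Bool)
    (hπ : ∀ l ∈ lns ((Γ.σ i).s b), l ∉ C → ∃ i o, (Γ.σ i).cr o = l) (hC : C.card ≤ p)
    (hs : C.card + 1 ≤ p ∨ ∃ l ∈ C, Γ.ex i (!b) l.1 = some l.2) : False := by
  classical
  have ok := Γ.ok i
  let m : Fin k → Ln p := fun j => thr ((Γ.σ i).D (b, j)) (Γ.u i j)
  have vn : ∀ j : Fin k, Val j (none : Cr k) := fun j b => by simp
  have un : ∀ j b, Γ.u i j ≠ (Γ.σ i).s b := fun j b => Γ.sp_ne i (vn j) i b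
  have nl : ∀ {x y : Pt p} {d}, x ≠ y → On x (Γ.σ i).L → On y (Γ.σ i).L → d ≠ (Γ.σ i).L.1 →
      ¬ On y (thr d x) := fun h a c e f =>
    e (congrArg Prod.fst (ln_uniq h (on_thr _ _) a f c))
  have ms : ∀ j, ¬ On ((Γ.σ i).s b) (m j) := fun j =>
    nl (un j b) (Γ.uon i j) (ok.on b) (ok.ne _)
  let Um := univ.filter fun j => m j ∈ C
  let O := univ.filter fun o : Cr k => (Γ.σ i).cr o ∈ lns ((Γ.σ i).s b) \ C
  have O1 : ∀ o ∈ O, (o = none ∨ side o = b) ∧ (Γ.σ i).cr o ∉ C := fun o ho =>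
    ⟨(ok.s_on o b).1 (mem_lns.1 (mem_sdiff.1 (mem_filter.1 ho).2).1),
      (mem_sdiff.1 (mem_filter.1 ho).2).2⟩
  have h1 : (lns ((Γ.σ i).s b) \ C).card ≤ O.card := by
    refine (card_le_card fun l hl => ?_).trans (card_image_le (f := (Γ.σ i).cr))
    obtain ⟨i', o', e⟩ := hπ l (mem_sdiff.1 hl).1 (mem_sdiff.1 hl).2
    obtain ⟨o, e'⟩ := Γ.exc i b l (e ▸ Γ.mem i' o') (mem_lns.1 (mem_sdiff.1 hl).1)
    exact mem_image.2 ⟨o, mem_filter.2 ⟨mem_univ _, e' ▸ hl⟩, e'.symm⟩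
  have h2 : O.card ≤ k + 1 := by
    refine (card_le_card (t := insert none (univ.image fun j => some (b, j))) fun o ho => ?_).trans
      ((card_insert_le _ _).trans (Nat.succ_le_succ (card_image_le.trans (by simp))))
    rcases o with _ | ⟨b', j⟩
    · simp
    · obtain rfl : b' = b := by simpa [side] using (O1 _ ho).1
      simp
  have h3 := card_sdiff_add_card_inter (lns ((Γ.σ i).s b)) C
  have h4 := card_sdiff_add_card_inter C (lns ((Γ.σ i).s b))
  rw [card_lns] at h3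
  rw [inter_comm] at h4
  have mi : Function.Injective m := fun j j' e =>
    (Prod.ext_iff.1 (ok.inj (congrArg Prod.fst e))).2
  have ms' : Um.image m ⊆ C \ lns ((Γ.σ i).s b) := fun l hl => by
    obtain ⟨j, a, rfl⟩ := mem_image.1 hl
    exact mem_sdiff.2 ⟨(mem_filter.1 a).2, fun h => ms j (mem_lns.1 h)⟩
  have h5 := card_sdiff_add_card_eq_card ms'
  rw [card_image_of_injective _ mi] at h5
  have h6 : C.card + 1 ≤ p ∨ 0 < ((C \ lns ((Γ.σ i).s b)) \ Um.image m).card := by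
    refine hs.imp id fun ⟨l, a, e⟩ => card_pos.2 ⟨l, ?_⟩
    have sn : (Γ.σ i).s (!b) ≠ (Γ.σ i).s b := by
      have := ok.sne
      cases b <;> simp [this, this.symm]
    have li : l.1 ≠ (Γ.σ i).L.1 := fun h => by
      rw [h, Γ.dir, Γ.ex_self] at e
      simp at e
    have key : ¬ On ((Γ.σ i).s b) l ∧ ∀ j, m j ≠ l := by
      rcases Γ.ex_cases i (!b) l.1 with ⟨o, -, -, h | ⟨j, h⟩⟩ | h
      · exact absurd (h.trans (Γ.dir i).symm) li
      · rw [← h, Γ.ex_D, h] at e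
        refine ⟨eq_thr (Option.some.inj e) ▸ nl (un j b) (Γ.uon i j) (ok.on b) li, fun j' e' => ?_⟩
        simpa using ok.inj ((congrArg Prod.fst e').trans h.symm)
      · rw [h] at e
        refine ⟨eq_thr (Option.some.inj e) ▸ nl sn (ok.on _) (ok.on b) li, fun j' e' => ?_⟩
        exact nl (un j' (!b)) (Γ.uon i j') (ok.on _) (ok.ne (b, j')) (e' ▸ Option.some.inj e :
          On _ (m j'))
    exact mem_sdiff.2 ⟨mem_sdiff.2 ⟨a, fun h => key.1 (mem_lns.1 h)⟩, by simp [key.2]⟩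
  let Q := ((univ \ Um) ×ˢ O).filter fun x => Val x.1 x.2
  have h7 : (k - Um.card) * (O.card - 1) ≤ Q.card := by
    rw [show Q.card = _ from card_filter _ _, sum_product, ← smul_eq_mul, show k - Um.card = (univ \ Um).card by
      rw [card_univ_diff, Fintype.card_fin]]
    refine card_nsmul_le_sum _ _ _ fun j _ => ?_
    rw [← card_filter]
    have a := card_filter_add_card_filter_not (s := O) fun o => Val j o
    have c : (O.filter fun o => ¬ Val j o).card ≤ 1 := card_le_one.2 fun o ho o' ho' => by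
      have a := (O1 _ (mem_filter.1 ho).1).1
      have a' := (O1 _ (mem_filter.1 ho').1).1
      simp only [Val, mem_filter, not_forall, not_not] at ho ho'
      obtain ⟨-, b1, rfl⟩ := ho
      obtain ⟨-, b2, rfl⟩ := ho'
      simp_all [side]
    simp only at a ⊢
    omega
  have h8 : Q.card ≤ ((C \ lns ((Γ.σ i).s b)) \ Um.image m).card * 4 := by
    have q : ∀ x ∈ Q, m x.1 ∉ C ∧ x.2 ∈ O ∧ Val x.1 x.2 := fun x hx => by
      simpa [Q, Um, and_assoc] using hx
    refine (card_le_card (t := ((C \ lns ((Γ.σ i).s b)) \ Um.image m).biUnion fun ν =>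
      Q.filter fun x => On ((Γ.σ i).sp (Γ.u i x.1) x.1 x.2) ν) fun x hx => ?_).trans
      (card_biUnion_le.trans (sum_le_card_nsmul _ _ _ fun ν hν => ?_))
    · obtain ⟨j, o⟩ := x
      obtain ⟨a, c, v⟩ := q _ hx
      obtain ⟨ν, d, e⟩ := hX _ (Or.inr ⟨_, _, _, v, rfl⟩)
      have so := ok.sp_on (Γ.uon i j) v
      have s2 := (ok.s_on o b).2 (O1 o c).1
      refine mem_biUnion.2 ⟨ν, mem_sdiff.2 ⟨mem_sdiff.2 ⟨d, fun f => (O1 o c).2 ?_⟩, fun f => ?_⟩,
        mem_filter.2 ⟨hx, e⟩⟩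
      · rwa [ln_uniq (Γ.sp_ne i v i b) so e s2 (mem_lns.1 f)]
      · obtain ⟨j', g, rfl⟩ := mem_image.1 f
        have ne : (Γ.σ i).cr o ≠ m j' := fun h => ms j' (h ▸ s2)
        by_cases v' : Val j' o
        · have := Γ.dst i j j' o v v' (pt_uniq ne so e (ok.sp_on (Γ.uon i j') v')
            (ok.sp_m _ v' b (O1 o c).1))
          exact a (this ▸ (mem_filter.1 g).2)
        · simp only [Val, not_forall, not_not] at v'
          obtain ⟨b', rfl⟩ := v'
          obtain rfl : b' = b := by simpa [side] using (O1 _ c).1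
          exact ne (ln_ext so e rfl)
    · set Qν := Q.filter fun x => On ((Γ.σ i).sp (Γ.u i x.1) x.1 x.2) ν
      have n1 := mem_sdiff.1 (mem_sdiff.1 hν).1
      refine le_trans ?_ (Γ.gp (.inl ((Γ.σ i).s b)) ν n1.2 (Qν.image fun x => (i, x.1))
        fun y hy => ?_)
      · refine (card_image_of_injOn fun x hx y hy e => ?_).ge
        obtain ⟨j, o⟩ := x
        obtain ⟨j', o'⟩ := y
        obtain rfl : j = j' := (Prod.ext_iff.1 e).2
        obtain ⟨x1, x2⟩ := mem_filter.1 hx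
        obtain ⟨y1, y2⟩ := mem_filter.1 hy
        obtain ⟨a, c, v⟩ := q _ x1
        obtain ⟨-, c', v'⟩ := q _ y1
        by_contra hne
        refine a ((show m j = ν from ln_uniq (fun e' => ?_) (ok.sp_m _ v b (O1 o c).1) x2
          (ok.sp_m _ v' b (O1 o' c').1) y2) ▸ n1.1)
        exact hne (by rw [show o = o' from ok.dinj (congrArg Prod.fst (Γ.av i j o' v' _ (Γ.mem i o)
          (e' ▸ ok.sp_on (Γ.uon i j) v)))])
      · obtain ⟨x, hx, rfl⟩ := mem_image.1 hy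
        obtain ⟨x1, x2⟩ := mem_filter.1 hx
        exact ⟨x.2, (q _ x1).2.2, (mem_sdiff.1 (mem_filter.1 (q _ x1).2.1).2).1, x2⟩
  have h9 := h7.trans h8
  generalize ((C \ lns ((Γ.σ i).s b)) \ Um.image m).card = t at *
  generalize Um.card = u at *
  obtain ⟨e, he⟩ : ∃ e, O.card = e + 1 := ⟨O.card - 1, by omega⟩
  obtain ⟨v, hv⟩ : ∃ v, k = u + v := ⟨k - u, by omega⟩
  rw [he, hv, Nat.add_sub_cancel, Nat.add_sub_cancel_left] at h9
  have a1 : t ≤ v := by omega
  have a2 : t ≤ e := by omega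
  have a3 : 0 < v := by omega
  have a4 : 0 < e := by omega
  have a5 : e ≤ 4 := Nat.le_of_mul_le_mul_left (h9.trans (Nat.mul_le_mul_right 4 a1)) a3
  have a6 : v ≤ 4 := Nat.le_of_mul_le_mul_right
    (h9.trans ((Nat.mul_le_mul_right 4 a2).trans (mul_comm _ _).le)) a4
  omega

theorem Gad.cover (hk : 11 ≤ k) (T : Finset (Dir p × Option (ZMod p)))
    (h1 : ∀ z, Γ.X z → ∃ d, (d, ept z d) ∈ T) (h2 : ∀ i b, ∃ d, (d, Γ.ex i b d) ∈ T) :
    p < T.card := by
  classical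
  by_contra hT
  let β : Ln p → Dir p × Option (ZMod p) := fun l => (l.1, some l.2)
  have βi : Function.Injective β := fun l l' e => by
    simp only [β, Prod.mk.injEq, Option.some.injEq] at e
    exact Prod.ext e.1 e.2
  let C := univ.filter fun l => β l ∈ T
  have c1 : C.image β ⊆ T := fun x hx => by
    obtain ⟨l, a, rfl⟩ := mem_image.1 hx
    exact (mem_filter.1 a).2
  have c2 : C.card ≤ T.card := (card_image_of_injective _ βi).ge.trans (card_le_card c1)
  have c3 : ∀ i b, C.card + 1 ≤ p ∨ ∃ l ∈ C, Γ.ex i b l.1 = some l.2 := by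
    intro i b
    obtain ⟨d, hd⟩ := h2 i b
    rcases e : Γ.ex i b d with _ | a
    · left
      have := card_le_card (insert_subset hd c1)
      rw [card_insert_of_notMem (by simp [β, e]), card_image_of_injective _ βi] at this
      omega
    · exact Or.inr ⟨(d, a), mem_filter.2 ⟨mem_univ _, by simpa [β, e] using hd⟩, e⟩
  have hX : ∀ z, Γ.X z → ∃ l ∈ C, On z l := fun z hz => by
    obtain ⟨d, hd⟩ := h1 z hz
    exact ⟨thr d z, mem_filter.2 ⟨mem_univ _, hd⟩, on_thr _ _⟩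
  obtain ⟨π, hπ⟩ := Γ.missing C (by omega) hX
  by_cases hc : ∀ i b, π ≠ .inl ((Γ.σ i).s b)
  · have a1 := card_sdiff_add_card_inter (pen π) C
    have a2 := card_sdiff_add_card_inter C (pen π)
    rw [inter_comm] at a2
    rcases π with z | d
    · have a3 : (pen (.inl z)).card = p + 1 := card_lns z
      have := card_le_card (Γ.generic hk C hX _ hπ hc (by omega))
      omega
    · have a3 : (pen (.inr d)).card = p := card_dirl d
      have a4 := Γ.generic hk C hX _ hπ hc (by omega)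
      have a5 := card_le_card a4
      rcases c3 d true with h | ⟨l, a, e⟩
      · omega
      · rw [← eq_of_subset_of_card_le a4 (by omega)] at a
        rw [(mem_filter.1 a).2, Γ.ex_self] at e
        simp at e
  · push Not at hc
    obtain ⟨i, b, rfl⟩ := hc
    exact Γ.centre hk C hX i b hπ (by omega) (c3 i _)

end Vale.Agent.P045
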