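import Mathlib
import Vale.Agent.P045.Build

namespace Vale.Agent.P045

open Finset
open scoped BigOperators

variable {p : ℕ} [Fact p.Prime] {K : ℕ}

/-- the sampled lines -/
def smp (ω : Co p K → ZMod p) : Finset (Ln p) := univ.image fun c => (c.1, ω c)

theorem mem_smp {ω : Co p K → ZMod p} {l : Ln p} : l ∈ smp ω ↔ ∃ c : Co p K, (c.1, ω c) = l := by
  simp [smp]

theorem conc {R : Type*} [Fintype R] [Nonempty R] (φ : R → ZMod p → Pt p) (δ : R → Dir p)
    (hφ : ∀ r (l : Ln p), l.1 ≠ δ r → ∀ u u', On (φ r u) l → On (φ r u') l → u = u')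
    (Ev : ZMod p → (R → Co p K → Prop) → Prop) (X : (Co p K → ZMod p) → ℝ)
    (hX : ∀ ω, X ω = ∑ u, ind (Ev u fun r c => c.1 ≠ δ r ∧ On (φ r u) (c.1, ω c)))
    (t r : ℝ) (ht : 0 < t) (hr : (Fintype.card R : ℝ) ≤ r) :
    pr (fun ω => t ≤ |X ω - 𝔼 ω', X ω'|) ≤
      2 * Real.exp (-(t ^ 2 / (2 * ((p + 1) * (K + 1)) * (2 * r) ^ 2))) := by
  classical
  have r0 : (0 : ℝ) < r := lt_of_lt_of_le (by exact_mod_cast Fintype.card_pos) hr
  refine mcd _ _ _ (by positivity) ht (by rw [card_Co]; push_cast; rfl) (by positivity) X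
    fun j ω a => ?_
  rw [hX, hX, ← sum_sub_distrib]
  refine (abs_sum_le_sum_abs _ _).trans ((sum_le_sum (g := fun u => ∑ r, (ind (j.1 ≠ δ r ∧
    On (φ r u) (j.1, a)) + ind (j.1 ≠ δ r ∧ On (φ r u) (j.1, ω j)))) fun u _ => ?_).trans ?_)
  · by_cases h : ∀ r, ¬ (j.1 ≠ δ r ∧ On (φ r u) (j.1, a)) ∧ ¬ (j.1 ≠ δ r ∧ On (φ r u) (j.1, ω j))
    · have : (fun r c => c.1 ≠ δ r ∧ On (φ r u) (c.1, Function.update ω j a c)) =
          fun r c => c.1 ≠ δ r ∧ On (φ r u) (c.1, ω c) := by
        funext r c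
        by_cases e : c = j
        · rw [e, Function.update_self]
          exact propext ⟨fun x => absurd x (h r).1, fun x => absurd x (h r).2⟩
        · rw [Function.update_of_ne e]
      rw [this, sub_self, abs_zero]
      exact sum_nonneg fun _ _ => add_nonneg (ind_nonneg _) (ind_nonneg _)
    · obtain ⟨r, h⟩ := not_forall.1 h
      refine le_trans ?_ (single_le_sum (fun _ _ => add_nonneg (ind_nonneg _) (ind_nonneg _))
        (mem_univ r))
      refine le_trans (abs_sub_le_iff.2 ⟨(sub_le_self _ (ind_nonneg _)).trans (ind_le_one _),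
        (sub_le_self _ (ind_nonneg _)).trans (ind_le_one _)⟩) ?_
      rw [not_and_or, not_not, not_not] at h
      rcases h with h | h
      · rw [ind_pos h]; exact le_add_of_nonneg_right (ind_nonneg _)
      · rw [ind_pos h]; exact le_add_of_nonneg_left (ind_nonneg _)
  · rw [sum_comm]
    have key : ∀ r b, ∑ u, ind (j.1 ≠ δ r ∧ On (φ r u) (j.1, b)) ≤ 1 := fun r b => by
      rw [sum_ind]
      exact Nat.cast_le_one.2 (card_le_one.2 fun u hu u' hu' => hφ r (j.1, b)
        (mem_filter.1 hu).2.1 u u' (mem_filter.1 hu).2.2 (mem_filter.1 hu').2.2)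
    refine (sum_le_card_nsmul _ _ 2 fun r _ => ?_).trans (by rw [nsmul_eq_mul, card_univ]; linarith)
    rw [sum_add_distrib]
    linarith [key r a, key r (ω j)]

theorem par_uniq (l l' : Ln p) (h : l'.1 ≠ l.1) (u u' : ZMod p) (a : On (par l u) l')
    (b : On (par l u') l') : u = u' :=
  par_inj l (pt_uniq (fun e => h (by rw [e])) (on_par l u) a (on_par l u') b)

theorem card_filter_pts (l : Ln p) (P : Pt p → Prop) [DecidablePred P] :
    (((pts l).filter P).card : ℝ) = ∑ u, ind (P (par l u)) := by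
  rw [← sum_ind, pts_eq, sum_map]
  rfl

theorem av_eq_ind (b : ZMod p) : 𝔼 a, ind (b = a) = 1 / p := by
  rw [av_zmod, sum_ind, filter_eq, if_pos (mem_univ _)]
  simp

theorem av_ne_ind (b : ZMod p) : 𝔼 a, ind (¬ b = a) = 1 - 1 / p := by
  rw [← av_eq_ind b, ← Fintype.expect_const (ι := ZMod p) (1 : ℝ), ← Finset.expect_sub_distrib]
  exact Finset.expect_congr rfl fun a _ => by by_cases h : b = a <;> simp [ind, h]

theorem av_pat (z : Pt p) (J H : Finset (Co p K)) (h : H ⊆ J) :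
    pr (fun ω : Co p K → ZMod p => ∀ c ∈ J, (On z (c.1, ω c) ↔ c ∈ H)) =
      (1 / p) ^ H.card * (1 - 1 / p) ^ (J.card - H.card) := by
  have e : ∀ ω : Co p K → ZMod p, ind (∀ c ∈ J, (On z (c.1, ω c) ↔ c ∈ H)) =
      ∏ c, ind (c ∈ J → (pj c.1 z = ω c ↔ c ∈ H)) := fun ω => by
    rw [← ind_forall]
    exact ind_congr (by simp [On])
  simp only [pr, e]
  rw [av_prod fun c a => ind (c ∈ J → (pj c.1 z = a ↔ c ∈ H)),
    ← prod_subset (subset_univ J) fun c _ hc => by simp [hc, ind], ← prod_sdiff h, mul_comm,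
    prod_congr rfl (g := fun _ => 1 / (p : ℝ)) fun c hc => by
      rw [← av_eq_ind (pj c.1 z)]; simp [hc, h hc],
    prod_congr rfl (s₁ := J \ H) (g := fun _ => 1 - 1 / (p : ℝ)) fun c hc => by
      rw [← av_ne_ind (pj c.1 z)]; simp [(mem_sdiff.1 hc).1, (mem_sdiff.1 hc).2],
    prod_const, prod_const, card_sdiff_of_subset h]

theorem av_multi {R : Type*} [Fintype R] (x : R → Pt p) (hR : Fintype.card R ≤ p) :
    (1 - Fintype.card R / p : ℝ) ^ ((p + 1) * (K + 1)) ≤
      pr fun ω : Co p K → ZMod p => ∀ c r, ¬ On (x r) (c.1, ω c) := by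
  classical
  have p0 := p_pos (p := p)
  have e : ∀ ω : Co p K → ZMod p, ind (∀ c r, ¬ On (x r) (c.1, ω c)) =
      ∏ c, ind (∀ r, ¬ pj c.1 (x r) = ω c) := fun ω => by
    rw [← ind_forall]
    exact ind_congr (by simp [On])
  simp only [pr, e]
  rw [av_prod fun (c : Co p K) a => ind (∀ r, ¬ pj c.1 (x r) = a), ← card_Co,
    ← card_univ (α := Co p K), ← prod_const]
  refine prod_le_prod (fun _ _ => ?_) fun c _ => ?_
  · rw [sub_nonneg, div_le_one p0]; exact_mod_cast hR
  · rw [av_zmod, sum_ind, le_div_iff₀ p0, sub_mul, div_mul_cancel₀ _ p0.ne', one_mul,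
      sub_le_iff_le_add]
    have a := card_filter_add_card_filter_not (s := univ) fun a => ∀ r, ¬ pj c.1 (x r) = a
    have b : (univ.filter fun a => ¬ ∀ r, ¬ pj c.1 (x r) = a).card ≤ Fintype.card R :=
      (card_le_card fun a ha => by simpa using ha).trans
        (card_image_le (s := univ) (f := fun r => pj c.1 (x r)))
    rw [card_univ, ZMod.card] at a
    exact_mod_cast (by omega)

theorem card_off (d : Dir p) : (univ.filter fun c : Co p K => c.1 ≠ d).card = p * (K + 1) := by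
  rw [show (univ.filter fun c : Co p K => c.1 ≠ d) = univ.erase d ×ˢ univ by ext; simp,
    card_product, card_erase_of_mem (mem_univ _), card_univ, card_Dir]
  simp

theorem pr_free (t : ℝ) (ht : 0 < t) :
    pr (fun ω : Co p K → ZMod p => ∃ l ∈ (univ : Finset (Ln p)),
      t ≤ |(free (smp ω) l).card - (1 - 1 / p : ℝ) ^ (p * (K + 1)) * p|) ≤ (p + 1) * p *
      (2 * Real.exp (-(t ^ 2 / (2 * ((p + 1) * (K + 1)) * (2 * 1) ^ 2)))) := by
  refine (pr_exists_le _ _ fun l _ => ?_).trans (by rw [card_univ, card_Ln]; push_cast; rfl)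
  have e : ∀ ω : Co p K → ZMod p, ((free (smp ω) l).card : ℝ) =
      ∑ u, ind (∀ c : Co p K, ¬ (c.1 ≠ l.1 ∧ On (par l u) (c.1, ω c))) := fun ω => by
    rw [free, card_filter_pts]
    exact sum_congr rfl fun u _ => ind_congr ⟨fun h c hc => h _ (mem_smp.2 ⟨c, rfl⟩) hc.1 hc.2,
      fun h l' a b d => by obtain ⟨c, rfl⟩ := mem_smp.1 a; exact h c ⟨b, d⟩⟩
  have := conc (K := K) (fun _ : Unit => par l) (fun _ => l.1) (fun _ l' h => par_uniq l l' h)
    (fun _ P => ∀ c, ¬ P () c) _ e t 1 ht (by simp)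
  convert this
  simp only [e]
  rw [Finset.expect_sum_comm, sum_congr rfl (g := fun _ => (1 - 1 / p : ℝ) ^ (p * (K + 1)))
    fun u _ => ?_]
  · simp [ZMod.card, mul_comm]
  · have := av_pat (par l u) (univ.filter fun c : Co p K => c.1 ≠ l.1) ∅ (empty_subset _)
    rw [card_off] at this
    simpa [pr] using this

theorem pr_mult (e : ℕ) : pr (fun ω : Co p K → ZMod p => ∃ z ∈ (univ : Finset (Pt p)),
    e ≤ (smp ω ∩ lns z).card) ≤ p * p * (Real.exp (2 * (K + 1)) / 2 ^ e) := by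
  have p0 := p_pos (p := p)
  refine (pr_exists_le _ _ fun z _ => ?_).trans (by rw [card_univ, card_Pt]; push_cast; rfl)
  refine le_trans (pr_mono fun ω h => ?_) ((markov (f := fun ω : Co p K → ZMod p =>
    ∏ c, (1 + ind (pj c.1 z = ω c))) (fun ω => prod_nonneg fun _ _ =>
      add_nonneg zero_le_one (ind_nonneg _)) (show (0 : ℝ) < 2 ^ e by positivity)).trans ?_)
  · have a : (smp ω ∩ lns z).card ≤ (univ.filter fun c : Co p K => pj c.1 z = ω c).card := by
      refine (card_le_card fun l hl => ?_).trans (card_image_le (f := fun c => (c.1, ω c)))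
      obtain ⟨c, rfl⟩ := mem_smp.1 (mem_inter.1 hl).1
      exact mem_image_of_mem _ (mem_filter.2 ⟨mem_univ _, mem_lns.1 (mem_inter.1 hl).2⟩)
    refine (pow_le_pow_right₀ one_le_two (h.trans a)).trans (le_of_eq ?_)
    rw [← prod_const, prod_filter]
    exact prod_congr rfl fun c _ => by by_cases h : pj c.1 z = ω c <;> simp [ind, h] <;> norm_num
  · refine div_le_div_of_nonneg_right ?_ (by positivity)
    rw [av_prod fun (c : Co p K) a => 1 + ind (pj c.1 z = a)]
    simp only [Finset.expect_add_distrib, Fintype.expect_const, av_eq_ind, prod_const, card_univ,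
      card_Co]
    refine (pow_le_pow_left₀ (by positivity) ((add_comm _ _).le.trans (Real.add_one_le_exp _))
      _).trans ?_
    rw [← Real.exp_nat_mul, Real.exp_le_exp, mul_one_div, div_le_iff₀ p0]
    push_cast
    nlinarith [two_le_p (p := p)]

theorem Ln_le : Fintype.card (Ln p) + 1 ≤ p ^ 3 := by
  have := (Fact.out : p.Prime).two_le
  rw [card_Ln]
  nlinarith [Nat.mul_le_mul this this]

theorem pr_grid (f n : ℕ) : pr (fun ω : Co p K → ZMod p =>
    ∃ y ∈ powersetCard f univ ×ˢ powersetCard f univ, Gen y.1 y.2 n ∧ ∀ z, (∃ l ∈ y.1, On z l) →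
      (∃ l ∈ y.2, On z l) → ∃ l ∈ smp ω, On z l ∧ l ∉ y.1 ∪ y.2) ≤
    p ^ (6 * f) * (Real.exp (4 * n ^ 3 * (K + 1) / p) *
      (1 - (1 - 1 / p) ^ ((p + 1) * (K + 1)) / 2) ^ n) := by
  have nn : (0 : ℝ) ≤ Real.exp (4 * n ^ 3 * (K + 1) / p) *
      (1 - (1 - 1 / p) ^ ((p + 1) * (K + 1)) / 2) ^ n := mul_nonneg (Real.exp_pos _).le
    (pow_nonneg (by linarith [pow_le_one₀ (n := (p + 1) * (K + 1)) (q_nonneg (p := p)) q_le_one]) _)
  refine (pr_exists_le _ _ fun y _ => ?_).trans (mul_le_mul_of_nonneg_right ?_ nn)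
  · by_cases h : Gen y.1 y.2 n
    · obtain ⟨W, W1, W2, rfl⟩ := h
      refine le_trans (pr_mono fun ω hω z hz => ?_) (cov_small _ W W2)
      obtain ⟨l, a, b⟩ := hω.2 z (W1 z hz).1 (W1 z hz).2
      obtain ⟨c, rfl⟩ := mem_smp.1 a
      exact ⟨c, mem_univ _, b⟩
    · exact av_le fun ω => ind_le nn fun h' => absurd h'.1 h
  · rw [card_product, card_powersetCard, card_univ]
    have := (Nat.choose_le_pow (Fintype.card (Ln p)) f).trans
      (Nat.pow_le_pow_left ((Nat.le_succ _).trans Ln_le) f)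
    exact_mod_cast (Nat.mul_le_mul this this).trans (le_of_eq (by ring))

theorem pr_cont (A c c' : ℝ) (n h : ℕ) (hA : 0 < A) (hn : (n : ℝ) ^ 2 / p ≤ A / 4) (hc : 0 < c')
    (hh : c' * p ^ 2 + h * p ≤ c * p ^ 2 * (1 - 2 / p) ^ ((p + 1) * (K + 1))) :
    pr (fun ω : Co p K → ZMod p => ∃ y ∈ (univ.filter fun S : Finset (Ln p) => S.card ≤ n) ×ˢ
      (univ.filter fun S : Finset (Ln p) => S.card ≤ n), ∃ D ∈ (y.1 ∪ y.2 ∪ cont A y.1).powerset,
      c * p ^ 2 ≤ (unc D).card ∧ ∀ z ∈ unc D, z ∉ unc (smp ω)) ≤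
    ((n + 1) * p ^ (3 * n)) ^ 2 * (Real.exp (2 * n + (n * p / A + p * n ^ 2 / (A / 4) ^ 2)) *
      (Real.exp ((p + 1) * (K + 1) + (K + 1) * p / c') / p ^ h)) := by
  have p0 := p_pos (p := p)
  have r0 : (0 : ℝ) ≤ 1 - 2 / p := by rw [sub_nonneg, div_le_one p0]; exact two_le_p
  refine (pr_exists_le _ _ fun y hy => (pr_exists_le _ _ fun D _ => ?_).trans
    (mul_le_mul_of_nonneg_right ?_ (by positivity))).trans
    (mul_le_mul_of_nonneg_right ?_ (by positivity))
  · by_cases h1 : c * p ^ 2 ≤ (unc D).card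
    · refine le_trans (pr_mono fun ω hω z hz => ?_) (cov_big' c' hc h (unc D)
        (hh.trans (mul_le_mul_of_nonneg_right h1 (pow_nonneg r0 _))))
      have := hω.2 z hz
      simp only [unc, mem_filter, mem_univ, true_and, not_forall, not_not] at this
      obtain ⟨l, a, b⟩ := this
      obtain ⟨c, rfl⟩ := mem_smp.1 a
      exact ⟨c, mem_univ _, b, notMem_empty _⟩
    · exact av_le fun ω => ind_le (by positivity) fun h' => absurd h'.1 h1
  · simp only [mem_product, mem_filter, mem_univ, true_and] at hy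
    rw [card_powerset]
    push_cast
    refine (pow_le_pow_left₀ (by norm_num) (show (2 : ℝ) ≤ Real.exp 1 by
      linarith [Real.add_one_le_exp (1 : ℝ)]) _).trans ?_
    rw [← Real.exp_nat_mul, mul_one, Real.exp_le_exp]
    have a : (((y.1 ∪ y.2 ∪ cont A y.1).card : ℕ) : ℝ) ≤ n + n + (cont A y.1).card := by
      exact_mod_cast (card_union_le _ _).trans (Nat.add_le_add_right ((card_union_le _ _).trans
        (add_le_add hy.1 hy.2)) _)
    linarith [card_cont A hA y.1 n hy.1 hn]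
  · rw [card_product]
    have := (card_small_sets (α := Ln p) n).trans
      (Nat.mul_le_mul_left _ (Nat.pow_le_pow_left Ln_le n))
    exact_mod_cast (Nat.mul_le_mul this this).trans (le_of_eq (by ring))

end Vale.Agent.P045
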