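import Mathlib
import Vale.Agent.P045.Random

namespace Vale.Agent.P045

open Finset
open scoped BigOperators

variable {p : ℕ} [Fact p.Prime] {K k g : ℕ} (ι : (Bool × Fin k) × Fin g ↪ Dir p)

/-- coordinates of a pattern -/
def co (b : Bool) (h : Fin k → Fin g × Fin K) (j : Fin k) : Co p K :=
  (ι ((b, j), (h j).1), (h j).2.succ)

theorem co_inj {b b' : Bool} {h h' : Fin k → Fin g × Fin K} {j j' : Fin k}
    (e : co ι b h j = co ι b' h' j') : b = b' ∧ j = j' ∧ h j = h' j' := by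
  simp only [co, Prod.mk.injEq, EmbeddingLike.apply_eq_iff_eq, Fin.succ_inj] at e
  exact ⟨e.1.1.1, e.1.1.2, Prod.ext e.1.2 e.2⟩

theorem co_ne (b : Bool) (h : Fin k → Fin g × Fin K) (j : Fin k) (i : Dir p) :
    (i, 0) ≠ co ι b h j := fun e => Fin.succ_ne_zero _ (Prod.ext_iff.1 e).2.symm

/-- `z` is a possible centre -/
def IsC (ω : Co p K → ZMod p) (b : Bool) (i : Dir p) (z : Pt p) (h : Fin k → Fin g × Fin K) : Prop :=
  (∀ j, (co ι b h j).1 ≠ i) ∧ ∀ c : Co p K, c.1 ≠ i → (On z (c.1, ω c) ↔ ∃ j, c = co ι b h j)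

/-- `z` is a possible competing centre on a line of direction `d` -/
def IsN (ω : Co p K → ZMod p) (b : Bool) (j0 : Fin k) (d : Dir p) (z : Pt p) : Prop :=
  ∃ i, ∃ h : Fin k → Fin g × Fin K, i ≠ d ∧ (∀ j, j ≠ j0 → (co ι b h j).1 ≠ i ∧ (co ι b h j).1 ≠ d) ∧
    On z (i, ω (i, 0)) ∧ ∀ c : Co p K, c.1 ≠ i → c.1 ≠ d →
      (On z (c.1, ω c) ↔ ∃ j, j ≠ j0 ∧ c = co ι b h j)

open Classical in
/-- possible centres on a line -/
noncomputable def cen (ω : Co p K → ZMod p) (b : Bool) (l : Ln p) : Finset (Pt p) :=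
  (pts l).filter fun z => ∃ h, IsC ι ω b l.1 z h

open Classical in
/-- possible competing centres on a line -/
noncomputable def nbr (ω : Co p K → ZMod p) (b : Bool) (j0 : Fin k) (l : Ln p) : Finset (Pt p) :=
  (pts l).filter (IsN ι ω b j0 l.1)

variable {ι}

theorem IsC.uniq {ω : Co p K → ZMod p} {b b' : Bool} {i : Dir p} {z : Pt p}
    {h h' : Fin k → Fin g × Fin K} (a : IsC ι ω b i z h) (a' : IsC ι ω b' i z h') (j : Fin k) :
    b = b' ∧ h j = h' j := by
  obtain ⟨j', e⟩ := (a'.2 _ (a.1 j)).1 ((a.2 _ (a.1 j)).2 ⟨j, rfl⟩)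
  obtain ⟨e1, rfl, e3⟩ := co_inj ι e
  exact ⟨e1, e3⟩

theorem IsC.zero {ω : Co p K → ZMod p} {b : Bool} {i i' : Dir p} {z : Pt p}
    {h : Fin k → Fin g × Fin K} (a : IsC ι ω b i z h) (e : On z (i', ω (i', 0))) : i' = i := by
  by_contra ne
  obtain ⟨j, e⟩ := (a.2 (i', 0) ne).1 e
  exact co_ne ι b h j i' e

variable (ι)

theorem pr_cen (t : ℝ) (ht : 0 < t) :
    pr (fun ω : Co p K → ZMod p => ∃ y ∈ (univ : Finset (Bool × Ln p)),
      ((cen ι ω y.1 y.2).card : ℝ) ≤ p * ((((g - 1) * K : ℕ) : ℝ) ^ k * ((1 / p) ^ k *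
        (1 - 1 / p) ^ (p * (K + 1) - k))) - t) ≤ 2 * ((p + 1) * p) *
      (2 * Real.exp (-(t ^ 2 / (2 * ((p + 1) * (K + 1)) * (2 * 1) ^ 2)))) := by
  classical
  refine (pr_exists_le _ _ fun ⟨b, l⟩ _ => ?_).trans (by
    rw [card_univ, Fintype.card_prod, card_Ln, Fintype.card_bool]; push_cast; rfl)
  have e : ∀ ω : Co p K → ZMod p, ((cen ι ω b l).card : ℝ) =
      ∑ u, ind (∃ h, IsC ι ω b l.1 (par l u) h) := fun ω => by rw [cen, card_filter_pts]
  refine le_trans (pr_mono fun ω hω => ?_) (conc (K := K) (fun _ : Unit => par l) (fun _ => l.1)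
    (fun _ l' h => par_uniq l l' h) (fun _ P => ∃ h : Fin k → Fin g × Fin K,
      (∀ j, (co ι b h j).1 ≠ l.1) ∧ ∀ c : Co p K, c.1 ≠ l.1 → (P () c ↔ ∃ j, c = co ι b h j))
    (fun ω => (cen ι ω b l).card) (fun ω => (e ω).trans (sum_congr rfl fun u _ => ind_congr
      (exists_congr fun h => and_congr Iff.rfl (forall_congr' fun c => imp_congr_right fun hc => by
        simp [hc])))) t 1 ht (by simp))
  refine le_trans ?_ (neg_le_abs _)
  suffices p * ((((g - 1) * K : ℕ) : ℝ) ^ k * ((1 / p) ^ k * (1 - 1 / p) ^ (p * (K + 1) - k))) ≤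
    𝔼 ω : Co p K → ZMod p, ((cen ι ω b l).card : ℝ) by linarith
  simp only [e]
  rw [Finset.expect_sum_comm]
  refine le_trans (by simp [ZMod.card]) (card_nsmul_le_sum univ _ ((((g - 1) * K : ℕ) : ℝ) ^ k *
    ((1 / p) ^ k * (1 - 1 / p) ^ (p * (K + 1) - k))) fun u _ => ?_)
  let A := Fintype.piFinset fun j => univ.filter fun x : Fin g × Fin K => ι ((b, j), x.1) ≠ l.1
  have a1 : ((g - 1) * K) ^ k ≤ A.card := by
    rw [Fintype.card_piFinset]
    refine le_trans (by simp) (pow_card_le_prod univ _ ((g - 1) * K) fun j _ => ?_)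
    rw [show (univ.filter fun x : Fin g × Fin K => ι ((b, j), x.1) ≠ l.1) =
      (univ.filter fun x => ι ((b, j), x) ≠ l.1) ×ˢ univ by ext; simp, card_product, card_univ,
      Fintype.card_fin]
    refine Nat.mul_le_mul_right _ ?_
    have a := card_filter_add_card_filter_not (s := univ) fun x => ι ((b, j), x) ≠ l.1
    have c : (univ.filter fun x => ¬ ι ((b, j), x) ≠ l.1).card ≤ 1 := card_le_one.2
      fun x hx y hy => by
        simp only [mem_filter, mem_univ, true_and, not_not] at hx hy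
        simpa using hx.trans hy.symm
    rw [card_univ, Fintype.card_fin] at a
    omega
  have a2 : ∀ ω, ∑ h ∈ A, ind (IsC ι ω b l.1 (par l u) h) ≤
      ind (∃ h, IsC ι ω b l.1 (par l u) h) := by
    intro ω
    rw [sum_ind]
    by_cases h : ∃ h, IsC ι ω b l.1 (par l u) h
    · rw [ind_pos h]
      exact Nat.cast_le_one.2 (card_le_one.2 fun x hx y hy => funext fun j =>
        ((mem_filter.1 hx).2.uniq (mem_filter.1 hy).2 j).2)
    · rw [ind_neg h, filter_false_of_mem fun x _ hx => h ⟨x, hx⟩]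
      simp
  refine le_trans ?_ (av_mono a2)
  rw [Finset.expect_sum_comm]
  refine le_trans (mul_le_mul_of_nonneg_right (by exact_mod_cast a1) (mul_nonneg (by positivity)
    (pow_nonneg q_nonneg _))) (le_trans (nsmul_eq_mul _ _).ge (card_nsmul_le_sum A _ _
    fun h hh => ?_))
  have b1 : ∀ j, (co ι b h j).1 ≠ l.1 := fun j => (mem_filter.1 (Fintype.mem_piFinset.1 hh j)).2
  have := av_pat (par l u) (univ.filter fun c : Co p K => c.1 ≠ l.1) (univ.image (co ι b h))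
    (by intro c hc; obtain ⟨j, -, rfl⟩ := mem_image.1 hc; exact mem_filter.2 ⟨mem_univ _, b1 j⟩)
  rw [card_off, card_image_of_injective _ fun j j' e => (co_inj ι e).2.1, card_univ,
    Fintype.card_fin] at this
  rw [← this]
  exact pr_mono fun ω hω => ⟨b1, fun c hc => by simpa [eq_comm] using hω c (by simpa using hc)⟩

theorem pr_nbr (x0 : Fin g × Fin K) (t : ℝ) (ht : 0 < t) :
    pr (fun ω : Co p K → ZMod p => ∃ y ∈ (univ : Finset ((Bool × Fin k) × Ln p)),
      p * ((p + 1) * (((g * K : ℕ) : ℝ) ^ (k - 1) * ((1 / p) ^ k *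
        (1 - 1 / p) ^ (p * (K + 1) - (K + 1) - k)))) + t ≤ (nbr ι ω y.1.1 y.1.2 y.2).card) ≤
      2 * k * ((p + 1) * p) *
      (2 * Real.exp (-(t ^ 2 / (2 * ((p + 1) * (K + 1)) * (2 * 1) ^ 2)))) := by
  classical
  refine (pr_exists_le _ _ fun ⟨⟨b, j0⟩, l⟩ _ => ?_).trans (by
    rw [card_univ, Fintype.card_prod, card_Ln, Fintype.card_prod, Fintype.card_bool,
      Fintype.card_fin]; push_cast; rfl)
  have e : ∀ ω : Co p K → ZMod p, ((nbr ι ω b j0 l).card : ℝ) =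
      ∑ u, ind (IsN ι ω b j0 l.1 (par l u)) := fun ω => by rw [nbr, card_filter_pts]
  refine le_trans (pr_mono fun ω hω => ?_) (conc (K := K) (fun _ : Unit => par l) (fun _ => l.1)
    (fun _ l' h => par_uniq l l' h) (fun _ P => ∃ i, ∃ h : Fin k → Fin g × Fin K, i ≠ l.1 ∧
      (∀ j, j ≠ j0 → (co ι b h j).1 ≠ i ∧ (co ι b h j).1 ≠ l.1) ∧ P () (i, 0) ∧
      ∀ c : Co p K, c.1 ≠ i → c.1 ≠ l.1 → (P () c ↔ ∃ j, j ≠ j0 ∧ c = co ι b h j))
    (fun ω => (nbr ι ω b j0 l).card) (fun ω => (e ω).trans (sum_congr rfl fun u _ => ind_congr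
      (exists_congr fun i => exists_congr fun h => and_congr_right fun hi => and_congr Iff.rfl
      (and_congr (by simp [hi]) (forall_congr' fun c => imp_congr_right fun _ =>
        imp_congr_right fun hc => by simp [hc]))))) t 1 ht (by simp))
  refine le_trans ?_ (le_abs_self _)
  suffices 𝔼 ω : Co p K → ZMod p, ((nbr ι ω b j0 l).card : ℝ) ≤ p * ((p + 1) *
    (((g * K : ℕ) : ℝ) ^ (k - 1) * ((1 / p) ^ k * (1 - 1 / p) ^ (p * (K + 1) - (K + 1) - k)))) by
    linarith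
  simp only [e]
  rw [Finset.expect_sum_comm]
  refine (sum_le_card_nsmul univ _ ((p + 1) * (((g * K : ℕ) : ℝ) ^ (k - 1) * ((1 / p) ^ k *
    (1 - 1 / p) ^ (p * (K + 1) - (K + 1) - k)))) fun u _ => ?_).trans (by simp [ZMod.card])
  let A := Fintype.piFinset fun j => if j = j0 then {x0} else (univ : Finset (Fin g × Fin K))
  have a1 : A.card = (g * K) ^ (k - 1) := by
    rw [Fintype.card_piFinset, ← mul_prod_erase _ _ (mem_univ j0), if_pos rfl, card_singleton,
      one_mul, prod_congr rfl (g := fun _ => g * K) fun j hj => by simp [(mem_erase.1 hj).1],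
      prod_const, card_erase_of_mem (mem_univ _), card_univ, Fintype.card_fin]
  let J : Dir p → Finset (Co p K) := fun i => univ.filter fun c => c.1 ≠ l.1 ∧ (c.1 ≠ i ∨ c.2 = 0)
  let H : Dir p → (Fin k → Fin g × Fin K) → Finset (Co p K) := fun i h =>
    insert (i, 0) ((univ.erase j0).image (co ι b h))
  refine (pr_mono (Q := fun ω => ∃ y ∈ univ ×ˢ A, H y.1 y.2 ⊆ J y.1 ∧
    ∀ c ∈ J y.1, (On (par l u) (c.1, ω c) ↔ c ∈ H y.1 y.2)) fun ω ⟨i, h, h1, h2, h3, h4⟩ =>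
    ?_).trans ((pr_exists_le _ _ (x := (1 / p) ^ k * (1 - 1 / p) ^ (p * (K + 1) - (K + 1) - k))
    fun ⟨i, h⟩ _ => ?_).trans (by rw [card_product, card_univ, card_Dir, a1]; push_cast; linarith))
  · have e1 : H i (Function.update h j0 x0) = H i h := by
      simp only [H]
      rw [image_congr fun j hj => ?_]
      simp [co, Function.update_of_ne (mem_erase.1 hj).1]
    refine ⟨(i, Function.update h j0 x0), mem_product.2 ⟨mem_univ _, Fintype.mem_piFinset.2
      fun j => by by_cases e : j = j0 <;> simp [e]⟩, ?_⟩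
    simp only [e1]
    refine ⟨fun c hc => ?_, fun c hc => ?_⟩
    · rcases mem_insert.1 hc with rfl | hc
      · simpa [J] using h1
      · obtain ⟨j, hj, rfl⟩ := mem_image.1 hc
        exact mem_filter.2 ⟨mem_univ _, (h2 j (mem_erase.1 hj).1).2,
          Or.inl (h2 j (mem_erase.1 hj).1).1⟩
    · obtain ⟨-, c1, c2⟩ := mem_filter.1 hc
      by_cases e : c.1 = i
      · obtain rfl : c = (i, 0) := Prod.ext e (by simpa [e] using c2)
        simpa [H] using h3
      · rw [h4 c e c1]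
        have : c ≠ (i, 0) := fun e' => e (by rw [e'])
        simp [H, this, eq_comm]
  · have nn : (0 : ℝ) ≤ (1 / p) ^ k * (1 - 1 / p) ^ (p * (K + 1) - (K + 1) - k) :=
      mul_nonneg (by positivity) (pow_nonneg q_nonneg _)
    by_cases hs : H i h ⊆ J i
    · refine (pr_mono fun ω hω => hω.2).trans ((av_pat _ _ _ hs).le.trans ?_)
      have b1 : (H i h).card = k := by
        rw [card_insert_of_notMem (by simpa using fun j _ e => co_ne ι b h j i e.symm),
          card_image_of_injective _ fun j j' e => (co_inj ι e).2.1,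
          card_erase_of_mem (mem_univ _), card_univ, Fintype.card_fin]
        have := j0.pos
        omega
      have b2 : p * (K + 1) ≤ (J i).card + (K + 1) := by
        rw [← card_off l.1]
        refine (card_le_card (t := J i ∪ {i} ×ˢ univ) fun c hc => ?_).trans
          ((card_union_le _ _).trans (by simp))
        by_cases e : c.1 = i <;> simp_all [J, Prod.ext_iff]
      rw [b1]
      exact mul_le_mul_of_nonneg_left (pow_le_pow_of_le_one q_nonneg q_le_one (by omega))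
        (by positivity)
    · exact av_le fun ω => ind_le nn fun h' => absurd h'.1 hs

theorem exists_sk (hk : 0 < k) (ω : Co p K → ZMod p) (Δ : ℝ) (hΔ : 0 < Δ)
    (h1 : ∀ b l, 4 * (k * Δ) ≤ (cen ι ω b l).card) (h2 : ∀ b j l, (nbr ι ω b j l).card ≤ Δ) :
    ∃ σ : Dir p → Sk p k, (∀ i, (σ i).Ok) ∧ (∀ i, (σ i).L.1 = i) ∧ (∀ i o, (σ i).cr o ∈ smp ω) ∧
      (∀ i b, ∀ l ∈ smp ω, On ((σ i).s b) l → ∃ o, l = (σ i).cr o) ∧
      ∀ i o i' o', (σ i).cr o = (σ i').cr o' → i = i' := by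
  classical
  obtain ⟨s, s1, s2⟩ := transversal (fun t : Dir p × Bool => cen ι ω t.2 (t.1, ω (t.1, 0)))
    (fun t z t' z' => ∃ l ∈ smp ω, l.1 ≠ t.1 ∧ l.1 ≠ t'.1 ∧ On z l ∧ On z' l) (k * Δ)
    (by positivity) (fun t => h1 _ _) fun ⟨i, b⟩ z hz => by
      obtain ⟨-, h, hz⟩ := mem_filter.1 hz
      refine le_trans ?_ ((sum_le_card_nsmul univ (fun j => ((nbr ι ω b j ((co ι b h j).1,
        ω (co ι b h j))).card : ℝ)) Δ fun j _ => h2 _ _ _).trans (by simp))
      simp only [sum_ind]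
      rw [← Nat.cast_sum, ← Nat.cast_sum, Nat.cast_le, ← card_sigma, ← card_sigma]
      have key : ∀ y ∈ univ.sigma fun t' : Dir p × Bool => (cen ι ω t'.2 (t'.1, ω (t'.1, 0))).filter
          fun z' => t' ≠ (i, b) ∧ ((∃ l ∈ smp ω, l.1 ≠ i ∧ l.1 ≠ t'.1 ∧ On z l ∧ On z' l) ∨
            ∃ l ∈ smp ω, l.1 ≠ t'.1 ∧ l.1 ≠ i ∧ On z' l ∧ On z l),
          ∃ j, y.2 ∈ nbr ι ω b j ((co ι b h j).1, ω (co ι b h j)) := by
        intro ⟨⟨i', b'⟩, z'⟩ hy
        obtain ⟨a, -, c⟩ := mem_filter.1 (mem_sigma.1 hy).2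
        obtain ⟨a1, h', a2⟩ := mem_filter.1 a
        obtain ⟨l, c0, c1, c2, c3, c4⟩ : ∃ l ∈ smp ω, l.1 ≠ i ∧ l.1 ≠ i' ∧ On z l ∧ On z' l := by
          rcases c with c | ⟨l, c0, c1, c2, c3, c4⟩
          · exact c
          · exact ⟨l, c0, c2, c1, c4, c3⟩
        obtain ⟨c, rfl⟩ := mem_smp.1 c0
        obtain ⟨j, rfl⟩ := (hz.2 c c1).1 c3
        obtain ⟨j', e⟩ := (a2.2 _ c2).1 c4
        obtain ⟨rfl, rfl, e'⟩ := co_inj ι e
        have ne : ∀ j', j' ≠ j → (co ι b h' j').1 ≠ (co ι b h j).1 := fun j' hj e => by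
          simp only [co, EmbeddingLike.apply_eq_iff_eq, Prod.mk.injEq] at e
          exact hj e.1.2
        refine ⟨j, mem_filter.2 ⟨mem_pts.2 c4, i', h', c2.symm, fun j' hj => ⟨a2.1 j', ne j' hj⟩,
          mem_pts.1 a1, fun c d1 d2 => (a2.2 c d1).trans ⟨fun ⟨j', e2⟩ => ⟨j', fun e3 => d2 ?_, e2⟩,
            fun ⟨j', _, e2⟩ => ⟨j', e2⟩⟩⟩⟩
        rw [e2, e3, ← e]
      haveI : Nonempty (Fin k) := ⟨⟨0, hk⟩⟩
      choose! f hf using key
      refine card_le_card_of_injOn (fun y => ⟨f y, y.2⟩)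
        (fun y hy => mem_sigma.2 ⟨mem_univ _, hf y hy⟩) fun ⟨⟨i1, b1⟩, z1⟩ hy ⟨⟨i2, b2⟩, z2⟩ hy' e => ?_
      obtain rfl : z1 = z2 := eq_of_heq (Sigma.mk.inj e).2
      obtain ⟨a1, h', a2⟩ := mem_filter.1 (mem_filter.1 (mem_sigma.1 hy).2).1
      obtain ⟨a3, h'', a4⟩ := mem_filter.1 (mem_filter.1 (mem_sigma.1 hy').2).1
      obtain rfl : i1 = i2 := a4.zero (mem_pts.1 a1)
      obtain rfl : b1 = b2 := (a2.uniq a4 ⟨0, hk⟩).1
      rfl
  simp only [cen, mem_filter, mem_pts] at s1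
  choose s3 h s4 using s1
  have cr : ∀ i b j, thr (co ι b (h (i, b)) j).1 (s (i, b)) =
      ((co ι b (h (i, b)) j).1, ω (co ι b (h (i, b)) j)) := fun i b j =>
    (eq_thr (((s4 (i, b)).2 _ ((s4 (i, b)).1 j)).2 ⟨j, rfl⟩)).symm
  refine ⟨fun i => ⟨(i, ω (i, 0)), fun b => s (i, b), fun y => (co ι y.1 (h (i, y.1)) y.2).1⟩,
    fun i => ⟨fun b => s3 (i, b), fun y => (s4 (i, y.1)).1 y.2, fun y y' e => ?_, fun e => ?_⟩,
    fun i => rfl, fun i o => ?_, fun i b l hl a => ?_, fun i o i' o' e => ?_⟩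
  · simp only [co, EmbeddingLike.apply_eq_iff_eq, Prod.mk.injEq] at e
    exact Prod.ext e.1.1 e.1.2
  · have a := s4 (i, false)
    rw [← show s (i, true) = s (i, false) from e] at a
    exact Bool.noConfusion ((s4 (i, true)).uniq a ⟨0, hk⟩).1
  · rcases o with _ | y
    · exact mem_smp.2 ⟨(i, 0), rfl⟩
    · exact mem_smp.2 ⟨_, (cr i y.1 y.2).symm⟩
  · obtain ⟨c, rfl⟩ := mem_smp.1 hl
    by_cases e : c.1 = i
    · exact ⟨none, ln_ext a (s3 (i, b)) e⟩
    · obtain ⟨j, rfl⟩ := ((s4 (i, b)).2 c e).1 a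
      exact ⟨some (b, j), (cr i b j).symm⟩
  · rcases o with _ | y <;> rcases o' with _ | y' <;> simp only [Sk.cr] at e
    · exact congrArg Prod.fst e
    · exact (s4 (i', y'.1)).zero (e ▸ on_thr _ _)
    · exact ((s4 (i, y.1)).zero (e ▸ on_thr _ _)).symm
    · by_contra ne
      exact s2 (i, y.1) (i', y'.1) (fun e => ne (congrArg Prod.fst e)) ⟨_, mem_smp.2
        ⟨_, (cr i y.1 y.2).symm⟩, (s4 (i, y.1)).1 y.2, e ▸ (s4 (i', y'.1)).1 y'.2, on_thr _ _,
        e ▸ on_thr _ _⟩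

end Vale.Agent.P045
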