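import Mathlib
import Vale.Agent.P045.Centre

namespace Vale.Agent.P045

open Finset
open scoped BigOperators

variable {p : ℕ} [Fact p.Prime] {K k : ℕ}

theorem Sk.Ok.sp_inj {σ : Sk p k} (h : σ.Ok) {j : Fin k} {o : Cr k} (v : Val j o) {u u' : ZMod p}
    (e : σ.sp (par σ.L u) j o = σ.sp (par σ.L u') j o) : u = u' := by
  rcases o with _ | y
  · exact par_inj _ e
  · have a := h.sp_m (par σ.L u) v y.1 (Or.inr rfl)
    have b := h.sp_m (par σ.L u') v y.1 (Or.inr rfl)
    rw [← e] at b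
    exact par_uniq σ.L _ (h.ne (y.1, j)) u u' (on_thr _ _) (ln_ext a b rfl ▸ on_thr _ _)

theorem Sk.Ok.sp_uniq {σ : Sk p k} (h : σ.Ok) {j : Fin k} {o : Cr k} (v : Val j o) {l : Ln p}
    (hl : l ≠ σ.cr o) {u u' : ZMod p} (a : On (σ.sp (par σ.L u) j o) l)
    (b : On (σ.sp (par σ.L u') j o) l) : u = u' :=
  h.sp_inj v (pt_uniq hl a (h.sp_on (on_par _ _) v) b (h.sp_on (on_par _ _) v))

open Classical in
/-- available parameters -/
noncomputable def avl (ω : Co p K → ZMod p) (σ : Sk p k) (j : Fin k) : Finset (ZMod p) :=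
  univ.filter fun u => ∀ o, Val j o → ∀ c : Co p K, c.1 ≠ (σ.cr o).1 →
    ¬ On (σ.sp (par σ.L u) j o) (c.1, ω c)

theorem card_Cr : Fintype.card (Cr k) = 2 * k + 1 := by simp

theorem pr_avl (hk : 2 * k + 1 ≤ p) (t : ℝ) (ht : 0 < t) :
    pr (fun ω : Co p K → ZMod p => ∃ σ : Sk p k, σ.Ok ∧ ∃ j, ((avl ω σ j).card : ℝ) ≤
      p * (1 - (2 * k + 1) / p) ^ ((p + 1) * (K + 1)) - t) ≤ p ^ (4 * k + 8) *
      (2 * Real.exp (-(t ^ 2 / (2 * ((p + 1) * (K + 1)) * (2 * (2 * k + 1)) ^ 2)))) := by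
  classical
  have p0 := p_pos (p := p)
  refine (pr_mono (Q := fun ω => ∃ y ∈ (univ : Finset ((Ln p × (Bool → Pt p) ×
    (Bool × Fin k → Dir p)) × Fin k)), Sk.Ok ⟨y.1.1, y.1.2.1, y.1.2.2⟩ ∧
    ((avl ω ⟨y.1.1, y.1.2.1, y.1.2.2⟩ y.2).card : ℝ) ≤
      p * (1 - (2 * k + 1) / p) ^ ((p + 1) * (K + 1)) - t)
    fun ω ⟨σ, a, j, b⟩ => ⟨((σ.L, σ.s, σ.D), j), mem_univ _, a, b⟩).trans
    ((pr_exists_le _ _ fun y _ => ?_).trans (mul_le_mul_of_nonneg_right ?_ (by positivity)))
  · generalize (⟨y.1.1, y.1.2.1, y.1.2.2⟩ : Sk p k) = σ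
    generalize y.2 = j
    by_cases ok : σ.Ok
    swap
    · exact av_le fun ω => ind_le (by positivity) fun h => absurd h.1 ok
    haveI : Nonempty {o // Val j o} := ⟨⟨none, fun b => by simp⟩⟩
    have c : Fintype.card {o // Val j o} ≤ 2 * k + 1 :=
      (Fintype.card_subtype_le _).trans card_Cr.le
    have c' : (Fintype.card {o // Val j o} : ℝ) ≤ 2 * k + 1 := by exact_mod_cast c
    have e : ∀ ω : Co p K → ZMod p, ((avl ω σ j).card : ℝ) = ∑ u, ind (∀ (r : {o // Val j o})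
        (c : Co p K), ¬ (c.1 ≠ (σ.cr r.1).1 ∧ On (σ.sp (par σ.L u) j r.1) (c.1, ω c))) := fun ω => by
      rw [avl, ← sum_ind]
      exact sum_congr rfl fun u _ => ind_congr (by simp)
    refine le_trans (pr_mono fun ω hω => ?_) (conc (K := K)
      (fun (r : {o // Val j o}) u => σ.sp (par σ.L u) j r.1) (fun r => (σ.cr r.1).1)
      (fun r l h u u' => ok.sp_uniq r.2 fun e => h (by rw [e])) (fun _ P => ∀ r c, ¬ P r c)
      _ e t _ ht c')
    refine le_trans ?_ (neg_le_abs _)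
    suffices p * (1 - (2 * k + 1) / p : ℝ) ^ ((p + 1) * (K + 1)) ≤
      𝔼 ω : Co p K → ZMod p, ((avl ω σ j).card : ℝ) by linarith [hω.2]
    simp only [e]
    rw [Finset.expect_sum_comm]
    refine le_trans (by simp [ZMod.card]) (card_nsmul_le_sum univ _
      ((1 - (2 * k + 1) / p : ℝ) ^ ((p + 1) * (K + 1))) fun u _ => ?_)
    refine le_trans (pow_le_pow_left₀ ?_ (by gcongr) _) ((av_multi
      (fun r : {o // Val j o} => σ.sp (par σ.L u) j r.1) (c.trans hk)).trans
      (pr_mono fun ω h r c a => h c r a.2))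
    rw [sub_nonneg, div_le_one p0]
    exact_mod_cast hk
  · simp only [card_univ, Fintype.card_prod, Fintype.card_fun, Fintype.card_bool, Fintype.card_fin,
      Fintype.card_option, ZMod.card]
    have a := (Fact.out : p.Prime).two_le
    have b : p + 1 ≤ p ^ 2 := by nlinarith
    exact_mod_cast (Nat.mul_le_mul (Nat.mul_le_mul (Nat.mul_le_mul_right _ b)
      (Nat.mul_le_mul_left _ (Nat.pow_le_pow_left b _))) (show k ≤ p by omega)).trans
      (le_of_eq (by ring))

theorem thin (hk : 0 < k) (σ : Dir p → Sk p k) (ok : ∀ i, (σ i).Ok)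
    (A : Dir p → Fin k → Finset (ZMod p)) (a : ℕ) (ha : 0 < a)
    (hA : ∀ i j, 4 * (k * a * (2 * k + 1) : ℝ) ≤ (A i j).card) :
    ∃ τ : (Dir p × Fin k) × Fin a → ZMod p, (∀ t, τ t ∈ A t.1.1 t.1.2) ∧
      ∀ i j t j' t' o, Val j o → Val j' o → (σ i).sp (par (σ i).L (τ ((i, j), t))) j o =
        (σ i).sp (par (σ i).L (τ ((i, j'), t'))) j' o → j = j' ∧ t = t' := by
  classical
  obtain ⟨τ, h1, h2⟩ := transversal (fun t : (Dir p × Fin k) × Fin a => A t.1.1 t.1.2)
    (fun t u t' u' => t'.1.1 = t.1.1 ∧ ∃ o, Val t.1.2 o ∧ Val t'.1.2 o ∧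
      (σ t.1.1).sp (par (σ t.1.1).L u) t.1.2 o = (σ t.1.1).sp (par (σ t.1.1).L u') t'.1.2 o)
    (k * a * (2 * k + 1)) (by positivity) (fun t => hA _ _) fun ⟨⟨i, j⟩, t⟩ u _ => by
      refine (sum_le_sum (g := fun t' => ind (t'.1.1 = i) * (2 * k + 1))
        fun y _ => ?_).trans (le_of_eq ?_)
      · obtain ⟨⟨i', j'⟩, t'⟩ := y
        by_cases e : i' = i
        · subst e
          rw [ind_pos rfl, one_mul, sum_ind]
          refine le_trans (Nat.cast_le.2 ((card_le_card (t := univ.biUnion fun o : Cr k =>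
            univ.filter fun u' => Val j' o ∧ (σ i').sp (par (σ i').L u') j' o =
              (σ i').sp (par (σ i').L u) j o) fun u' hu' => ?_).trans (card_biUnion_le.trans
            (sum_le_card_nsmul _ _ 1 fun o _ => card_le_one.2 fun x hx y hy => ?_)))) (by simp)
          · simp only [mem_biUnion, mem_filter, mem_univ, true_and] at hu' ⊢
            rcases hu'.2.2 with ⟨o, _, b, c⟩ | ⟨o, b, _, c⟩
            · exact ⟨o, b, c.symm⟩
            · exact ⟨o, b, c⟩
          · exact (ok _).sp_inj (mem_filter.1 hx).2.1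
              ((mem_filter.1 hx).2.2.trans (mem_filter.1 hy).2.2.symm)
        · rw [ind_neg e, zero_mul]
          refine (sum_eq_zero fun _ _ => ind_neg fun h => ?_).le
          rcases h.2 with h | h
          · exact e h.1
          · exact e h.1.symm
      · rw [← sum_mul, sum_ind, show (univ.filter fun t' : (Dir p × Fin k) × Fin a => t'.1.1 = i) =
          ({i} ×ˢ univ) ×ˢ univ by ext; simp [Prod.ext_iff, eq_comm]]
        simp
  refine ⟨τ, h1, fun i j t j' t' o v v' e => ?_⟩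
  by_contra ne
  exact h2 ((i, j), t) ((i, j'), t') (by simpa using ne) ⟨rfl, o, v, v', e⟩

theorem general (σ : Dir p → Sk p k) (ok : ∀ i, (σ i).Ok) (a : ℕ) (ha : 0 < a)
    (τ : (Dir p × Fin k) × Fin a → ZMod p)
    (hτ : ∀ y t t', τ (y, t) = τ (y, t') → t = t') (e : ℝ) (he : 0 < e) (hk : 0 < k)
    (hp : ∀ π, ((univ.filter fun x : Dir p × Cr k => (σ x.1).cr x.2 ∈ pen π).card : ℝ) ≤ e)
    (h1 : k * e ≤ a) (h2 : 4 * (p : ℝ) ^ 4 * (3 / (a / (k * e)) ^ 5) < 1) :
    ∃ t : Dir p × Fin k → Fin a, ∀ π ν, ν ∉ pen π → ∀ S : Finset (Dir p × Fin k),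
      (∀ y ∈ S, ∃ o, Val y.2 o ∧ (σ y.1).cr o ∈ pen π ∧
        On ((σ y.1).sp (par (σ y.1).L (τ (y, t y))) y.2 o) ν) → S.card ≤ 4 := by
  classical
  haveI : Nonempty (Fin a) := ⟨⟨0, ha⟩⟩
  have a0 : (0 : ℝ) < a := by exact_mod_cast ha
  have k0 : (0 : ℝ) < k := by exact_mod_cast hk
  obtain ⟨x, hx⟩ : ∃ x : ℝ, x = a / (k * e) := ⟨_, rfl⟩
  rw [← hx] at h2
  have x1 : 1 ≤ x := hx ▸ (one_le_div (by positivity)).2 h1
  let P : (Pt p ⊕ Dir p) × Ln p → Dir p × Fin k → Fin a → Prop := fun z y t => z.2 ∉ pen z.1 ∧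
    ∃ o, Val y.2 o ∧ (σ y.1).cr o ∈ pen z.1 ∧ On ((σ y.1).sp (par (σ y.1).L (τ (y, t))) y.2 o) z.2
  have nn : ∀ z y t, 1 ≤ 1 + x * ind (P z y t) := fun z y t =>
    le_add_of_nonneg_right (mul_nonneg (by linarith) (ind_nonneg _))
  obtain ⟨t, ht⟩ := exists_not ((pr_exists_le univ (fun z (t : Dir p × Fin k → Fin a) =>
    x ^ 5 ≤ ∏ y, (1 + x * ind (P z y (t y)))) (x := 3 / x ^ 5) fun z _ =>
    (markov (fun t => prod_nonneg fun _ _ => zero_le_one.trans (nn _ _ _)) (by positivity)).trans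
    (div_le_div_of_nonneg_right (by
      rw [av_prod fun y t => 1 + x * ind (P z y t)]
      have b : ∀ y, 𝔼 t, (1 + x * ind (P z y t)) ≤
          Real.exp (x / a * (univ.filter fun o => (σ y.1).cr o ∈ pen z.1).card) := by
        intro y
        rw [Finset.expect_add_distrib, Fintype.expect_const, ← Finset.mul_expect, av_eq, sum_ind,
          Fintype.card_fin, add_comm]
        refine le_trans (add_le_add_left ?_ _) (Real.add_one_le_exp _)
        rw [div_mul_eq_mul_div, mul_div_assoc]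
        refine mul_le_mul_of_nonneg_left (div_le_div_of_nonneg_right (Nat.cast_le.2
          ((card_le_card (t := (univ.filter fun o => (σ y.1).cr o ∈ pen z.1).biUnion fun o =>
          univ.filter fun t => (Val y.2 o ∧ z.2 ≠ (σ y.1).cr o) ∧
            On ((σ y.1).sp (par (σ y.1).L (τ (y, t))) y.2 o) z.2) fun t ht => ?_).trans
          (card_biUnion_le.trans ((sum_le_card_nsmul _ _ 1 fun o _ => card_le_one.2
          fun u hu v hv => ?_).trans (by rw [smul_eq_mul, mul_one]))))) a0.le) (by linarith)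
        · obtain ⟨c, o, d1, d2, d3⟩ := (mem_filter.1 ht).2
          exact mem_biUnion.2 ⟨o, mem_filter.2 ⟨mem_univ _, d2⟩,
            mem_filter.2 ⟨mem_univ _, ⟨d1, fun e => c (e ▸ d2)⟩, d3⟩⟩
        · exact hτ _ _ _ ((ok _).sp_uniq (mem_filter.1 hu).2.1.1 (mem_filter.1 hu).2.1.2
            (mem_filter.1 hu).2.2 (mem_filter.1 hv).2.2)
      refine (prod_le_prod (fun y _ => av_nonneg fun _ => zero_le_one.trans (nn _ _ _))
        fun y _ => b y).trans ?_
      rw [← Real.exp_sum, ← mul_sum]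
      refine (Real.exp_le_exp.2 ?_).trans (Real.exp_one_lt_d9.le.trans (by norm_num))
      have c := hp z.1
      rw [← sum_ind, Fintype.sum_prod_type] at c
      simp only [Fintype.sum_prod_type, sum_const, card_univ, Fintype.card_fin, nsmul_eq_mul,
        ← mul_sum, ← sum_ind]
      refine (mul_le_mul_of_nonneg_left (mul_le_mul_of_nonneg_left c k0.le)
        (by positivity)).trans (le_of_eq ?_)
      rw [hx]
      field_simp) (by positivity))).trans_lt (lt_of_le_of_lt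
      (mul_le_mul_of_nonneg_right (by
        have a := (Fact.out : p.Prime).two_le
        have b : p * p + (p + 1) ≤ 2 * p ^ 2 := by nlinarith
        have b' : (p + 1) * p ≤ 2 * p ^ 2 := by nlinarith
        rw [card_univ, Fintype.card_prod, Fintype.card_sum, card_Pt, card_Dir, card_Ln]
        exact_mod_cast (Nat.mul_le_mul b b').trans (le_of_eq (by ring))) (by positivity)) h2))
  refine ⟨t, fun π ν hν S hS => ?_⟩
  by_contra hc
  refine ht ⟨(π, ν), mem_univ _, (pow_le_pow_right₀ x1 (show 5 ≤ S.card by omega)).trans ?_⟩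
  rw [← prod_const, ← prod_mul_prod_compl S]
  refine le_trans (prod_le_prod (fun _ _ => by linarith) fun y hy => ?_)
    (le_mul_of_one_le_right (prod_nonneg fun _ _ => zero_le_one.trans (nn _ _ _))
      (Finset.one_le_prod fun _ _ => nn _ _ _))
  rw [ind_pos ⟨hν, hS y hy⟩]
  linarith

end Vale.Agent.P045
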