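import Mathlib
import Vale.Agent.P045.Special
import Vale.Agent.P045.SW

namespace Vale.Agent.P045

open Finset
open scoped BigOperators

/-- numerical requirements on the parameters -/
structure Num (p K k g n f M m h a : ℕ) (ε η c c' Δ : ℝ) : Prop where
  k0 : 0 < k
  g0 : 0 < g
  K0 : 0 < K
  kp : 2 * k + 1 ≤ p
  gp : 2 * k * g ≤ p
  e0 : 0 < ε
  F1 : (p : ℝ) ^ (4 * k + 8) * (2 * Real.exp (-((ε * p) ^ 2 /
    (2 * ((p + 1) * (K + 1)) * (2 * (2 * k + 1)) ^ 2)))) ≤ 1 / 10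
  F2 : (p : ℝ) * p * (Real.exp (2 * (K + 1)) / 2 ^ f) ≤ 1 / 10
  F3 : (p : ℝ) ^ (6 * f) * (Real.exp (4 * (((f - 1) * f : ℕ) : ℝ) ^ 3 * (K + 1) / p) *
    (1 - (1 - 1 / p) ^ ((p + 1) * (K + 1)) / 2) ^ ((f - 1) * f)) ≤ 1 / 10
  F4 : (((n : ℝ) + 1) * p ^ (3 * n)) ^ 2 * (Real.exp (2 * n + (n * p / (η * n / 32) +
    p * n ^ 2 / (η * n / 32 / 4) ^ 2)) *
    (Real.exp ((p + 1) * (K + 1) + (K + 1) * p / c') / p ^ h)) ≤ 1 / 10
  n1 : (n : ℝ) ^ 2 / p ≤ η * n / 32 / 4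
  c0 : 0 < c'
  h1 : c' * p ^ 2 + h * p ≤ c * p ^ 2 * (1 - 2 / p) ^ ((p + 1) * (K + 1))
  c1 : ((K + 1 : ℕ) : ℝ) ≤ ε * p
  c2 : 8 * ε ≤ (1 - 1 / p : ℝ) ^ (p * (K + 1))
  c4 : 0 < η
  c5 : 2 * η < 1
  c6 : 24 * M * ε * p ≤ η * n
  c7 : 2 * f * M ≤ η * p
  c8 : (((f ^ 2 + f ^ 5) ^ 2 + f : ℕ) : ℝ) < n / 2 * (1 - 2 * η) ^ f
  c9 : 2 * n ≤ p
  c10 : 0 < n
  c11 : p * Real.exp (-((η * n / 16) ^ 2 / (2 * n))) < 1
  c12 : 64 * (p : ℝ) ≤ η * n * M
  m1 : 8 * m + 1 < p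
  m2 : c * p ^ 2 + p ≤ m ^ 2
  m3 : 3 * m + 1 + ε * p ≤ (1 - 1 / p : ℝ) ^ (p * (K + 1)) * p
  d0 : 0 < Δ
  d1 : 4 * (k * Δ) + ε * p ≤ p * ((((g - 1) * K : ℕ) : ℝ) ^ k * ((1 / p) ^ k *
    (1 - 1 / p) ^ (p * (K + 1) - k)))
  d2 : p * ((p + 1) * (((g * K : ℕ) : ℝ) ^ (k - 1) * ((1 / p) ^ k *
    (1 - 1 / p) ^ (p * (K + 1) - (K + 1) - k)))) + ε * p ≤ Δ
  a0 : 0 < a
  a1 : 4 * (k * a * (2 * k + 1) : ℝ) + ε * p ≤ p * (1 - (2 * k + 1) / p) ^ ((p + 1) * (K + 1))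
  a2 : K + 1 ≤ f
  a3 : (k : ℝ) * f ≤ a
  a4 : 4 * (p : ℝ) ^ 4 * (3 / (a / (k * f)) ^ 5) < 1

variable {p : ℕ} [Fact p.Prime] {K k g n f M m h a : ℕ} {ε η c c' Δ : ℝ}

theorem card_smp_dir (ω : Co p K → ZMod p) (d : Dir p) :
    ((smp ω).filter fun l => l.1 = d).card ≤ K + 1 := by
  refine (card_le_card (t := univ.image fun t : Fin (K + 1) => (d, ω (d, t))) fun l hl => ?_).trans
    (card_image_le.trans (by simp))
  obtain ⟨a, rfl⟩ := mem_filter.1 hl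
  obtain ⟨c, rfl⟩ := mem_smp.1 a
  exact mem_image.2 ⟨c.2, mem_univ _, rfl⟩

theorem exists_gad (N : Num p K k g n f M m h a ε η c c' Δ) : Nonempty (Gad p k (3 * m)) := by
  classical
  have p0 := p_pos (p := p)
  have t0 : 0 < ε * p := mul_pos N.e0 p0
  obtain ⟨ι⟩ : Nonempty ((Bool × Fin k) × Fin g ↪ Dir p) :=
    Function.Embedding.nonempty_of_card_le (by simpa [ZMod.card] using N.gp.trans (Nat.le_succ _))
  have G : ∀ x : ℝ, x ≤ 2 * k * ((p + 1) * p) → x * (2 * Real.exp (-((ε * p) ^ 2 /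
      (2 * ((p + 1) * (K + 1)) * (2 * 1) ^ 2)))) ≤ 1 / 10 := by
    intro x hx
    refine le_trans (mul_le_mul (hx.trans ?_) (mul_le_mul_of_nonneg_left (Real.exp_le_exp.2
      (neg_le_neg ?_)) (by norm_num)) (by positivity) (by positivity)) N.F1
    · have a := (Fact.out : p.Prime).two_le
      have b : 2 * k * ((p + 1) * p) ≤ p ^ 4 := by
        have := Nat.mul_le_mul (show 2 * k ≤ p by have := N.kp; omega)
          ((card_Ln (p := p)).ge.trans ((Nat.le_succ _).trans Ln_le))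
        exact this.trans (le_of_eq (by ring))
      exact_mod_cast b.trans (Nat.pow_le_pow_right (by omega) (by omega))
    · gcongr
      exact le_add_of_nonneg_left (by positivity)
  have k1 : (1 : ℝ) ≤ k := by exact_mod_cast N.k0
  have pp : (0 : ℝ) ≤ (p + 1) * p := by positivity
  obtain ⟨ω, hω⟩ := exists_not (((pr_or _ _).trans (add_le_add
    ((pr_free (ε * p) t0).trans (G _ (by nlinarith))) ((pr_or _ _).trans (add_le_add
    ((pr_cen ι (ε * p) t0).trans (G _ (by nlinarith))) ((pr_or _ _).trans (add_le_add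
    ((pr_nbr ι (⟨0, N.g0⟩, ⟨0, N.K0⟩) (ε * p) t0).trans (G _ le_rfl)) ((pr_or _ _).trans (add_le_add
    ((pr_avl N.kp (ε * p) t0).trans N.F1) ((pr_or _ _).trans (add_le_add
    ((pr_mult f).trans N.F2) ((pr_or _ _).trans (add_le_add ((pr_grid f _).trans N.F3)
    ((pr_cont _ c c' n h (by have := N.c4; have := N.c10; positivity) N.n1 N.c0 N.h1).trans
      N.F4))))))))))))).trans_lt (by norm_num))
  simp only [not_or, not_exists, not_and, mem_univ, true_imp_iff, not_le] at hω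
  obtain ⟨w1, w2, w3, w4, w5, w6, w7⟩ := hω
  obtain ⟨σ, s1, s2, s3, s4, s5⟩ := exists_sk ι N.k0 ω Δ N.d0
    (fun b l => by linarith [w2 (b, l), N.d1]) (fun b j l => by linarith [w3 ((b, j), l), N.d2])
  obtain ⟨τ, t1, t2⟩ := thin N.k0 σ s1 (fun i j => avl ω (σ i) j) a N.a0
    (fun i j => by linarith [w4 _ (s1 i) j, N.a1])
  have f0 : (0 : ℝ) < f := by exact_mod_cast (Nat.succ_pos K).trans_le N.a2
  obtain ⟨t, t3⟩ := general σ s1 a N.a0 τ (fun y t t' e =>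
    (t2 y.1 y.2 t y.2 t' none (fun b => by simp) (fun b => by simp) (by rw [e])).2) f f0 N.k0
    (fun π => Nat.cast_le.2 ((card_le_card_of_injOn (t := smp ω ∩ pen π)
      (fun x : Dir p × Cr k => (σ x.1).cr x.2) (fun x hx => mem_inter.2 ⟨s3 _ _, (mem_filter.1 hx).2⟩)
      fun ⟨i, o⟩ _ ⟨i', o'⟩ _ e => by
        obtain rfl := s5 _ _ _ _ e
        rw [show o = o' from (s1 i).dinj (congrArg Prod.fst e)]).trans (by
      rcases π with z | d
      · exact (w5 z).le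
      · exact le_trans (card_le_card fun l hl => mem_filter.2 ⟨(mem_inter.1 hl).1,
          (mem_filter.1 (mem_inter.1 hl).2).2⟩) ((card_smp_dir ω d).trans N.a2)))) N.a3 N.a4
  refine ⟨⟨smp ω, σ, fun i j => par (σ i).L (τ ((i, j), t (i, j))), s1, s2, s3, s4, s5,
    fun i j => on_par _ _, fun i j o v l hl e => ?_, fun i j j' o v v' e => (t2 _ _ _ _ _ o v v' e).1,
    t3, fun C hC hG => ?_, fun l => ?_⟩⟩
  · obtain ⟨c, rfl⟩ := mem_smp.1 hl
    refine ln_ext e ((s1 i).sp_on (on_par _ _) v) ?_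
    by_contra ne
    exact (mem_filter.1 (t1 ((i, j), t (i, j)))).2 o v c ne e
  · have := rigid (smp ω) (C \ smp ω) _ ε η c (K + 1) n f M (fun l => (w1 l).le) (card_smp_dir ω)
      (fun T Λ a b d => by
        have := w6 (T, Λ) (by simp [a, b]) d
        simp only [not_forall, not_exists, not_and, not_not] at this
        obtain ⟨z, z1, z2, z3⟩ := this
        exact ⟨z, z1, z2, z3⟩)
      (fun T X a b D d e => by
        have := w7 (T, X) (by simp [a, b]) D (mem_powerset.2 d) e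
        simp only [not_forall, not_not] at this
        obtain ⟨z, z1, z2⟩ := this
        exact ⟨z, z1, z2⟩)
      N.e0 N.c1 N.c2 (pow_le_one₀ q_nonneg q_le_one) N.c4 N.c5 N.c6 N.c7 N.c8 N.c9 N.c10 N.c11 N.c12
      ((card_le_card sdiff_subset).trans hC) (fun l hl => (mem_sdiff.1 hl).2) fun z hz => by
        obtain ⟨l, a, b⟩ := hG z hz
        exact ⟨l, mem_sdiff.2 ⟨a, fun h => (mem_filter.1 hz).2 l h b⟩, b⟩
    refine sw C m N.m1 hC ?_
    have b : ((unc C).card : ℝ) ≤ (unc (C \ smp ω)).card := Nat.cast_le.2 (card_le_card fun z hz =>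
      mem_filter.2 ⟨mem_univ _, fun l hl => (mem_filter.1 hz).2 l (mem_sdiff.1 hl).1⟩)
    exact_mod_cast (by linarith [N.m2] : ((unc C).card : ℝ) + p < m ^ 2)
  · exact_mod_cast (by linarith [(abs_lt.1 (w1 l)).1, N.m3] :
      (3 * m + 1 : ℝ) < (free (smp ω) l).card)

end Vale.Agent.P045
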