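import Mathlib

namespace Vale.Agent.P045

variable {V : Type}

/-- `H` is `r`-partite `r`-uniform for the partition of the vertices into the fibres of `part`:
every edge contains exactly one vertex of each part -/
def IsRPartite {r : ℕ} (part : V → Fin r) (H : Finset (Finset V)) : Prop :=
  ∀ e ∈ H, ∀ i : Fin r, ∃! v, v ∈ e ∧ part v = i

/-- `T` is a vertex cover of `H` -/
def IsCover (H : Finset (Finset V)) (T : Finset V) : Prop := ∀ e ∈ H, ∃ v ∈ T, v ∈ e

/-- `M` is a matching of `H` -/
def IsMatching (H M : Finset (Finset V)) : Prop :=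
  M ⊆ H ∧ ∀ e ∈ M, ∀ e' ∈ M, e ≠ e' → Disjoint e e'

/-- covering number -/
noncomputable def tau (H : Finset (Finset V)) : ℕ := sInf {n | ∃ T, IsCover H T ∧ T.card = n}

/-- matching number -/
noncomputable def nu (H : Finset (Finset V)) : ℕ := sSup {n | ∃ M, IsMatching H M ∧ M.card = n}

end Vale.Agent.P045
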