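import Mathlib
import Vale.Agent.P045.Assemble

namespace Vale.Agent.P045

open Filter

theorem ev_log (B : ℝ) : ∀ᶠ p : ℕ in atTop, B ≤ Real.log p :=
  (Real.tendsto_log_atTop.comp tendsto_natCast_atTop_atTop).eventually_ge_atTop B

theorem ev_pow (A B : ℝ) (hA : 0 < A) (hB : 0 < B) :
    ∀ᶠ p : ℕ in atTop, B * ((⌈A * Real.log p⌉₊ + 1 : ℕ) : ℝ) ^ 20 ≤ p := by
  have h := tendsto_natCast_atTop_atTop.eventually ((Real.isLittleO_pow_log_id_atTop (n := 20)).bound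
    (show 0 < 1 / (B * (A + 2) ^ 20) by positivity))
  filter_upwards [h, ev_log 1] with p h1 h2
  rw [Real.norm_of_nonneg (by positivity), id, Real.norm_of_nonneg (by positivity), one_div,
    ← div_eq_inv_mul, le_div_iff₀ (by positivity)] at h1
  refine le_trans ?_ h1
  have : ((⌈A * Real.log p⌉₊ + 1 : ℕ) : ℝ) ≤ Real.log p * (A + 2) := by
    have := (Nat.ceil_lt_add_one (show 0 ≤ A * Real.log p by positivity)).le
    push_cast
    nlinarith
  refine (mul_le_mul_of_nonneg_left (pow_le_pow_left₀ (by positivity) this 20) hB.le).trans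
    (le_of_eq (by ring))

theorem half_le_floor {x : ℝ} (h : 2 ≤ x) : x / 2 ≤ ⌊x⌋₊ := by
  linarith [Nat.lt_floor_add_one x]

theorem exp_small {x : ℝ} (h : x ≤ -3) : 2 * Real.exp x ≤ 1 / 10 := by
  have a := Real.exp_le_exp.2 h
  have b : (20 : ℝ) ≤ Real.exp 3 := by
    rw [show (3 : ℝ) = (3 : ℕ) * 1 by norm_num, Real.exp_nat_mul]
    exact le_trans (by norm_num) (pow_le_pow_left₀ (by norm_num) Real.exp_one_gt_d9.le 3)
  rw [Real.exp_neg] at a
  have := inv_anti₀ (by norm_num) b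
  linarith

theorem exp_le_one_sub {y : ℝ} (h0 : 0 ≤ y) (h1 : y ≤ 1 / 2) : Real.exp (-(2 * y)) ≤ 1 - y := by
  rw [Real.exp_neg, inv_eq_one_div, div_le_iff₀ (Real.exp_pos _)]
  have := mul_le_mul_of_nonneg_left (Real.add_one_le_exp (2 * y)) (show 0 ≤ 1 - y by linarith)
  nlinarith

theorem low {p K N : ℕ} {r s : ℝ} (h0 : 0 ≤ r) (h1 : 2 * s ≤ p) (h2 : r ≤ s) (h4 : 1 ≤ s)
    (h3 : N ≤ (p + 1) * (K + 1)) : Real.exp (-(4 * s * (K + 1))) ≤ (1 - r / p) ^ N := by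
  have p0 : (0 : ℝ) < p := by linarith
  refine le_trans ?_ (pow_le_pow_left₀ (Real.exp_pos _).le (exp_le_one_sub (by positivity)
    (by rw [div_le_iff₀ p0]; linarith)) N)
  rw [← Real.exp_nat_mul, Real.exp_le_exp, mul_neg, neg_le_neg_iff, ← mul_div_assoc,
    ← mul_div_assoc, div_le_iff₀ p0]
  have a : (N : ℝ) ≤ (p + 1) * (K + 1) := by exact_mod_cast h3
  have b : (N : ℝ) ≤ 2 * p * (K + 1) := a.trans (mul_le_mul_of_nonneg_right (by linarith)
    (by positivity))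
  exact (mul_le_mul b (show 2 * r ≤ 2 * s by linarith) (by positivity) (by positivity)).trans
    (le_of_eq (by ring))

theorem num_d {p K k g : ℕ} {γ ε : ℝ} (hk : 0 < k) (hK : K = 128 * k ^ 2 * 2 ^ (k + 1))
    (p1 : 2 * ((K : ℝ) + 1) ≤ p) (g1 : (p : ℝ) / (4 * k) ≤ g) (g2 : 2 ≤ g) (e1 : ε ≤ γ)
    (γ0 : 0 < γ) (l : γ ≤ (1 - 1 / p : ℝ) ^ (p * (K + 1) - (K + 1) - k)) : ∃ Δ : ℝ, 0 < Δ ∧
    4 * (k * Δ) + ε * p ≤ p * ((((g - 1) * K : ℕ) : ℝ) ^ k * ((1 / p) ^ k *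
      (1 - 1 / p) ^ (p * (K + 1) - k))) ∧
    p * ((p + 1) * (((g * K : ℕ) : ℝ) ^ (k - 1) * ((1 / p) ^ k *
      (1 - 1 / p) ^ (p * (K + 1) - (K + 1) - k)))) + ε * p ≤ Δ := by
  have p0 : (1 : ℝ) ≤ p := by linarith [Nat.cast_nonneg (α := ℝ) K]
  have k1 : (1 : ℝ) ≤ k := by exact_mod_cast hk
  have q0 : (0 : ℝ) ≤ 1 - 1 / p := by rw [sub_nonneg, div_le_one (by linarith)]; exact p0
  have q1 : (1 : ℝ) - 1 / p ≤ 1 := by rw [sub_le_self_iff]; positivity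
  have a1 : (1 - 1 / p : ℝ) ^ (p * (K + 1) - (K + 1) - k) / 2 ≤ (1 - 1 / p) ^ (p * (K + 1) - k) := by
    refine le_trans ?_ (pow_le_pow_of_le_one q0 q1
      (show _ ≤ (p * (K + 1) - (K + 1) - k) + (K + 1) by omega))
    rw [pow_add, div_eq_mul_one_div]
    refine mul_le_mul_of_nonneg_left (le_trans ?_ ((one_add_mul_le_pow (a := -(1 / (p : ℝ)))
      (by linarith) (K + 1)).trans_eq (by rw [← sub_eq_add_neg]))) (pow_nonneg q0 _)
    have : ((K : ℝ) + 1) / p ≤ 1 / 2 := by rw [div_le_iff₀ (by linarith)]; linarith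
    push_cast
    rw [mul_neg, mul_one_div]
    linarith
  generalize (1 - 1 / p : ℝ) ^ (p * (K + 1) - (K + 1) - k) = Θ at l a1
  generalize (1 - 1 / p : ℝ) ^ (p * (K + 1) - k) = Θ' at a1
  have a2 : 32 * k * 2 ^ (k + 1) ≤ (g * K : ℕ) * (1 / p : ℝ) := by
    rw [mul_one_div, le_div_iff₀ (by linarith)]
    rw [div_le_iff₀ (by positivity)] at g1
    have := mul_le_mul_of_nonneg_left g1 (show (0 : ℝ) ≤ 32 * k * 2 ^ (k + 1) by positivity)
    refine this.trans (le_of_eq ?_)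
    rw [hK]
    push_cast
    ring
  have a3 : ((g * K : ℕ) : ℝ) / 2 ≤ ((g - 1) * K : ℕ) := by
    rw [div_le_iff₀ (by norm_num)]
    exact_mod_cast (Nat.mul_le_mul_right K (show g ≤ (g - 1) * 2 by omega)).trans
      (le_of_eq (by ring))
  generalize ((g * K : ℕ) : ℝ) = G at a2 a3
  generalize (((g - 1) * K : ℕ) : ℝ) = G' at a3
  obtain ⟨j, rfl⟩ : ∃ j, k = j + 1 := ⟨k - 1, by omega⟩
  rw [Nat.add_sub_cancel]
  have t1 : (1 : ℝ) ≤ 2 ^ (j + 1 + 1) := one_le_pow₀ one_le_two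
  have a4 : 1 ≤ G * (1 / p) := le_trans (by nlinarith) a2
  have G0 : 0 ≤ G := by
    by_contra h
    have : G * (1 / p) ≤ 0 := mul_nonpos_of_nonpos_of_nonneg (not_le.1 h).le (by positivity)
    linarith
  have a5 : γ ≤ (G * (1 / p)) ^ j * Θ := l.trans (le_mul_of_one_le_left (by linarith)
    (one_le_pow₀ a4))
  refine ⟨3 * p * ((G * (1 / p)) ^ j * Θ), mul_pos (by linarith) (by linarith), ?_, ?_⟩
  · have b1 : (G / 2) ^ (j + 1) * ((1 / p) ^ (j + 1) * (Θ / 2)) ≤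
        G' ^ (j + 1) * ((1 / p) ^ (j + 1) * Θ') :=
      mul_le_mul (pow_le_pow_left₀ (by positivity) a3 _) (mul_le_mul_of_nonneg_left a1
        (by positivity)) (mul_nonneg (by positivity) (by linarith)) (pow_nonneg (by linarith) _)
    have b2 : (G / 2) ^ (j + 1) * ((1 / p) ^ (j + 1) * (Θ / 2)) =
        (G * (1 / p) / 2 ^ (j + 1 + 1)) * ((G * (1 / p)) ^ j * Θ) := by
      generalize (1 / p : ℝ) = y
      rw [div_pow, mul_pow]
      field_simp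
      ring
    have b3 : 32 * ((j + 1 : ℕ) : ℝ) ≤ G * (1 / p) / 2 ^ (j + 1 + 1) := by
      rw [le_div_iff₀ (by positivity)]; exact a2
    rw [b2] at b1
    generalize (G * (1 / p)) ^ j * Θ = Y at *
    have b4 := (mul_le_mul_of_nonneg_right b3 (show 0 ≤ Y by linarith)).trans b1
    refine le_trans ?_ (mul_le_mul_of_nonneg_left b4 (by linarith))
    have : ε * p ≤ Y * p := mul_le_mul_of_nonneg_right (by linarith) (by linarith)
    have : 1 * (Y * p) ≤ ((j + 1 : ℕ) : ℝ) * (Y * p) := mul_le_mul_of_nonneg_right k1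
      (mul_nonneg (by linarith) (by linarith))
    nlinarith
  · have b2 : (p : ℝ) * ((p + 1) * (G ^ j * ((1 / p) ^ (j + 1) * Θ))) =
        (p + 1) * ((G * (1 / p)) ^ j * Θ) := by
      rw [mul_pow, pow_succ]
      field_simp
    rw [b2]
    generalize (G * (1 / p)) ^ j * Θ = Y at *
    have : ε * p ≤ Y * p := mul_le_mul_of_nonneg_right (by linarith) (by linarith)
    nlinarith

theorem num_F4 {p K n h : ℕ} {η c' κ L : ℝ} (η0 : 0 < η) (c0 : 0 < c') (κ0 : 0 < κ) (n0 : 0 < n)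
    (p1 : (1 : ℝ) ≤ p) (hL : Real.exp L = p) (n1 : n ≤ p) (n2 : 6 * (n : ℝ) ≤ κ * p)
    (h1 : 2 * κ * p ≤ h)
    (hB : (7 + 32 / η + 128 ^ 2 / η ^ 2 + 2 * (K + 1) + (K + 1) / c') / κ ≤ L) :
    (((n : ℝ) + 1) * p ^ (3 * n)) ^ 2 * (Real.exp (2 * n + (n * p / (η * n / 32) +
    p * n ^ 2 / (η * n / 32 / 4) ^ 2)) *
    (Real.exp ((p + 1) * (K + 1) + (K + 1) * p / c') / p ^ h)) ≤ 1 / 10 := by
  have n0' : (0 : ℝ) < n := by exact_mod_cast n0
  have n1' : (n : ℝ) ≤ p := by exact_mod_cast n1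
  have L0 : 0 ≤ L := le_trans (by positivity) hB
  have e1 : (n : ℝ) * p / (η * n / 32) = 32 / η * p := by field_simp
  have e2 : (p : ℝ) * n ^ 2 / (η * n / 32 / 4) ^ 2 = 128 ^ 2 / η ^ 2 * p := by field_simp; ring
  have e3 : ∀ j : ℕ, (p : ℝ) ^ j = Real.exp (j * L) := fun j => by rw [Real.exp_nat_mul, hL]
  rw [e1, e2, e3, e3, ← Real.exp_sub, ← Real.exp_add]
  refine (mul_le_mul_of_nonneg_right (pow_le_pow_left₀ (by positivity) (mul_le_mul_of_nonneg_right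
    (Real.add_one_le_exp n) (Real.exp_pos _).le) 2) (Real.exp_pos _).le).trans ?_
  rw [← Real.exp_add, ← Real.exp_nat_mul, ← Real.exp_add]
  refine le_trans (le_mul_of_one_le_left (Real.exp_pos _).le one_le_two) (exp_small ?_)
  rw [div_le_iff₀ κ0] at hB
  have a1 := mul_le_mul_of_nonneg_right hB (show (0 : ℝ) ≤ p by linarith)
  have a2 := mul_le_mul_of_nonneg_right n2 L0
  have a3 := mul_le_mul_of_nonneg_right h1 L0
  have a4 : ((K : ℝ) + 1) * 1 ≤ (K + 1) * p := mul_le_mul_of_nonneg_left p1 (by positivity)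
  have a5 : ((K : ℝ) + 1) * p / c' = (K + 1) / c' * p := by ring
  rw [a5]
  push_cast
  nlinarith

theorem num_F3 {p K f : ℕ} {γ L x : ℝ} (hL : Real.exp L = p) (L2 : 2 ≤ L) (f1 : 1 ≤ f)
    (f2 : 16 * L ≤ γ * ((f - 1 : ℕ) : ℝ)) (f3 : 4 * ((K : ℝ) + 1) * f ^ 6 ≤ p) (x1 : γ ≤ x)
    (x2 : x ≤ 1) :
    (p : ℝ) ^ (6 * f) * (Real.exp (4 * (((f - 1) * f : ℕ) : ℝ) ^ 3 * (K + 1) / p) *
      (1 - x / 2) ^ ((f - 1) * f)) ≤ 1 / 10 := by
  have p0 : (0 : ℝ) < p := hL ▸ Real.exp_pos L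
  have f1' : (1 : ℝ) ≤ f := by exact_mod_cast f1
  have a1 : 4 * (((f - 1) * f : ℕ) : ℝ) ^ 3 * (K + 1) / p ≤ 1 := by
    rw [div_le_one p0]
    refine le_trans ?_ f3
    have : (((f - 1) * f : ℕ) : ℝ) ≤ f * f := by
      exact_mod_cast Nat.mul_le_mul_right f (Nat.sub_le f 1)
    refine (mul_le_mul_of_nonneg_right (mul_le_mul_of_nonneg_left (pow_le_pow_left₀
      (by positivity) this 3) (by norm_num)) (by positivity)).trans (le_of_eq (by ring))
  have a2 : (1 - x / 2) ^ ((f - 1) * f) ≤ Real.exp ((((f - 1) * f : ℕ) : ℝ) * -(γ / 2)) := by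
    rw [Real.exp_nat_mul]
    exact pow_le_pow_left₀ (by linarith) (by linarith [Real.add_one_le_exp (-(γ / 2))]) _
  refine (mul_le_mul_of_nonneg_left (mul_le_mul (Real.exp_le_exp.2 a1) a2 (pow_nonneg (by linarith) _)
    (Real.exp_pos _).le) (by positivity)).trans ?_
  rw [← hL, ← Real.exp_nat_mul, ← Real.exp_add, ← Real.exp_add]
  refine le_trans (le_mul_of_one_le_left (Real.exp_pos _).le one_le_two) (exp_small ?_)
  rw [Nat.cast_mul, Nat.cast_mul]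
  have := mul_le_mul_of_nonneg_right f2 (show (0 : ℝ) ≤ f by linarith)
  push_cast
  nlinarith

theorem num_c8 {p n f : ℕ} {η θ L : ℝ} (hL : Real.exp L = p) (η0 : 0 < η) (η1 : 4 * η ≤ 1)
    (f1 : 1 ≤ f) (f2 : 8 * η * f ≤ L + 1) (θ0 : 0 < θ) (n1 : θ * p / 2 ≤ n)
    (f3 : 2000 / θ ^ 2 * (f : ℝ) ^ 20 ≤ p) :
    (((f ^ 2 + f ^ 5) ^ 2 + f : ℕ) : ℝ) < n / 2 * (1 - 2 * η) ^ f := by
  have p0 : (0 : ℝ) < p := hL ▸ Real.exp_pos L
  have a1 : (((f ^ 2 + f ^ 5) ^ 2 + f : ℕ) : ℝ) ≤ 5 * f ^ 10 := by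
    have b1 : f ^ 2 ≤ f ^ 5 := Nat.pow_le_pow_right f1 (by norm_num)
    have b2 : f ^ 1 ≤ f ^ 10 := Nat.pow_le_pow_right f1 (by norm_num)
    have b3 : (f ^ 2 + f ^ 5) ^ 2 ≤ (f ^ 5 + f ^ 5) ^ 2 := Nat.pow_le_pow_left (by omega) 2
    exact_mod_cast (add_le_add b3 ((pow_one f).ge.trans b2)).trans (le_of_eq (by ring))
  have a2 : Real.exp (f * -(2 * (2 * η))) ≤ (1 - 2 * η) ^ f := by
    rw [Real.exp_nat_mul]
    exact pow_le_pow_left₀ (Real.exp_pos _).le (exp_le_one_sub (by linarith) (by linarith)) _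
  refine a1.trans_lt (lt_of_lt_of_le ?_ (mul_le_mul (show θ * p / 4 ≤ n / 2 by linarith) a2
    (Real.exp_pos _).le (by positivity)))
  refine lt_of_pow_lt_pow_left₀ 2 (by positivity) ?_
  have a3 : 1 / (3 * p) ≤ Real.exp (f * -(2 * (2 * η))) ^ 2 := by
    rw [← Real.exp_nat_mul]
    refine le_trans ?_ (Real.exp_le_exp.2 (show -(1 + L) ≤ _ by push_cast; linarith))
    rw [Real.exp_neg, Real.exp_add, hL, one_div]
    exact inv_anti₀ (by positivity) (mul_le_mul_of_nonneg_right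
      (Real.exp_one_lt_d9.le.trans (by norm_num)) p0.le)
  rw [mul_pow (θ * p / 4)]
  refine lt_of_lt_of_le ?_ (mul_le_mul_of_nonneg_left a3 (by positivity))
  rw [div_mul_eq_mul_div, div_le_iff₀ (by positivity)] at f3
  have e : (θ * p / 4) ^ 2 * (1 / (3 * p)) = p * θ ^ 2 / 48 := by field_simp; ring
  have : (0 : ℝ) < (f : ℝ) ^ 20 := by positivity
  rw [e]
  nlinarith

theorem num_F1 {p K k : ℕ} {ε L f : ℝ} (hL : Real.exp L = p) (p1 : (1 : ℝ) ≤ p) (f1 : 1 ≤ f)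
    (f2 : L ≤ f) (b1 : (4 * k + 11) * (4 * (K + 1) * (2 * (2 * k + 1)) ^ 2) * f ≤ p * ε ^ 2) :
    (p : ℝ) ^ (4 * k + 8) * (2 * Real.exp (-((ε * p) ^ 2 /
      (2 * ((p + 1) * (K + 1)) * (2 * (2 * k + 1)) ^ 2)))) ≤ 1 / 10 := by
  have e1 : (4 * k + 11) * f ≤ (ε * p) ^ 2 / (2 * ((p + 1) * (K + 1)) * (2 * (2 * k + 1)) ^ 2) := by
    rw [le_div_iff₀ (by positivity)]
    have a := mul_le_mul_of_nonneg_right b1 (show (0 : ℝ) ≤ p by linarith)
    have b := mul_le_mul_of_nonneg_left (show (p : ℝ) + 1 ≤ 2 * p by linarith)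
      (show (0 : ℝ) ≤ (4 * k + 11) * f * (2 * (K + 1) * (2 * (2 * k + 1)) ^ 2) by positivity)
    linarith
  rw [← hL, ← Real.exp_nat_mul, mul_left_comm, ← Real.exp_add, hL]
  refine exp_small ?_
  have := mul_le_mul_of_nonneg_left f2 (show (0 : ℝ) ≤ 4 * k + 8 by positivity)
  push_cast
  linarith

theorem num_F2 {p K f : ℕ} {L : ℝ} (hL : Real.exp L = p) (l1 : (K : ℝ) + 3 ≤ L) (f4 : 16 * L ≤ f) :
    (p : ℝ) * p * (Real.exp (2 * (K + 1)) / 2 ^ f) ≤ 1 / 10 := by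
  have e1 : Real.exp ((f : ℝ) * (1 / 2)) ≤ 2 ^ f := by
    rw [Real.exp_nat_mul]
    refine pow_le_pow_left₀ (Real.exp_pos _).le (le_of_pow_le_pow_left₀ two_ne_zero (by norm_num)
      ?_) _
    rw [← Real.exp_nat_mul]
    exact le_trans (le_of_eq (by norm_num)) (Real.exp_one_lt_d9.le.trans (by norm_num))
  refine (mul_le_mul_of_nonneg_left (div_le_div_of_nonneg_left (Real.exp_pos _).le
    (Real.exp_pos _) e1) (by positivity)).trans ?_
  rw [← hL, ← Real.exp_sub, ← Real.exp_add, ← Real.exp_add]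
  exact le_trans (le_mul_of_one_le_left (Real.exp_pos _).le one_le_two)
    (exp_small (by linarith [Nat.cast_nonneg (α := ℝ) K]))

theorem num_a4 {p k a f α : ℝ} (p0 : 0 < p) (k0 : 0 < k) (f0 : 0 < f) (α0 : 0 < α)
    (a2 : α * p / 2 ≤ a) (b7 : 13 * (2 * k / α) ^ 5 * f ^ 5 ≤ p) :
    4 * p ^ 4 * (3 / (a / (k * f)) ^ 5) < 1 := by
  have e1 : α * p / (2 * k * f) ≤ a / (k * f) :=
    le_trans (le_of_eq (by field_simp)) (div_le_div_of_nonneg_right a2 (by positivity))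
  refine lt_of_le_of_lt (mul_le_mul_of_nonneg_left (div_le_div_of_nonneg_left (by norm_num)
    (by positivity) (pow_le_pow_left₀ (by positivity) e1 5)) (by positivity)) ?_
  have e2 : 4 * p ^ 4 * (3 / (α * p / (2 * k * f)) ^ 5) = 12 * ((2 * k / α) ^ 5 * f ^ 5) / p := by
    field_simp
    ring
  have : 0 < (2 * k / α) ^ 5 * f ^ 5 := by positivity
  rw [e2, div_lt_one p0]
  linarith

theorem num_c11 {p n η θ L f : ℝ} (hL : Real.exp L = p) (n0 : 0 < n) (n2 : θ * p / 2 ≤ n)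
    (b5 : 2048 * f ≤ p * (η ^ 2 * θ)) (f1 : 1 ≤ f) (f2 : L ≤ f) :
    p * Real.exp (-((η * n / 16) ^ 2 / (2 * n))) < 1 := by
  rw [← hL, ← Real.exp_add, Real.exp_lt_one_iff,
    show (η * n / 16) ^ 2 / (2 * n) = η ^ 2 * n / 512 by field_simp; ring]
  have := mul_le_mul_of_nonneg_left n2 (sq_nonneg η)
  linarith

/-- the constants that do not depend on `p` -/
structure Cst (k K M : ℕ) (γ η c θ ε α : ℝ) : Prop where
  hK : K = 128 * k ^ 2 * 2 ^ (k + 1)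
  hγ : γ = Real.exp (-(4 * (2 * k + 1 : ℝ) * (K + 1)))
  hη : η = γ / 128
  hc : c = γ ^ 2 / 512
  hα : α * (8 * k * (2 * k + 1)) = γ
  K0 : 0 < K
  γ0 : 0 < γ
  γ1 : γ ≤ 1 / 2
  θ0 : 0 < θ
  θ1 : θ ≤ η / 128
  θ2 : 6 * θ ≤ c * γ / 8
  M0 : (0 : ℝ) < M
  hM : 128 ≤ M * (η * θ)
  ε0 : 0 < ε
  ε1 : 24 * M * ε = η * θ / 2
  ε2 : 8 * ε ≤ γ
  α0 : 0 < α

theorem exists_cst (k : ℕ) (hk : 0 < k) : ∃ K M γ η c θ ε α, Cst k K M γ η c θ ε α := by
  obtain ⟨K, hK⟩ : ∃ K, K = 128 * k ^ 2 * 2 ^ (k + 1) := ⟨_, rfl⟩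
  have k1 : (1 : ℝ) ≤ k := by exact_mod_cast hk
  have K1 : (0 : ℝ) ≤ K := by positivity
  obtain ⟨γ, hγ⟩ : ∃ γ, γ = Real.exp (-(4 * (2 * k + 1 : ℝ) * (K + 1))) := ⟨_, rfl⟩
  have γ0 : 0 < γ := hγ ▸ Real.exp_pos _
  have γ1 : γ ≤ 1 / 2 := hγ ▸ (Real.exp_le_exp.2 (show _ ≤ -(2 * (1 / 2) : ℝ) by nlinarith)).trans
    ((exp_le_one_sub (by norm_num) le_rfl).trans (by norm_num))
  obtain ⟨η, hη⟩ : ∃ η, η = γ / 128 := ⟨_, rfl⟩
  obtain ⟨c, hc⟩ : ∃ c, c = γ ^ 2 / 512 := ⟨_, rfl⟩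
  have η0 : 0 < η := by rw [hη]; positivity
  have c0 : 0 < c := by rw [hc]; positivity
  have c1 : c * γ ≤ 1 := by rw [hc]; nlinarith
  obtain ⟨θ, hθ⟩ : ∃ θ, θ = c * γ * η / 128 := ⟨_, rfl⟩
  have θ0 : 0 < θ := by rw [hθ]; positivity
  have θ1 : θ ≤ η / 128 := by linarith [mul_le_mul_of_nonneg_right c1 η0.le]
  obtain ⟨M, hM⟩ : ∃ M : ℕ, 128 / (η * θ) ≤ M := ⟨_, Nat.le_ceil _⟩
  have M0 : (0 : ℝ) < M := lt_of_lt_of_le (by positivity) hM
  have M1 : (1 : ℝ) ≤ M := by exact_mod_cast (show 0 < M by exact_mod_cast M0)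
  obtain ⟨ε, hε⟩ : ∃ ε, ε = η * θ / (48 * M) := ⟨_, rfl⟩
  have ε0 : 0 < ε := by rw [hε]; positivity
  have ε1 : 24 * M * ε = η * θ / 2 := by rw [hε]; field_simp; ring
  refine ⟨K, M, γ, η, c, θ, ε, γ / (8 * k * (2 * k + 1)), hK, hγ, hη, hc, by field_simp,
    by rw [hK]; positivity, γ0, γ1, θ0, θ1, ?_, M0, (div_le_iff₀ (by positivity)).1 hM, ε0, ε1, ?_,
    by positivity⟩
  · linarith [mul_le_mul_of_nonneg_left (show η ≤ 1 by linarith) (mul_pos c0 γ0).le, mul_pos c0 γ0]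
  · linarith [mul_le_mul_of_nonneg_right M1 ε0.le,
      mul_le_mul_of_nonneg_left (show θ ≤ 1 by linarith) η0.le]

set_option maxHeartbeats 1000000 in
theorem exists_num (k : ℕ) (hk : 0 < k) : ∀ᶠ p : ℕ in atTop, ∃ (K g n f M m h a : ℕ)
    (ε η c c' Δ : ℝ), Num p K k g n f M m h a ε η c c' Δ := by
  obtain ⟨K, M, γ, η, c, θ, ε, α, hK, hγ, hη, hc, hα, K0, γ0, γ1, θ0, θ1, θ2, M0, hM, ε0, ε1, ε2,
    α0⟩ := exists_cst k hk
  have k1 : (1 : ℝ) ≤ k := by exact_mod_cast hk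
  have K1 : (0 : ℝ) ≤ K := by positivity
  have η0 : 0 < η := by rw [hη]; positivity
  have c0 : 0 < c := by rw [hc]; positivity
  have ev := fun B hB => ev_pow (16 / γ) B (by positivity) hB
  have ep := fun B : ℝ => tendsto_natCast_atTop_atTop.eventually_ge_atTop B
  filter_upwards [ev ((4 * k + 11) * (4 * (K + 1) * (2 * (2 * k + 1)) ^ 2) / ε ^ 2) (by positivity),
    ev (4 * (K + 1)) (by positivity),
    ev (2 * M / η) (by positivity), ev (2000 / θ ^ 2) (by positivity),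
    ev (2048 / (η ^ 2 * θ)) (by positivity), ev (2 * k / α) (by positivity),
    ev (13 * (2 * k / α) ^ 5) (by positivity), ev_log (K + 3),
    ev_log ((7 + 32 / η + 128 ^ 2 / η ^ 2 + 2 * (K + 1) + (K + 1) / (c * γ / 2)) / (c * γ / 8)),
    ep (8 * k), ep (2 * (K + 1)), ep ((K + 1) / ε), ep (4 / θ), ep (16 / γ), ep (4 / (c * γ)),
    ep (1 / c), ep (2 / α)] with p b1 b2 b3 b4 b5 b6 b7 l1 l2 q1 q2 q3 q4 q5 q6 q7 q8
  clear ev ep
  have p0 : (0 : ℝ) < p := by linarith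
  have hL := Real.exp_log p0
  generalize Real.log p = L at *
  have f2 : 16 * L ≤ γ * ⌈16 / γ * L⌉₊ := by
    have := mul_le_mul_of_nonneg_left (Nat.le_ceil (16 / γ * L)) γ0.le
    rwa [← mul_assoc, mul_div_cancel₀ _ γ0.ne'] at this
  have f3 : γ * ⌈16 / γ * L⌉₊ ≤ 16 * L + γ := by
    have := mul_le_mul_of_nonneg_left (Nat.ceil_lt_add_one
      (show 0 ≤ 16 / γ * L from mul_nonneg (by positivity) (by linarith only [l1, K1]))).le γ0.le
    rwa [mul_add, ← mul_assoc, mul_div_cancel₀ _ γ0.ne', mul_one] at this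
  generalize ⌈16 / γ * L⌉₊ = e at *
  have f1 : (1 : ℝ) ≤ (e + 1 : ℕ) := by simp
  have f4 : 16 * L ≤ (e + 1 : ℕ) := by
    push_cast
    linarith only [f2, mul_le_mul_of_nonneg_right γ1 (Nat.cast_nonneg (α := ℝ) e),
      Nat.cast_nonneg (α := ℝ) e]
  have f5 : L ≤ (e + 1 : ℕ) := by linarith only [f4, l1, K1]
  have pw : ∀ {B : ℝ} (j : ℕ), 0 < B → j ≤ 20 → B * ((e + 1 : ℕ) : ℝ) ^ 20 ≤ p →
      B * ((e + 1 : ℕ) : ℝ) ^ j ≤ p := fun j a b c =>
    (mul_le_mul_of_nonneg_left (pow_le_pow_right₀ f1 b) a.le).trans c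
  replace b1 := pw 1 (by positivity) (by norm_num) b1
  replace b2 := pw 6 (by positivity) (by norm_num) b2
  replace b3 := pw 1 (by positivity) (by norm_num) b3
  replace b5 := pw 1 (by positivity) (by norm_num) b5
  replace b6 := pw 1 (by positivity) (by norm_num) b6
  replace b7 := pw 5 (by positivity) (by norm_num) b7
  rw [pow_one, div_mul_eq_mul_div, div_le_iff₀ (by positivity)] at b1 b3 b5 b6
  rw [div_le_iff₀ (by positivity)] at q3 q4 q5 q6 q7 q8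
  have lw : ∀ (r : ℝ) (N : ℕ), 0 ≤ r → r ≤ 2 * k + 1 → N ≤ (p + 1) * (K + 1) →
      γ ≤ (1 - r / p) ^ N := fun r N a b c =>
    hγ ▸ low a (by linarith only [q1, k1]) b (by linarith only [k1]) c
  have n1 : (⌊θ * p⌋₊ : ℝ) ≤ θ * p := Nat.floor_le (by positivity)
  have n2 : θ * p / 2 ≤ ⌊θ * p⌋₊ := half_le_floor (by linarith only [q4])
  have m1 : (⌊γ * p / 8⌋₊ : ℝ) ≤ γ * p / 8 := Nat.floor_le (by positivity)
  have m2 : γ * p / 8 / 2 ≤ ⌊γ * p / 8⌋₊ := half_le_floor (by linarith only [q5])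
  have h1 : (⌊c * γ * p / 2⌋₊ : ℝ) ≤ c * γ * p / 2 := Nat.floor_le (by positivity)
  have h2 : c * γ * p / 2 / 2 ≤ ⌊c * γ * p / 2⌋₊ := half_le_floor (by linarith only [q6])
  have a1 : (⌊α * p⌋₊ : ℝ) ≤ α * p := Nat.floor_le (by positivity)
  have a2 : α * p / 2 ≤ ⌊α * p⌋₊ := half_le_floor (by linarith only [q8])
  have g0 : 4 ≤ (p : ℝ) / (2 * k) := by rw [le_div_iff₀ (by positivity)]; linarith only [q1]
  have g1 : (⌊(p : ℝ) / (2 * k)⌋₊ : ℝ) ≤ p / (2 * k) := Nat.floor_le (by positivity)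
  have g2 : (p : ℝ) / (2 * k) / 2 ≤ ⌊(p : ℝ) / (2 * k)⌋₊ := half_le_floor (by linarith only [g0])
  generalize ⌊θ * p⌋₊ = n at *
  generalize ⌊γ * p / 8⌋₊ = m at *
  generalize ⌊c * γ * p / 2⌋₊ = h at *
  generalize ⌊α * p⌋₊ = a at *
  generalize ⌊(p : ℝ) / (2 * k)⌋₊ = g at *
  have g3 : 2 ≤ g := by exact_mod_cast (by linarith only [g0, g2] : (2 : ℝ) ≤ g)
  have n0 : (0 : ℝ) < n := by linarith only [n2, q4]
  have n4 : (n : ℝ) ≤ η / 128 * p := n1.trans (mul_le_mul_of_nonneg_right θ1 p0.le)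
  have gp := mul_le_mul_of_nonneg_right γ1 p0.le
  have n3 : 2 * (n : ℝ) ≤ p := by rw [hη] at n4; linarith only [n4, gp, p0]
  have ep := mul_le_mul_of_nonneg_right ε2 p0.le
  have kk : p * (K + 1) ≤ (p + 1) * (K + 1) := Nat.mul_le_mul_right _ (Nat.le_succ _)
  have k2 : (1 : ℝ) ≤ 2 * k + 1 := by linarith only [k1]
  have l3 := lw 1 _ zero_le_one k2 kk
  obtain ⟨Δ, d0, d1, d2⟩ := num_d (p := p) (ε := ε) hk hK q2
    (le_trans (le_of_eq (by ring)) g2) g3 (by linarith only [ε2, ε0]) γ0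
    (lw 1 _ zero_le_one k2 (by omega))
  refine ⟨K, g, n, e + 1, M, m, h, a, ε, η, c, c * γ / 2, Δ, hk, by omega, K0,
    by exact_mod_cast (by linarith only [q1, k1] : 2 * (k : ℝ) + 1 ≤ p), ?_, ε0,
    num_F1 hL (by linarith only [q1, k1]) f1 f5 b1, num_F2 hL l1 f4,
    num_F3 hL (by linarith only [l1, K1]) (by omega) (by simpa using f2) b2
      (lw 1 _ zero_le_one k2 le_rfl) (pow_le_one₀ (by
        rw [sub_nonneg, div_le_one p0]; linarith only [q1, k1])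
        (by rw [sub_le_self_iff]; positivity)),
    num_F4 η0 (by positivity) (show 0 < c * γ / 8 by positivity) (by exact_mod_cast n0)
      (by linarith only [q1, k1]) hL (by exact_mod_cast (by linarith only [n3, n0] : (n : ℝ) ≤ p))
      (by linarith only [n1, mul_le_mul_of_nonneg_right θ2 p0.le]) (by linarith only [h2])
      l2, ?_, by positivity, ?_, by push_cast; linarith only [q3], ε2.trans l3, η0,
    by linarith only [hη, γ1], ?_, by linarith only [b3],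
    num_c8 hL η0 (by linarith only [hη, γ1]) (by omega)
      (by rw [hη]; push_cast; linarith only [f3, γ1]) θ0 n2 b4,
    by exact_mod_cast n3, by exact_mod_cast n0, num_c11 hL n0 n2 b5 f1 f5, ?_,
    by exact_mod_cast (by linarith only [m1, gp, q1, k1] : 8 * (m : ℝ) + 1 < p), ?_,
    by linarith only [m1, ep, q5, mul_le_mul_of_nonneg_right l3 p0.le], d0, d1, d2,
    by exact_mod_cast (by linarith only [a2, q8] : (0 : ℝ) < a), ?_,
    by exact_mod_cast (by linarith only [f5, l1] : (K : ℝ) + 1 ≤ (e + 1 : ℕ)),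
    by linarith only [a2, b6], num_a4 p0 (by linarith only [k1]) (by linarith only [f1]) α0 a2 b7⟩
  · rw [le_div_iff₀ (by positivity)] at g1
    exact_mod_cast (by linarith only [g1] : 2 * (k : ℝ) * g ≤ p)
  · rw [div_le_iff₀ p0]
    linarith only [mul_le_mul_of_nonneg_left n4 n0.le]
  · linarith only [mul_le_mul_of_nonneg_left (lw 2 _ (by norm_num) (by linarith only [k1]) le_rfl)
      (show 0 ≤ c * p ^ 2 by positivity), mul_le_mul_of_nonneg_right h1 p0.le]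
  · rw [ε1]
    linarith only [mul_le_mul_of_nonneg_left n2 η0.le]
  · linarith only [mul_le_mul_of_nonneg_left n2 (mul_pos η0 M0).le,
      mul_le_mul_of_nonneg_right hM p0.le]
  · have := pow_le_pow_left₀ (by positivity) m2 2
    rw [hc] at q7 ⊢
    linarith only [this, mul_le_mul_of_nonneg_right q7 p0.le]
  · have e1 := mul_le_mul_of_nonneg_left (lw (2 * k + 1) _ (by positivity) le_rfl le_rfl) p0.le
    have e2 := congrArg (· * (p : ℝ)) hα
    have := mul_le_mul_of_nonneg_right a1 (show (0 : ℝ) ≤ 8 * k * (2 * k + 1) by positivity)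
    linarith only [e1, e2, this, ep, mul_pos γ0 p0]

end Vale.Agent.P045
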