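import Mathlib
import Vale.Agent.P045.Numerics
import Vale.Agent.P045.Defs

namespace Vale.Agent.P045

open Finset

theorem nu_eq_one {V : Type} {H : Finset (Finset V)} (h0 : H.Nonempty)
    (h : ∀ e ∈ H, ∀ e' ∈ H, ∃ v, v ∈ e ∧ v ∈ e') : nu H = 1 := by
  refine IsGreatest.csSup_eq ⟨?_, ?_⟩
  · obtain ⟨e, he⟩ := h0
    refine ⟨{e}, ⟨by simpa using he, ?_⟩, card_singleton e⟩
    intro a ha b hb hab
    exact absurd ((mem_singleton.1 ha).trans (mem_singleton.1 hb).symm) hab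
  · rintro n ⟨M, ⟨h1, h2⟩, rfl⟩
    refine card_le_one.2 fun a ha b hb => ?_
    by_contra hab
    obtain ⟨v, hv, hv'⟩ := h a (h1 ha) b (h1 hb)
    exact disjoint_left.1 (h2 a ha b hb hab) hv hv'

/-- the graph of a function as an edge -/
def grf {A B : Type} [Fintype A] (f : A → B) : Finset (A × B) :=
  univ.map ⟨fun a => (a, f a), fun _ _ h => (Prod.ext_iff.1 h).1⟩

theorem mem_grf {A B : Type} [Fintype A] {f : A → B} {v : A × B} : v ∈ grf f ↔ f v.1 = v.2 := by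
  simp only [grf, mem_map, mem_univ, true_and]
  exact ⟨fun ⟨a, h⟩ => by rw [← h]; rfl, fun h => ⟨v.1, Prod.ext rfl h⟩⟩

theorem card_grf {A B : Type} [Fintype A] (f : A → B) : (grf f).card = Fintype.card A := by
  rw [grf, card_map, card_univ]

theorem of_gad {p k w : ℕ} [Fact p.Prime] (hk : 11 ≤ k) (Γ : Gad p k w) :
    ∃ (V : Type) (_ : Fintype V) (part : V → Fin (p + 1)) (H : Finset (Finset V)),
      IsRPartite part H ∧ H.Nonempty ∧ (∀ e ∈ H, ∀ e' ∈ H, ∃ v, v ∈ e ∧ v ∈ e') ∧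
        nu H = 1 ∧ tau H = p + 1 := by
  classical
  let φ : Dir p ≃ Fin (p + 1) := Fintype.equivFinOfCardEq card_Dir
  let F : Finset (Dir p → Option (ZMod p)) :=
    univ.filter fun f => (∃ z, Γ.X z ∧ f = ept z) ∨ ∃ i b, f = Γ.ex i b
  have mF : ∀ f, f ∈ F ↔ (∃ z, Γ.X z ∧ f = ept z) ∨ ∃ i b, f = Γ.ex i b := fun f => by
    simp only [F, mem_filter, mem_univ, true_and]
  have int : ∀ e ∈ F.image grf, ∀ e' ∈ F.image grf, ∃ v, v ∈ e ∧ v ∈ e' := by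
    intro e he e' he'
    obtain ⟨f, hf, rfl⟩ := mem_image.1 he
    obtain ⟨f', hf', rfl⟩ := mem_image.1 he'
    have : ∃ d, f d = f' d := by
      rcases (mF f).1 hf with ⟨z, hz, rfl⟩ | ⟨i, b, rfl⟩ <;>
        rcases (mF f').1 hf' with ⟨z', hz', rfl⟩ | ⟨i', b', rfl⟩
      · obtain ⟨d, hd⟩ := dir_ex z z'
        exact ⟨d, congrArg some hd⟩
      · obtain ⟨d, hd⟩ := Γ.ex_pt i' b' hz
        exact ⟨d, hd.symm⟩
      · exact Γ.ex_pt i b hz'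
      · exact Γ.ex_ex i b i' b'
    obtain ⟨d, hd⟩ := this
    exact ⟨(d, f d), mem_grf.2 rfl, mem_grf.2 hd.symm⟩
  have m0 : grf (Γ.ex none true) ∈ F.image grf :=
    mem_image_of_mem _ ((mF _).2 (Or.inr ⟨_, _, rfl⟩))
  refine ⟨Dir p × Option (ZMod p), inferInstance, fun v => φ v.1, F.image grf, ?_, ⟨_, m0⟩, int,
    nu_eq_one ⟨_, m0⟩ int, IsLeast.csInf_eq ⟨⟨grf (Γ.ex none true), fun e he => ?_, ?_⟩, ?_⟩⟩
  · intro e he i
    obtain ⟨f, -, rfl⟩ := mem_image.1 he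
    refine ⟨(φ.symm i, f (φ.symm i)), ⟨mem_grf.2 rfl, φ.apply_symm_apply i⟩, ?_⟩
    rintro ⟨d, x⟩ ⟨h1, rfl⟩
    simp only [Equiv.symm_apply_apply]
    exact Prod.ext rfl (mem_grf.1 h1).symm
  · obtain ⟨v, a, b⟩ := int _ m0 e he
    exact ⟨v, a, b⟩
  · rw [card_grf, card_Dir]
  · rintro n ⟨T, hT, rfl⟩
    have key : ∀ f ∈ F, ∃ d, (d, f d) ∈ T := fun f hf => by
      obtain ⟨v, a, b⟩ := hT _ (mem_image_of_mem grf hf)
      exact ⟨v.1, by rw [mem_grf.1 b]; exact a⟩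
    exact Γ.cover hk T (fun z hz => key _ ((mF _).2 (Or.inl ⟨z, hz, rfl⟩)))
      fun i b => key _ ((mF _).2 (Or.inr ⟨i, b, rfl⟩))

theorem counter : ∃ p₀ : ℕ, ∀ p : ℕ, p.Prime → p₀ ≤ p →
    ∃ (V : Type) (_ : Fintype V) (part : V → Fin (p + 1)) (H : Finset (Finset V)),
      IsRPartite part H ∧ H.Nonempty ∧ (∀ e ∈ H, ∀ e' ∈ H, ∃ v, v ∈ e ∧ v ∈ e') ∧
        nu H = 1 ∧ tau H = p + 1 := by
  obtain ⟨p₀, h⟩ := Filter.eventually_atTop.1 (exists_num 11 (by norm_num))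
  refine ⟨p₀, fun p hp hle => ?_⟩
  haveI : Fact p.Prime := ⟨hp⟩
  obtain ⟨K, g, n, f, M, m, h', a, ε, η, c, c', Δ, N⟩ := h p hle
  obtain ⟨Γ⟩ := exists_gad N
  exact of_gad le_rfl Γ

end Vale.Agent.P045
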